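import Vale.Agent.P088.R2.H437.Z0.Fo

/-!
# P088, stage 3, zone 0: the certificate
-/

open Set Filter
open scoped ContDiff Topology Matrix

noncomputable section

namespace Vale.Agent.P088.R2.H437.Z0

open Vale.Agent.P088.LR Vale.Agent.P088.HY Vale.Agent.P088.R2.H961.GW Vale.Agent.P088.R2.H644.Ch
open Vale.Agent.P088.R2.H464.Cu (mid dif rq bf dg Hv up nv Nr sx sy)
open Vale.Agent.P088.R2.H747.SW (gA qf qq)
open Vale.Agent.P088.R2.H960.W (tc)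

variable {n : ℕ}

section slot

variable {σ τ : Sl (VV n) (Fin n)} {Ω : Set (VV n)} {f g f' g' W W' : VV n → ℝ} {z : VV n}

theorem Lc (σ : Sl (VV n) (Fin n)) (hΩ : IsOpen Ω) (e : ∀ w ∈ Ω, f w = g w) :
    ∀ z ∈ Ω, σ.Λ f z = σ.Λ g z := by
  intro z hz
  unfold Sl.Λ
  refine Finset.sum_congr rfl fun i _ => Finset.sum_congr rfl fun j _ => ?_
  rw [D_congr σ hΩ (fun z hz => D_congr σ hΩ e j hz) i hz, D_congr σ hΩ e j hz]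

theorem Gc (σ : Sl (VV n) (Fin n)) (hΩ : IsOpen Ω) (e : ∀ w ∈ Ω, f w = f' w)
    (e' : ∀ w ∈ Ω, g w = g' w) : ∀ z ∈ Ω, σ.Γ f g z = σ.Γ f' g' z := by
  intro z hz
  unfold Sl.Γ
  refine Finset.sum_congr rfl fun i _ => Finset.sum_congr rfl fun j _ => ?_
  rw [D_congr σ hΩ e i hz, D_congr σ hΩ e' j hz]

theorem gAc (σ : Sl (VV n) (Fin n)) (hΩ : IsOpen Ω) (e : ∀ w ∈ Ω, f w = f' w) (hz : z ∈ Ω)
    (A : Fin n → ℝ) : gA σ f z A = gA σ f' z A := by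
  unfold gA
  refine Finset.sum_congr rfl fun i _ => Finset.sum_congr rfl fun j _ => ?_
  rw [D_congr σ hΩ e i hz]

theorem G2c (σ : Sl (VV n) (Fin n)) (hΩ : IsOpen Ω) (e : ∀ w ∈ Ω, W w = W' w) (hz : z ∈ Ω) :
    G2 σ W z = G2 σ W' z := by
  unfold G2
  have e1 : ∀ w ∈ Ω, σ.F W w = σ.F W' w := Gc σ hΩ e e
  rw [Lc σ hΩ e1 z hz, Gc σ hΩ e (Lc σ hΩ e) z hz]

theorem M2c (σ τ : Sl (VV n) (Fin n)) (hΩ : IsOpen Ω) (e : ∀ w ∈ Ω, W w = W' w) (hz : z ∈ Ω) :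
    M2 σ τ W W z = M2 σ τ W' W' z := by
  unfold M2
  refine Finset.sum_congr rfl fun i _ => Finset.sum_congr rfl fun j _ => ?_
  rw [Gc σ hΩ (fun w hw => D_congr τ hΩ e i hw) (fun w hw => D_congr τ hΩ e j hw) z hz]

theorem THc (σ τ : Sl (VV n) (Fin n)) (hΩ : IsOpen Ω) (e : ∀ w ∈ Ω, W w = W' w) (hz : z ∈ Ω)
    (A B : Fin n → ℝ) : TH σ τ W z A B = TH σ τ W' z A B := by
  have h : ∀ σ : Sl (VV n) (Fin n), ∀ i l, σ.Hc W i l z = σ.Hc W' i l z := by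
    intro σ i l
    unfold Sl.Hc
    congr 1
    refine Finset.sum_congr rfl fun j _ => Finset.sum_congr rfl fun k _ => ?_
    rw [D_congr σ hΩ (fun z hz => D_congr σ hΩ e k hz) j hz,
      D_congr σ hΩ (fun z hz => D_congr σ hΩ e j hz) k hz, D_congr σ hΩ e k hz,
      D_congr σ hΩ e j hz]
  have h2 : ∀ i k, Mc σ τ W i k z = Mc σ τ W' i k z := by
    intro i k
    unfold Mc
    refine Finset.sum_congr rfl fun j _ => Finset.sum_congr rfl fun l _ => ?_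
    rw [D_congr σ hΩ (fun z hz => D_congr τ hΩ e l hz) j hz]
  unfold TH
  simp only [h, h2]

theorem qfc (σ τ : Sl (VV n) (Fin n)) (hΩ : IsOpen Ω) (e : ∀ w ∈ Ω, W w = W' w) (hz : z ∈ Ω)
    (v₁ v₂ : VV n → ℝ) (A B : Fin n → ℝ) (x y : ℝ) :
    qf σ τ v₁ v₂ W z A B x y = qf σ τ v₁ v₂ W' z A B x y := by
  unfold qf
  rw [G2c σ hΩ e hz, G2c τ hΩ e hz, M2c σ τ hΩ e hz, gAc σ hΩ (Lc σ hΩ e) hz,
    gAc σ hΩ (Lc τ hΩ e) hz, gAc τ hΩ (Lc σ hΩ e) hz, gAc τ hΩ (Lc τ hΩ e) hz,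
    Lc σ hΩ (Lc σ hΩ e) z hz, Lc σ hΩ (Lc τ hΩ e) z hz, Lc τ hΩ (Lc τ hΩ e) z hz,
    Gc σ hΩ e (fun _ _ => rfl) z hz, Gc τ hΩ e (fun _ _ => rfl) z hz]

end slot

section inst

variable {Λ₀ a c₁ β Λ δ ε s R C : ℝ} {l : V n → ℝ} {g s₁ s₂ : MF n} {Φ S : ℝ → ℝ}
  {O : Set (V n)} {Ω : Set (VV n)} {z v : VV n} {W : VV n → ℝ}

theorem Hz.nb (h : Hz Λ₀ a c₁ β Λ δ ε s R l g s₁ s₂ Φ S O Ω) (hΛ : 1 ≤ Λ) (ha : 0 < a)
    (hc : 0 < c₁) (hδ : δ ≤ 1) (hz : z ∈ Ω) :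
    Nb a c₁ Λ δ s R (deriv Φ (uf l z)) (deriv (deriv Φ) (uf l z)) (Real.exp (uf l z)) :=
  ⟨ha, hc, hΛ, h.d0 hz, hδ, h.s0, h.s1, h.dt.R1, h.dt.N0 z hz, h.dt.K0 z hz, Real.exp_pos _,
    h.EN z hz, h.EK z hz, h.KN z hz, h.KE z hz, h.N1 z hz, h.NR z hz⟩

theorem Hz.wn (h : Hz Λ₀ a c₁ β Λ δ ε s R l g s₁ s₂ Φ S O Ω) (hC : 0 ≤ C) (hz : z ∈ Ω)
    (wb : WB C R l Φ (W0 l g Φ S) z) : Wn Ω (W0 l g Φ S)
      (C * (deriv Φ (uf l z) + Real.exp (uf l z)))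
      (C * (deriv (deriv Φ) (uf l z) + Real.exp (uf l z) + deriv Φ (uf l z) / R)) z := by
  have hN := h.dt.N0 z hz
  have hK := h.dt.K0 z hz
  have hE := Real.exp_pos (uf l z)
  have hR := h.dt.R1
  have hR0 := h.R0
  obtain ⟨N, eN⟩ : ∃ N, N = deriv Φ (uf l z) := ⟨_, rfl⟩
  obtain ⟨K, eK⟩ : ∃ K, K = deriv (deriv Φ) (uf l z) := ⟨_, rfl⟩
  obtain ⟨E, eE⟩ : ∃ E, E = Real.exp (uf l z) := ⟨_, rfl⟩
  have d1 := wb.d1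
  have d2 := wb.d2
  have d3 := wb.d3
  have d4 := wb.d4
  rw [← eN, ← eE] at d1
  rw [← eN, ← eE, ← eK] at d2 d3 d4
  rw [← eN] at hN
  rw [← eK] at hK
  rw [← eE] at hE
  rw [← eN, ← eE, ← eK]
  have r2 : N / R ^ 2 ≤ N / R := by
    have : R ≤ R ^ 2 := by nlinarith
    gcongr
  have r3 : N / R ^ 3 ≤ N / R := by
    have h1 : R ≤ R ^ 2 := by nlinarith
    have : R ≤ R ^ 3 := by nlinarith
    gcongr
  have sW := h.sW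
  have P0 : 0 ≤ C * (K + E + N / R) := by positivity
  refine ⟨fun e he => ⟨sm_dv h.dt.oΩ sW e, ?_, fun w => ?_, fun w w' => ?_⟩,
    fun e e' he he' => ⟨sm_dv h.dt.oΩ (sm_dv h.dt.oΩ sW e') e, ?_, fun w => ?_, fun w w' => ?_⟩⟩
  · refine (d1 e).trans ?_
    exact mul_le_of_le_one_right (by positivity) he
  · refine (d2 w e).trans ?_
    exact mul_le_of_le_one_right (by positivity) he
  · refine (d3 w w' e).trans ?_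
    calc C * (K + E + N / R ^ 2) * ‖w‖ * ‖w'‖ * ‖e‖ ≤ C * (K + E + N / R) * ‖w‖ * ‖w'‖ * 1 := by
          gcongr
      _ = _ := mul_one _
  · refine (d2 e e').trans ?_
    calc C * (K + E + N / R) * ‖e‖ * ‖e'‖ ≤ C * (K + E + N / R) * 1 * 1 := by gcongr
      _ = _ := by ring
  · refine (d3 w e e').trans ?_
    calc C * (K + E + N / R ^ 2) * ‖w‖ * ‖e‖ * ‖e'‖ ≤ C * (K + E + N / R) * ‖w‖ * 1 * 1 := by
          gcongr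
      _ = _ := by ring
  · refine (d4 w w' e e').trans ?_
    calc C * (K + E + N / R ^ 3) * ‖w‖ * ‖w'‖ * ‖e‖ * ‖e'‖ ≤
          C * (K + E + N / R) * ‖w‖ * ‖w'‖ * 1 * 1 := by gcongr
      _ = _ := by ring

/-- The constants `b`, `b'`. -/
def bb (a Λ : ℝ) : ℝ := Λ * (1 + 1 / a)

theorem Nb.pn {a c₁ Λ δ s R N K E C : ℝ} (h : Nb a c₁ Λ δ s R N K E) (hC : 1 ≤ C) :
    Pn Λ (bb a Λ) (Λ + 1) (Λ / R) (C * (N + E)) (C * (K + E + N / R)) := by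
  have hN := h.N0; have hK := h.K0; have hE := h.E0; have ha := h.a0; have hR := h.R1
  have hR0 : 0 < R := by linarith
  have hΛ := h.Λ1
  have hΛ0 : 0 < Λ := by linarith
  have hC0 : 0 < C := by linarith
  have a0 : 0 < 1 / a := by positivity
  refine ⟨by positivity, div_le_self hΛ0.le hR, by unfold bb; positivity, by positivity,
    by positivity, ?_, ?_, ?_⟩
  · unfold bb
    have h1 := h.NE
    calc Λ / R * (C * (N + E)) ≤ Λ / R * (C * ((1 + 1 / a) * N)) := by gcongr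
      _ = Λ * (1 + 1 / a) * (C * (N / R)) := by ring
      _ ≤ Λ * (1 + 1 / a) * (C * (K + E + N / R)) := by
        have : N / R ≤ K + E + N / R := by linarith
        gcongr
  · have h1 := h.KN
    have h2 : N / R ≤ N := div_le_self hN.le hR
    have h3 : K + E + N / R ≤ (Λ + 1) * (N + E) := by nlinarith
    calc C * (K + E + N / R) ≤ C * ((Λ + 1) * (N + E)) := by gcongr
      _ = _ := by ring
  · have h1 := h.Ng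
    calc (1 : ℝ) = 1 * 1 := by norm_num
      _ ≤ C * (N + E) := by gcongr; linarith

theorem gA_x {s₁ : MF n} (hs : ∀ x i j, s₁ x i j = s₁ x j i) (f : VV n → ℝ) (z : VV n)
    (A : Fin n → ℝ) : gA (sx s₁) f z A = dv (up (s₁ z.1) A, 0) f z := by
  rw [dv_inl]
  unfold gA up Vale.Agent.P088.R2.H464.Cu.dt
  refine Finset.sum_congr rfl fun i _ => ?_
  rw [Finset.sum_mul]
  refine Finset.sum_congr rfl fun j _ => ?_
  rw [Vale.Agent.P088.R2.H464.Cu.Dx1 i f z, hs z.1 j i]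
  show s₁ z.1 i j * dx i f z * A j = _
  ring

theorem gA_y {s₂ : MF n} (hs : ∀ x i j, s₂ x i j = s₂ x j i) (f : VV n → ℝ) (z : VV n)
    (A : Fin n → ℝ) : gA (sy s₂) f z A = dv (0, up (s₂ z.2) A) f z := by
  rw [dv_inr]
  unfold gA up Vale.Agent.P088.R2.H464.Cu.dt
  refine Finset.sum_congr rfl fun i _ => ?_
  rw [Finset.sum_mul]
  refine Finset.sum_congr rfl fun j _ => ?_
  rw [Vale.Agent.P088.R2.H464.Cu.Dy1 i f z, hs z.2 j i]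
  show s₂ z.2 i j * dy i f z * A j = _
  ring

theorem gA_xy {s₁ s₂ : MF n} (h₁ : ∀ x i j, s₁ x i j = s₁ x j i)
    (h₂ : ∀ x i j, s₂ x i j = s₂ x j i) (f : VV n → ℝ) (z : VV n) (A B : Fin n → ℝ) :
    gA (sx s₁) f z A + gA (sy s₂) f z B = dv (up (s₁ z.1) A, up (s₂ z.2) B) f z := by
  rw [gA_x h₁, gA_y h₂]
  unfold dv
  rw [← map_add]
  congr 1
  simp

/-- The first order terms in one slot. -/
theorem Hz.fo1 (h : Hz Λ₀ a c₁ β Λ δ ε s R l g s₁ s₂ Φ S O Ω) (hΛ : 1 ≤ Λ) (ha : 0 < a)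
    (hc : 0 < c₁) (hδ : δ ≤ 1) (hC : 1 ≤ C) (hz : z ∈ Ω) (wb : WB C R l Φ (W0 l g Φ S) z)
    {σ : Sl (VV n) (Fin n)} (hσ : Sg σ (Λ / R) Ω z) (v : VV n) (x : ℝ) :
    8 * |x * dv v (σ.Λ (W0 l g Φ S)) z| ≤
      1 / 8 * (deriv (deriv Φ) (uf l z) * dv v (uf l) z ^ 2 +
        Real.exp (uf l z) * Vale.Agent.P088.R2.H464.Cu.dt (v.1 - v.2) (v.1 - v.2) +
        s * deriv Φ (uf l z) * (Vale.Agent.P088.R2.H464.Cu.dt v.1 v.1 +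
          Vale.Agent.P088.R2.H464.Cu.dt v.2 v.2)) +
      128 * C3 n a Λ C ^ 2 * ((1 + 1 / c₁) ^ 2 + 5) *
        (δ * Gz s (deriv Φ (uf l z)) (Real.exp (uf l z))) * x ^ 2 := by
  have nb := h.nb hΛ ha hc hδ hz
  have wn := h.wn (by linarith : (0:ℝ) ≤ C) hz wb
  have P := nb.pn hC
  have fb := hσ.fb h.dt.oΩ hz P.L0 wn (v := v) (X := C * ((deriv (deriv Φ) (uf l z) +
    Real.exp (uf l z)) * (|dv v (uf l) z| + ‖v.1 - v.2‖ + ‖v‖ / R) +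
      deriv Φ (uf l z) / R ^ 2 * ‖v‖)) (fun e e' he he' => by
    refine (wb.d3v v e e').trans ?_
    have h1 : 0 ≤ C * ((deriv (deriv Φ) (uf l z) + Real.exp (uf l z)) * om l R z v +
        deriv Φ (uf l z) / R ^ 2 * ‖v‖) := by
      have := h.dt.N0 z hz
      have := h.dt.K0 z hz
      have := h.R0
      have : 0 ≤ om l R z v := by unfold om; positivity
      positivity
    calc _ ≤ C * ((deriv (deriv Φ) (uf l z) + Real.exp (uf l z)) * om l R z v +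
        deriv Φ (uf l z) / R ^ 2 * ‖v‖) * 1 * 1 := by gcongr
      _ = _ := by rw [mul_one, mul_one]; rfl)
  have key := fb.trans (nb.c3 (by linarith) (abs_nonneg (dv v (uf l) z))
    (norm_nonneg (v.1 - v.2)) (norm_nonneg v))
  have := nb.fo (x := x) key (nsq (v.1 - v.2)) (nsq2 v)
  rwa [sq_abs] at this

end inst

/-- The constant of the certificate. -/
def CT (n : ℕ) (a c₁ Λ C : ℝ) : ℝ := 40 * (CZ n Λ (bb a Λ) (Λ + 1) * C ^ 2 * (1 + 1 / a)) +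
  128 * C3 n a Λ C ^ 2 * ((1 + 1 / c₁) ^ 2 + 5)

theorem CT_pos (n : ℕ) {a c₁ Λ C : ℝ} (ha : 0 < a) (hΛ : 0 ≤ Λ) : 0 ≤ CT n a c₁ Λ C := by
  unfold CT CZ bb cL cF; positivity

/-- The bound of the constant `c₂` of the forms. -/
def c2T (n : ℕ) (Λ₀ a c₁ : ℝ) : ℝ :=
  min (1 / 2 * c₁) (min (1 / (32 * Λ₀ ^ 2)) (1 / (4 * (1 / a + 2 * n))))

theorem c2T_pos (n : ℕ) {Λ₀ a c₁ : ℝ} (hΛ : 1 ≤ Λ₀) (ha : 0 < a) (hc : 0 < c₁) :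
    0 < c2T n Λ₀ a c₁ := by
  unfold c2T; positivity

/-- The smallness of `δ`. -/
def dC (n : ℕ) (Λ₀ a c₁ Λ C c₂ η : ℝ) : ℝ :=
  min (dT n a C) (min (1 / Λ ^ 2) (η * c₂ * cQ n Λ₀ / (CT n a c₁ Λ C + 1)))

theorem dC_pos (n : ℕ) {Λ₀ a c₁ Λ C c₂ η : ℝ} (ha : 0 < a) (hΛ : 1 ≤ Λ)
    (hC : 0 ≤ C) (hc₂ : 0 < c₂) (hη : 0 < η) : 0 < dC n Λ₀ a c₁ Λ C c₂ η := by
  have h1 := dT_pos n ha hC
  have h2 := cQ_pos n Λ₀
  have h3 := CT_pos n (c₁ := c₁) (C := C) ha (by linarith : (0:ℝ) ≤ Λ)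
  unfold dC; positivity

section fin

variable {Λ₀ a c₁ β Λ δ ε s R C c₂ η : ℝ} {l : V n → ℝ} {g s₁ s₂ : MF n} {Φ S : ℝ → ℝ}
  {O : Set (V n)} {Ω : Set (VV n)} {z v : VV n} {W : VV n → ℝ}

/-- The quantum terms. -/
theorem qf_ge (h : Hz Λ₀ a c₁ β Λ δ ε s R l g s₁ s₂ Φ S O Ω) (hΛ : 1 ≤ Λ) (ha : 0 < a)
    (hc : 0 < c₁) (hδ : δ ≤ 1) (hC : 1 ≤ C) (hz : z ∈ Ω) (wb : WB C R l Φ (W0 l g Φ S) z)
    (A B : V n) (hv : v = (up (s₁ z.1) A, up (s₂ z.2) B)) (x y : ℝ) :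
    -(1 / 4 * (deriv (deriv Φ) (uf l z) * dv v (uf l) z ^ 2 +
        Real.exp (uf l z) * Vale.Agent.P088.R2.H464.Cu.dt (v.1 - v.2) (v.1 - v.2) +
        s * deriv Φ (uf l z) * (Vale.Agent.P088.R2.H464.Cu.dt v.1 v.1 +
          Vale.Agent.P088.R2.H464.Cu.dt v.2 v.2))) -
      CT n a c₁ Λ C * δ * Gz s (deriv Φ (uf l z)) (Real.exp (uf l z)) * (x ^ 2 + y ^ 2) ≤
      qf (sx s₁) (sy s₂) 0 0 (W0 l g Φ S) z A B x y := by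
  have nb := h.nb hΛ ha hc hδ hz
  have wn := h.wn (by linarith : (0:ℝ) ≤ C) hz wb
  have P := nb.pn hC
  have hs₁ := h.sg₁ (by linarith : (0:ℝ) ≤ Λ) hz
  have hs₂ := h.sg₂ (by linarith : (0:ℝ) ≤ Λ) hz
  have z1 := zo h.dt.oΩ hz hs₁ hs₂ P wn x y
  have f1 := h.fo1 hΛ ha hc hδ hC hz wb hs₁ v x
  have f2 := h.fo1 hΛ ha hc hδ hC hz wb hs₂ v y
  have g1 := gA_xy h.n₁.sy h.n₂.sy ((sx s₁).Λ (W0 l g Φ S)) z A B
  have g2 := gA_xy h.n₁.sy h.n₂.sy ((sy s₂).Λ (W0 l g Φ S)) z A B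
  rw [← hv] at g1 g2
  have b1 := neg_abs_le (x * dv v ((sx s₁).Λ (W0 l g Φ S)) z)
  have b1' := le_abs_self (x * dv v ((sx s₁).Λ (W0 l g Φ S)) z)
  have b2' := le_abs_self (y * dv v ((sy s₂).Λ (W0 l g Φ S)) z)
  have pp := nb.pp
  obtain ⟨G, hG⟩ : ∃ G, G = Gz s (deriv Φ (uf l z)) (Real.exp (uf l z)) := ⟨_, rfl⟩
  rw [← hG] at f1 f2 pp ⊢
  have CZ0 : 0 ≤ CZ n Λ (bb a Λ) (Λ + 1) := by
    unfold CZ bb cL cF; positivity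
  have e0 : 20 * (CZ n Λ (bb a Λ) (Λ + 1) * (C * (deriv Φ (uf l z) + Real.exp (uf l z)) *
      (C * (deriv (deriv Φ) (uf l z) + Real.exp (uf l z) + deriv Φ (uf l z) / R)))) *
      (x ^ 2 + y ^ 2) ≤ 40 * (CZ n Λ (bb a Λ) (Λ + 1) * C ^ 2 * (1 + 1 / a)) * δ * G *
      (x ^ 2 + y ^ 2) := by
    have h1 : 20 * (CZ n Λ (bb a Λ) (Λ + 1) * (C * (deriv Φ (uf l z) + Real.exp (uf l z)) *
      (C * (deriv (deriv Φ) (uf l z) + Real.exp (uf l z) + deriv Φ (uf l z) / R)))) =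
      20 * (CZ n Λ (bb a Λ) (Λ + 1) * C ^ 2) * ((deriv Φ (uf l z) + Real.exp (uf l z)) *
      (deriv (deriv Φ) (uf l z) + Real.exp (uf l z) + deriv Φ (uf l z) / R)) := by ring
    rw [h1]
    have h2 : 40 * (CZ n Λ (bb a Λ) (Λ + 1) * C ^ 2 * (1 + 1 / a)) * δ * G =
      20 * (CZ n Λ (bb a Λ) (Λ + 1) * C ^ 2) * (2 * (1 + 1 / a) * (δ * G)) := by ring
    rw [h2]
    gcongr
  have e1 : qf (sx s₁) (sy s₂) 0 0 (W0 l g Φ S) z A B x y =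
      -(8 * (G2 (sx s₁) (W0 l g Φ S) z * x ^ 2 +
        2 * (M2 (sx s₁) (sy s₂) (W0 l g Φ S) (W0 l g Φ S) z * (x * y)) +
        G2 (sy s₂) (W0 l g Φ S) z * y ^ 2)) +
      2 * ((sx s₁).Λ ((sx s₁).Λ (W0 l g Φ S)) z * x ^ 2 +
        2 * ((sx s₁).Λ ((sy s₂).Λ (W0 l g Φ S)) z * (x * y)) +
        (sy s₂).Λ ((sy s₂).Λ (W0 l g Φ S)) z * y ^ 2) -
      8 * (x * (gA (sx s₁) ((sx s₁).Λ (W0 l g Φ S)) z A +
          gA (sy s₂) ((sx s₁).Λ (W0 l g Φ S)) z B) +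
        y * (gA (sx s₁) ((sy s₂).Λ (W0 l g Φ S)) z A +
          gA (sy s₂) ((sy s₂).Λ (W0 l g Φ S)) z B)) := by
    have q1 : (sx s₁).Γ (W0 l g Φ S) 0 z = 0 := by
      unfold Sl.Γ
      have : ∀ j, (sx s₁).D j (0 : VV n → ℝ) z = 0 := fun j => D_const (sx s₁) 0 j z
      simp [this]
    have q2 : (sy s₂).Γ (W0 l g Φ S) 0 z = 0 := by
      unfold Sl.Γ
      have : ∀ j, (sy s₂).D j (0 : VV n → ℝ) z = 0 := fun j => D_const (sy s₂) 0 j z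
      simp [this]
    unfold qf
    rw [q1, q2]
    ring
  rw [e1, g1, g2]
  have e2 : CT n a c₁ Λ C * δ * G * (x ^ 2 + y ^ 2) =
      40 * (CZ n Λ (bb a Λ) (Λ + 1) * C ^ 2 * (1 + 1 / a)) * δ * G * (x ^ 2 + y ^ 2) +
      128 * C3 n a Λ C ^ 2 * ((1 + 1 / c₁) ^ 2 + 5) * (δ * G) * x ^ 2 +
      128 * C3 n a Λ C ^ 2 * ((1 + 1 / c₁) ^ 2 + 5) * (δ * G) * y ^ 2 := by
    unfold CT; ring
  rw [e2]
  linarith

/-- **The certificate of zone 0.** -/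
theorem cert1 (h : Hz Λ₀ a c₁ β Λ δ ε s R l g s₁ s₂ Φ S O Ω) (hΛ₀ : 1 ≤ Λ₀) (hΛ : 1 ≤ Λ)
    (ha : 0 < a) (hc : 0 < c₁) (hC : 1 ≤ C) (hη : 0 < η) (hc₂ : 0 < c₂)
    (hc₂' : c₂ ≤ c2T n Λ₀ a c₁) (hβ : β ≤ bT n Λ₀ a c₁) (hβ' : kX n Λ₀ a * β ≤ 1)
    (hδ : δ ≤ dC n Λ₀ a c₁ Λ C c₂ η) (hz : z ∈ Ω) (wb : WB C R l Φ (W0 l g Φ S) z)
    (A B : Fin n → ℝ) (x y : ℝ) :
    4 * (qq (Q1 c₂ s l s₁ Φ) A z + qq (Q2 c₂ s l s₂ Φ) B z) -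
      η * (qq (Q1 c₂ s l s₁ Φ) (fun i => (sx s₁).D i (W0 l g Φ S) z) z * x ^ 2 +
        qq (Q2 c₂ s l s₂ Φ) (fun i => (sy s₂).D i (W0 l g Φ S) z) z * y ^ 2) ≤
    8 * TH (sx s₁) (sy s₂) (W0 l g Φ S) z A B +
      qf (sx s₁) (sy s₂) 0 0 (W0 l g Φ S) z A B x y := by
  obtain ⟨v, hv⟩ : ∃ v : VV n, v = (up (s₁ z.1) A, up (s₂ z.2) B) := ⟨_, rfl⟩
  unfold c2T at hc₂'
  obtain ⟨k1, k2⟩ := le_min_iff.1 hc₂'
  obtain ⟨k2, k3⟩ := le_min_iff.1 k2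
  rw [le_div_iff₀ (by positivity)] at k2 k3
  unfold dC at hδ
  obtain ⟨d1, d2⟩ := le_min_iff.1 hδ
  obtain ⟨d2, d3⟩ := le_min_iff.1 d2
  have CT0 := CT_pos n (c₁ := c₁) (C := C) ha (by linarith : (0:ℝ) ≤ Λ)
  rw [le_div_iff₀ (by positivity)] at d2 d3
  have d0 : δ ≤ 1 := by
    unfold dT at d1
    exact (le_min_iff.1 d1).1
  have b1 : β ≤ 1 := by
    unfold bT at hβ
    exact (le_min_iff.1 hβ).1
  have t1 := TH_lower h hΛ₀ ha (by linarith) hβ d1 hz wb A B hv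
  have t2 := q_le h (by linarith) ha b1 (by linarith) hz hc₂.le k1 (by linarith) (by linarith)
    A B hv
  have t3 := qf_ge h hΛ ha hc d0 hC hz wb A B hv x y
  obtain ⟨t4, t5⟩ := qDW_ge h hΛ₀ ha b1 hβ' hz hc₂.le
  have hN := h.dt.N0 z hz
  have hK := h.dt.K0 z hz
  have hE := Real.exp_pos (uf l z)
  have hs := h.s0
  have hd := h.d0 hz
  have D0 := Vale.Agent.P088.R2.H464.Cu.dt_nonneg (v.1 - v.2)
  have M1 := Vale.Agent.P088.R2.H464.Cu.dt_nonneg v.1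
  have M2 := Vale.Agent.P088.R2.H464.Cu.dt_nonneg v.2
  obtain ⟨N, eN⟩ : ∃ N, N = deriv Φ (uf l z) := ⟨_, rfl⟩
  obtain ⟨K, eK⟩ : ∃ K, K = deriv (deriv Φ) (uf l z) := ⟨_, rfl⟩
  obtain ⟨E, eE⟩ : ∃ E, E = Real.exp (uf l z) := ⟨_, rfl⟩
  rw [← eN, ← eE] at t4 t5
  rw [← eN, ← eE, ← eK] at t1 t2 t3
  rw [← eN] at hN
  rw [← eK] at hK
  rw [← eE] at hE
  obtain ⟨q, hq⟩ : ∃ q, q = qq (Q1 c₂ s l s₁ Φ) (fun i => (sx s₁).D i (W0 l g Φ S) z) z := ⟨_, rfl⟩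
  obtain ⟨q', hq'⟩ : ∃ q', q' = qq (Q2 c₂ s l s₂ Φ) (fun i => (sy s₂).D i (W0 l g Φ S) z) z :=
    ⟨_, rfl⟩
  rw [← hq] at t4 ⊢
  rw [← hq'] at t5 ⊢
  have G0 : 0 ≤ Gz s N E := by unfold Gz; positivity
  have eG : (E + s * N) * N ^ 2 = Gz s N E := rfl
  rw [eG] at t4 t5
  have u1 : CT n a c₁ Λ C * δ * Gz s N E ≤ η * q := by
    have : CT n a c₁ Λ C * δ ≤ η * c₂ * cQ n Λ₀ := by linarith
    calc CT n a c₁ Λ C * δ * Gz s N E ≤ (η * c₂ * cQ n Λ₀) * Gz s N E := by gcongr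
      _ = η * (c₂ * cQ n Λ₀ * Gz s N E) := by ring
      _ ≤ _ := by gcongr
  have u2 : CT n a c₁ Λ C * δ * Gz s N E ≤ η * q' := by
    have : CT n a c₁ Λ C * δ ≤ η * c₂ * cQ n Λ₀ := by linarith
    calc CT n a c₁ Λ C * δ * Gz s N E ≤ (η * c₂ * cQ n Λ₀) * Gz s N E := by gcongr
      _ = η * (c₂ * cQ n Λ₀ * Gz s N E) := by ring
      _ ≤ _ := by gcongr
  have u3 := mul_le_mul_of_nonneg_right u1 (sq_nonneg x)
  have u4 := mul_le_mul_of_nonneg_right u2 (sq_nonneg y)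
  have w1 : 0 ≤ K * dv v (uf l) z ^ 2 := by positivity
  have w2 : 0 ≤ E * Vale.Agent.P088.R2.H464.Cu.dt (v.1 - v.2) (v.1 - v.2) := by positivity
  have w3 : 0 ≤ s * N * (Vale.Agent.P088.R2.H464.Cu.dt v.1 v.1 +
    Vale.Agent.P088.R2.H464.Cu.dt v.2 v.2) := by positivity
  linarith

/-- **The certificate of zone 0**, for a weight which is `W0` on `Ω`. -/
theorem cert0 (h : Hz Λ₀ a c₁ β Λ δ ε s R l g s₁ s₂ Φ S O Ω) (hΛ₀ : 1 ≤ Λ₀) (hΛ : 1 ≤ Λ)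
    (ha : 0 < a) (hc : 0 < c₁) (hC : 1 ≤ C) (hη : 0 < η) (hc₂ : 0 < c₂)
    (hc₂' : c₂ ≤ c2T n Λ₀ a c₁) (hβ : β ≤ bT n Λ₀ a c₁) (hβ' : kX n Λ₀ a * β ≤ 1)
    (hδ : δ ≤ dC n Λ₀ a c₁ Λ C c₂ η) (hz : z ∈ Ω) (wb : WB C R l Φ (W0 l g Φ S) z)
    (hW : ∀ w ∈ Ω, W w = W0 l g Φ S w) (A B : Fin n → ℝ) (x y : ℝ) :
    4 * (qq (Q1 c₂ s l s₁ Φ) A z + qq (Q2 c₂ s l s₂ Φ) B z) -
      η * (qq (Q1 c₂ s l s₁ Φ) (fun i => (sx s₁).D i W z) z * x ^ 2 +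
        qq (Q2 c₂ s l s₂ Φ) (fun i => (sy s₂).D i W z) z * y ^ 2) ≤
    8 * (TH (sx s₁) (sy s₂) W z A B + tc (sx s₁) (fun _ _ => 0) W z A +
      tc (sy s₂) (fun _ _ => 0) W z B) + qf (sx s₁) (sy s₂) 0 0 W z A B x y := by
  have hΩ := h.dt.oΩ
  have e1 : (fun i => (sx s₁).D i W z) = fun i => (sx s₁).D i (W0 l g Φ S) z :=
    funext fun i => D_congr _ hΩ hW i hz
  have e2 : (fun i => (sy s₂).D i W z) = fun i => (sy s₂).D i (W0 l g Φ S) z :=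
    funext fun i => D_congr _ hΩ hW i hz
  have e3 : ∀ (σ : Sl (VV n) (Fin n)) (W : VV n → ℝ) (A : Fin n → ℝ),
      tc σ (fun _ _ => 0) W z A = 0 := by
    intro σ W A
    unfold tc
    simp
  rw [e1, e2, e3, e3, THc _ _ hΩ hW hz, qfc _ _ hΩ hW hz, add_zero, add_zero]
  exact cert1 h hΛ₀ hΛ ha hc hC hη hc₂ hc₂' hβ hβ' hδ hz wb A B x y

end fin

end Vale.Agent.P088.R2.H437.Z0
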