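import Vale.Agent.P088.R2.H437.Z0.Spec
import Vale.Agent.P088.R2.H464.EP.Lfun

/-!
# P088, stage 3, zone 0: first and second derivatives of the weight
-/

open Set Filter
open scoped ContDiff Topology Matrix

noncomputable section

namespace Vale.Agent.P088.R2.H437.Z0

open Vale.Agent.P088.LR Vale.Agent.P088.HY Vale.Agent.P088.R2.H961.GW Vale.Agent.P088.R2.H644.Ch
open Vale.Agent.P088.R2.H464.Cu (mid dif rq bf dg Hv up nv dt)

variable {n : ℕ}

theorem hv_comp {Ψ : ℝ → ℝ} {f : VV n → ℝ} {w z : VV n} {a : ℝ} (hΨ : DifferentiableAt ℝ Ψ (f z))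
    (hf : Hv w f a z) : Hv w (fun z => Ψ (f z)) (deriv Ψ (f z) * a) z := by
  have h : HasFDerivAt (fun z => Ψ (f z)) (deriv Ψ (f z) • fderiv ℝ f z) z :=
    hΨ.hasDerivAt.comp_hasFDerivAt z hf.d.hasFDerivAt
  refine ⟨h.differentiableAt, ?_⟩
  rw [h.fderiv]
  simp [hf.e]

theorem hv_of {f : VV n → ℝ} {w z : VV n} (h : DifferentiableAt ℝ f z) : Hv w f (dv w f z) z :=
  ⟨h, rfl⟩

section der

variable {l : V n → ℝ} {g : MF n} {Φ S : ℝ → ℝ} {z v w : VV n} {Ω : Set (VV n)}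

/-- The first derivative. -/
theorem W0_d (hΦ : ContDiff ℝ ∞ Φ) (hS : ContDiff ℝ ∞ S) (hu : DifferentiableAt ℝ (uf l) z)
    (hr : DifferentiableAt ℝ (rq g) z) (v : VV n) : Hv v (W0 l g Φ S)
      (deriv Φ (uf l z) * dv v (uf l) z + (Real.exp (uf l z) * dv v (uf l) z * S (rq g z) +
        Real.exp (uf l z) * (deriv S (rq g z) * dv v (rq g) z))) z := by
  have h1 : Hv v (fun z => Real.exp (uf l z)) (Real.exp (uf l z) * dv v (uf l) z) z := by
    have := hv_comp (Ψ := Real.exp) Real.differentiableAt_exp (hv_of (w := v) hu)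
    rwa [Real.deriv_exp] at this
  exact (hv_comp (hΦ.differentiable (by simp) _) (hv_of hu)).add
    (h1.mul (hv_comp (hS.differentiable (by simp) _) (hv_of hr)))

theorem dS (hS : ContDiff ℝ ∞ S) : ContDiff ℝ ∞ (deriv S) :=
  ((contDiff_succ_iff_deriv (n := ∞)).1 (by simpa using hS)).2.2

theorem sm_dv {f : VV n → ℝ} (hΩ : IsOpen Ω) (hf : ContDiffOn ℝ ∞ f Ω) (v : VV n) :
    ContDiffOn ℝ ∞ (dv v f) Ω := by
  have h : ContDiffOn ℝ ∞ (fderiv ℝ f) Ω := hf.fderiv_of_isOpen hΩ (by norm_num)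
  exact h.clm_apply contDiffOn_const

theorem df_on {f : VV n → ℝ} (hΩ : IsOpen Ω) (hf : ContDiffOn ℝ ∞ f Ω) (hz : z ∈ Ω) :
    DifferentiableAt ℝ f z :=
  ((hf z hz).contDiffAt (hΩ.mem_nhds hz)).differentiableAt (by simp)

/-- The second derivative. -/
theorem W0_dd (hΦ : ContDiff ℝ ∞ Φ) (hS : ContDiff ℝ ∞ S) (hΩ : IsOpen Ω)
    (hu : ContDiffOn ℝ ∞ (uf l) Ω) (hr : ContDiffOn ℝ ∞ (rq g) Ω) (hz : z ∈ Ω) (v : VV n) :
    dv v (dv v (W0 l g Φ S)) z = deriv (deriv Φ) (uf l z) * dv v (uf l) z ^ 2 +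
      (deriv Φ (uf l z) + Real.exp (uf l z) * S (rq g z)) * dv v (dv v (uf l)) z +
      Real.exp (uf l z) * (S (rq g z) * dv v (uf l) z ^ 2 +
        2 * deriv S (rq g z) * dv v (rq g) z * dv v (uf l) z +
        deriv (deriv S) (rq g z) * dv v (rq g) z ^ 2 + deriv S (rq g z) * dv v (dv v (rq g)) z) := by
  have e1 : dv v (W0 l g Φ S) =ᶠ[𝓝 z] fun z => deriv Φ (uf l z) * dv v (uf l) z +
      (Real.exp (uf l z) * dv v (uf l) z * S (rq g z) +
        Real.exp (uf l z) * (deriv S (rq g z) * dv v (rq g) z)) := by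
    filter_upwards [hΩ.mem_nhds hz] with y hy
    exact (W0_d hΦ hS (df_on hΩ hu hy) (df_on hΩ hr hy) v).e
  have du := df_on hΩ hu hz
  have dr := df_on hΩ hr hz
  have du2 := df_on hΩ (sm_dv hΩ hu v) hz
  have dr2 := df_on hΩ (sm_dv hΩ hr v) hz
  have h1 : Hv v (fun z => Real.exp (uf l z)) (Real.exp (uf l z) * dv v (uf l) z) z := by
    have := hv_comp (Ψ := Real.exp) Real.differentiableAt_exp (hv_of (w := v) du)
    rwa [Real.deriv_exp] at this
  have h2 := ((hv_comp ((dS hΦ).differentiable (by simp) _) (hv_of (w := v) du)).mul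
    (hv_of (w := v) du2)).add
    (((h1.mul (hv_of (w := v) du2)).mul (hv_comp (hS.differentiable (by simp) _)
      (hv_of (w := v) dr))).add
    (h1.mul ((hv_comp ((dS hS).differentiable (by simp) _) (hv_of (w := v) dr)).mul
      (hv_of (w := v) dr2))))
  have e2 := (congrArg (fun L : VV n →L[ℝ] ℝ => L v) e1.fderiv_eq).trans h2.e
  refine Eq.trans e2 ?_
  ring

end der

end Vale.Agent.P088.R2.H437.Z0
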