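import Mathlib

/-!
# P088, stage 3, zone 0: the arithmetic of the errors
-/

noncomputable section

namespace Vale.Agent.P088.R2.H437.Z0

/-- The numbers at a point of zone 0. -/
structure Nb (a c₁ Λ δ s R N K E : ℝ) : Prop where
  a0 : 0 < a
  c0 : 0 < c₁
  Λ1 : 1 ≤ Λ
  d0 : 0 < δ
  d1 : δ ≤ 1
  s0 : 0 < s
  s1 : s ≤ 1
  R1 : 1 ≤ R
  N0 : 0 < N
  K0 : 0 < K
  E0 : 0 < E
  EN : a * E ≤ N
  EK : c₁ * E ≤ K
  KN : K ≤ Λ * N
  KE : K ≤ δ * (E * N)
  N1 : 1 ≤ δ * N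
  NR : 1 / R ≤ δ * (s * N)

variable {a c₁ Λ δ s R N K E : ℝ}

theorem Nb.Ng (h : Nb a c₁ Λ δ s R N K E) : 1 ≤ N := by
  have := h.N1
  have := h.N0
  have := h.d1
  nlinarith

theorem Nb.NE (h : Nb a c₁ Λ δ s R N K E) : N + E ≤ (1 + 1 / a) * N := by
  have h2 : E ≤ 1 / a * N := by
    rw [one_div, ← div_eq_inv_mul, le_div_iff₀ h.a0]; linarith [h.EN]
  linarith

theorem Nb.KE' (h : Nb a c₁ Λ δ s R N K E) : K + E ≤ (1 + 1 / c₁) * K := by
  have h2 : E ≤ 1 / c₁ * K := by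
    rw [one_div, ← div_eq_inv_mul, le_div_iff₀ h.c0]; linarith [h.EK]
  linarith

/-- The weight of the gain of order zero. -/
def Gz (s N E : ℝ) : ℝ := (E + s * N) * N ^ 2

theorem Nb.G0 (h : Nb a c₁ Λ δ s R N K E) : 0 < Gz s N E := by
  have := h.E0; have := h.s0; have := h.N0
  unfold Gz; positivity

theorem Nb.EN2 (h : Nb a c₁ Λ δ s R N K E) : E * N ^ 2 ≤ Gz s N E := by
  have := h.E0; have := h.s0; have := h.N0
  unfold Gz
  have : 0 ≤ s * N * N ^ 2 := by positivity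
  linarith

theorem Nb.sN3 (h : Nb a c₁ Λ δ s R N K E) : s * N * N ^ 2 ≤ Gz s N E := by
  have := h.E0; have := h.s0; have := h.N0
  unfold Gz
  have : 0 ≤ E * N ^ 2 := by positivity
  linarith

theorem Nb.E1 (h : Nb a c₁ Λ δ s R N K E) : E ≤ δ * (E * N ^ 2) := by
  have h1 := h.N1; have h2 := h.E0; have h3 := h.Ng; have h4 := h.N0; have := h.d0
  calc E = E * 1 := (mul_one _).symm
    _ ≤ E * (δ * N) := by gcongr
    _ ≤ E * (δ * N) * N := le_mul_of_one_le_right (by positivity) h3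
    _ = _ := by ring

theorem Nb.K1 (h : Nb a c₁ Λ δ s R N K E) : K ≤ δ * (E * N ^ 2) := by
  have h1 := h.KE; have h2 := h.E0; have h3 := h.Ng; have h4 := h.N0; have := h.d0
  calc K ≤ δ * (E * N) := h1
    _ ≤ δ * (E * N) * N := le_mul_of_one_le_right (by positivity) h3
    _ = _ := by ring

/-- The product of the sizes of `DW` and `D²W`. -/
theorem Nb.pp (h : Nb a c₁ Λ δ s R N K E) :
    (N + E) * (K + E + N / R) ≤ 2 * (1 + 1 / a) * (δ * Gz s N E) := by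
  have hN := h.N0; have hK := h.K0; have hE := h.E0; have hR := h.R1; have ha := h.a0
  have hd := h.d0; have hs := h.s0
  have h1 : N * K ≤ δ * (E * N ^ 2) := by
    calc N * K ≤ N * (δ * (E * N)) := by gcongr; exact h.KE
      _ = _ := by ring
  have h2 : N * E ≤ δ * (E * N ^ 2) := by
    calc N * E = N * E * 1 := (mul_one _).symm
      _ ≤ N * E * (δ * N) := by gcongr; exact h.N1
      _ = _ := by ring
  have h3 : N * (N / R) ≤ δ * (s * N * N ^ 2) := by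
    calc N * (N / R) = N ^ 2 * (1 / R) := by ring
      _ ≤ N ^ 2 * (δ * (s * N)) := by gcongr; exact h.NR
      _ = _ := by ring
  have h4 : N * (K + E + N / R) ≤ 2 * (δ * Gz s N E) := by
    have h5 := h.EN2
    have h6 : δ * (s * N * N ^ 2) + 2 * (δ * (E * N ^ 2)) ≤ 2 * (δ * Gz s N E) := by
      unfold Gz
      have : 0 ≤ δ * (s * N * N ^ 2) := by positivity
      linarith
    have e : N * (K + E + N / R) = N * K + N * E + N * (N / R) := by ring
    rw [e]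
    linarith
  have h5 : 0 ≤ K + E + N / R := by positivity
  calc (N + E) * (K + E + N / R) ≤ (1 + 1 / a) * N * (K + E + N / R) := by
        gcongr; exact h.NE
    _ = (1 + 1 / a) * (N * (K + E + N / R)) := by ring
    _ ≤ (1 + 1 / a) * (2 * (δ * Gz s N E)) := by gcongr
    _ = _ := by ring

theorem am {w y r : ℝ} (hw : 0 < w) : 8 * (y * r) ≤ 1 / 8 * w * y ^ 2 + 128 * (r ^ 2 / w) := by
  have : 1 / 8 * w * y ^ 2 + 128 * (r ^ 2 / w) - 8 * (y * r) = (w * y - 32 * r) ^ 2 / (8 * w) := by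
    field_simp; ring
  have h2 : 0 ≤ (w * y - 32 * r) ^ 2 / (8 * w) := by positivity
  linarith

theorem Nb.f1 (h : Nb a c₁ Λ δ s R N K E) (C x : ℝ) : (C * (K + E) * |x|) ^ 2 / K ≤
    C ^ 2 * ((1 + 1 / c₁) ^ 2 * (δ * Gz s N E)) * x ^ 2 := by
  have hK := h.K0; have hE := h.E0; have hδ := h.d0
  have b1 : (K + E) ^ 2 / K ≤ (1 + 1 / c₁) ^ 2 * (δ * Gz s N E) := by
    have b2 : (K + E) ^ 2 / K ≤ (1 + 1 / c₁) ^ 2 * K := by
      rw [div_le_iff₀ hK]
      have := h.KE'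
      calc (K + E) ^ 2 ≤ ((1 + 1 / c₁) * K) ^ 2 := by gcongr
        _ = _ := by ring
    have b3 : K ≤ δ * Gz s N E := h.K1.trans (by gcongr; exact h.EN2)
    refine b2.trans ?_
    gcongr
  calc (C * (K + E) * |x|) ^ 2 / K = C ^ 2 * ((K + E) ^ 2 / K) * |x| ^ 2 := by ring
    _ ≤ C ^ 2 * ((1 + 1 / c₁) ^ 2 * (δ * Gz s N E)) * |x| ^ 2 := by gcongr
    _ = _ := by rw [sq_abs]

theorem Nb.f2 (h : Nb a c₁ Λ δ s R N K E) (C x : ℝ) : (C * (K + E) * |x|) ^ 2 / E ≤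
    C ^ 2 * (4 * (δ * Gz s N E)) * x ^ 2 := by
  have hN := h.N0; have hK := h.K0; have hE := h.E0; have hδ := h.d0
  have b1 : (K + E) ^ 2 / E ≤ 4 * (δ * Gz s N E) := by
    have b2 : K * (K / E) ≤ δ * (E * N ^ 2) := by
      have b3 : K / E ≤ δ * N := by
        rw [div_le_iff₀ hE]
        have := h.KE
        linarith
      have h2 : K / E ≤ 1 * N := b3.trans (by have := h.d1; gcongr)
      have h1 := h.KE
      calc K * (K / E) ≤ (δ * (E * N)) * (1 * N) := by gcongr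
        _ = _ := by ring
    have b4 : (K + E) ^ 2 / E ≤ 2 * (K * (K / E)) + 2 * E := by
      rw [div_le_iff₀ hE]
      have : (2 * (K * (K / E)) + 2 * E) * E = 2 * K ^ 2 + 2 * E ^ 2 := by field_simp
      rw [this]
      nlinarith [sq_nonneg (K - E)]
    have b5 := h.E1
    have b6 : δ * (E * N ^ 2) ≤ δ * Gz s N E := by gcongr; exact h.EN2
    linarith
  calc (C * (K + E) * |x|) ^ 2 / E = C ^ 2 * ((K + E) ^ 2 / E) * |x| ^ 2 := by ring
    _ ≤ C ^ 2 * (4 * (δ * Gz s N E)) * |x| ^ 2 := by gcongr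
    _ = _ := by rw [sq_abs]

theorem Nb.f3 (h : Nb a c₁ Λ δ s R N K E) (C x : ℝ) : (C * (N / R) * |x|) ^ 2 / (s * N) ≤
    C ^ 2 * (δ * Gz s N E) * x ^ 2 := by
  have hN := h.N0; have hδ := h.d0; have hs := h.s0; have hR := h.R1
  have b1 : (N / R) ^ 2 / (s * N) ≤ δ * Gz s N E := by
    rw [div_le_iff₀ (by positivity)]
    have b2 : (N / R) ^ 2 ≤ (N * (δ * (s * N))) ^ 2 := by
      have h1 := h.NR
      have e : N / R = N * (1 / R) := by ring
      rw [e]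
      have h2 : 0 ≤ N * (1 / R) := by positivity
      gcongr
    have b3 : s * N * N ^ 2 ≤ Gz s N E := h.sN3
    have b4 : δ ^ 2 ≤ δ := by nlinarith [h.d1]
    calc (N / R) ^ 2 ≤ (N * (δ * (s * N))) ^ 2 := b2
      _ = δ ^ 2 * (s * N * N ^ 2) * (s * N) := by ring
      _ ≤ δ * Gz s N E * (s * N) := by gcongr
  calc (C * (N / R) * |x|) ^ 2 / (s * N) = C ^ 2 * ((N / R) ^ 2 / (s * N)) * |x| ^ 2 := by ring
    _ ≤ C ^ 2 * (δ * Gz s N E) * |x| ^ 2 := by gcongr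
    _ = _ := by rw [sq_abs]

/-- The error of first order. -/
theorem Nb.fo (h : Nb a c₁ Λ δ s R N K E) {C x Y P d t D M : ℝ}
    (hY : |Y| ≤ C * ((K + E) * (P + d) + N / R * t)) (hD : d ^ 2 ≤ D) (hM : t ^ 2 ≤ M) :
    8 * |x * Y| ≤ 1 / 8 * (K * P ^ 2 + E * D + s * N * M) +
      128 * C ^ 2 * ((1 + 1 / c₁) ^ 2 + 5) * (δ * Gz s N E) * x ^ 2 := by
  have hN := h.N0; have hK := h.K0; have hE := h.E0; have hs := h.s0
  have a1 := am (y := P) (r := C * (K + E) * |x|) hK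
  have a2 := am (y := d) (r := C * (K + E) * |x|) hE
  have a3 := am (y := t) (r := C * (N / R) * |x|) (mul_pos hs hN)
  have e1 := h.f1 C x
  have e2 := h.f2 C x
  have e3 := h.f3 C x
  have f0 : 8 * |x * Y| ≤ 8 * (P * (C * (K + E) * |x|)) + 8 * (d * (C * (K + E) * |x|)) +
      8 * (t * (C * (N / R) * |x|)) := by
    rw [abs_mul]
    have h1 := mul_le_mul_of_nonneg_left hY (abs_nonneg x)
    have h2 : 8 * (P * (C * (K + E) * |x|)) + 8 * (d * (C * (K + E) * |x|)) +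
      8 * (t * (C * (N / R) * |x|)) = 8 * (|x| * (C * ((K + E) * (P + d) + N / R * t))) := by ring
    rw [h2]
    linarith
  have g1 : 1 / 8 * E * d ^ 2 ≤ 1 / 8 * (E * D) := by
    have := mul_le_mul_of_nonneg_left hD hE.le
    linarith
  have g2 : 1 / 8 * (s * N) * t ^ 2 ≤ 1 / 8 * (s * N * M) := by
    have := mul_le_mul_of_nonneg_left hM (mul_pos hs hN).le
    linarith
  have e : 128 * C ^ 2 * ((1 + 1 / c₁) ^ 2 + 5) * (δ * Gz s N E) * x ^ 2 =
      128 * (C ^ 2 * ((1 + 1 / c₁) ^ 2 * (δ * Gz s N E)) * x ^ 2) +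
      128 * (C ^ 2 * (4 * (δ * Gz s N E)) * x ^ 2) + 128 * (C ^ 2 * (δ * Gz s N E) * x ^ 2) := by
    ring
  rw [e]
  linarith

end Vale.Agent.P088.R2.H437.Z0
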