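import Vale.Agent.P088.R2.H437.Z0.Sl
import Vale.Agent.P088.R2.H437.Z0.Nb

/-!
# P088, stage 3, zone 0: the bounds of the quantum terms
-/

open Set Filter
open scoped ContDiff Topology Matrix

noncomputable section

namespace Vale.Agent.P088.R2.H437.Z0

open Vale.Agent.P088.LR Vale.Agent.P088.HY Vale.Agent.P088.R2.H961.GW Vale.Agent.P088.R2.H644.Ch
open Vale.Agent.P088.R2.H464.Cu (mid dif rq bf dg Hv up nv Nr sx sy)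
open Vale.Agent.P088.R2.H747.SW (gA qf)

variable {n : ℕ}

/-- The sizes of the derivatives of the weight. -/
structure Wn (Ω : Set (VV n)) (W : VV n → ℝ) (p₁ p : ℝ) (z : VV n) : Prop where
  h1 : ∀ e, ‖e‖ ≤ 1 → J Ω (dv e W) p₁ p z
  h2 : ∀ e e', ‖e‖ ≤ 1 → ‖e'‖ ≤ 1 → J Ω (dv e (dv e' W)) p p z

/-- The relations of the sizes. -/
structure Pn (Λ b b' L p₁ p : ℝ) : Prop where
  L0 : 0 ≤ L
  L1 : L ≤ Λ
  b0 : 0 ≤ b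
  b0' : 0 ≤ b'
  p0 : 0 ≤ p
  Lp : L * p₁ ≤ b * p
  pp : p ≤ b' * p₁
  p1 : 1 ≤ p₁

def cL (n : ℕ) (Λ b : ℝ) : ℝ := n ^ 2 * (2 + 6 * Λ + b)

def cF (n : ℕ) (Λ b b' : ℝ) : ℝ := n ^ 2 * ((2 + 2 * Λ) * (2 + 2 * b') + b)

/-- The constant of the terms of order zero. -/
def CZ (n : ℕ) (Λ b b' : ℝ) : ℝ := n ^ 2 * ((2 + Λ) * cL n Λ b) +
  (n ^ 2 * ((2 + Λ) * cF n Λ b b') + n ^ 2 * (2 * cL n Λ b)) + n ^ 2 * (2 * (n ^ 2 * (2 * b')))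

section slot

variable {σ τ : Sl (VV n) (Fin n)} {L Λ b b' p p₁ : ℝ} {Ω : Set (VV n)} {f g W : VV n → ℝ}
  {z : VV n}

theorem Sg.JL (hΩ : IsOpen Ω) (hz : z ∈ Ω) (h : Sg σ L Ω z) (P : Pn Λ b b' L p₁ p)
    (w : Wn Ω W p₁ p z) : J Ω (σ.Λ W) (cL n Λ b * p) (cL n Λ b * p) z := by
  have h1 := P.L0; have h2 := P.L1; have h3 := P.Lp; have h4 := P.p0; have h5 := P.b0
  refine (h.J_lam hΩ hz P.L0 P.p0 w.h1 w.h2).mono ?_ ?_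
  · unfold cL
    have e : (n : ℝ) ^ 2 * (2 + 6 * Λ + b) * p = n ^ 2 * (2 * p + b * p + 6 * (Λ * p)) := by ring
    rw [e]
    have : 0 ≤ Λ * p := mul_nonneg (h1.trans h2) h4
    have : 2 * p + L * p₁ ≤ 2 * p + b * p + 6 * (Λ * p) := by linarith
    gcongr
  · unfold cL
    have e : (n : ℝ) ^ 2 * (2 + 6 * Λ + b) * p = n ^ 2 * (2 * p + 6 * Λ * p + b * p) := by ring
    rw [e]
    gcongr

theorem cL0 (n : ℕ) {Λ b : ℝ} (hΛ : 0 ≤ Λ) (hb : 0 ≤ b) : 0 ≤ cL n Λ b := by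
  unfold cL; positivity

theorem cF0 (n : ℕ) {Λ b b' : ℝ} (hΛ : 0 ≤ Λ) (hb : 0 ≤ b) (hb' : 0 ≤ b') : 0 ≤ cF n Λ b b' := by
  unfold cF; positivity

theorem Pn.Λ0 (P : Pn Λ b b' L p₁ p) : 0 ≤ Λ := P.L0.trans P.L1

theorem Sg.LL (hΩ : IsOpen Ω) (hz : z ∈ Ω) (h : Sg σ L Ω z) (h' : Sg τ L Ω z)
    (P : Pn Λ b b' L p₁ p) (w : Wn Ω W p₁ p z) :
    |τ.Λ (σ.Λ W) z| ≤ n ^ 2 * ((2 + Λ) * cL n Λ b) * (p₁ * p) := by
  have j := h.JL hΩ hz P w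
  have c0 := cL0 n P.Λ0 P.b0
  have h1 := h'.lam_le P.L0 (mul_nonneg c0 P.p0) j
  have h2 := P.L1; have h3 := P.p0; have h4 := P.p1; have h5 := P.Λ0
  have h6 := P.L0
  refine h1.trans ?_
  calc (n : ℝ) ^ 2 * ((2 + L) * (cL n Λ b * p)) ≤ n ^ 2 * ((2 + Λ) * (cL n Λ b * p)) := by gcongr
    _ = n ^ 2 * ((2 + Λ) * cL n Λ b) * (1 * p) := by ring
    _ ≤ _ := by gcongr

theorem Sg.JF' (hΩ : IsOpen Ω) (hz : z ∈ Ω) (h : Sg σ L Ω z) (P : Pn Λ b b' L p₁ p)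
    (w : Wn Ω W p₁ p z) : J Ω (σ.F W) (n ^ 2 * (2 * p₁ ^ 2)) (cF n Λ b b' * (p₁ * p)) z := by
  have h2 := P.L1; have h3 := P.p0; have h4 := P.p1; have h5 := P.Λ0; have h6 := P.L0
  have h7 := P.Lp; have h8 := P.pp; have h9 := P.b0; have h10 := P.b0'
  refine (h.J_F hΩ hz P.L0 P.p0 w.h1).mono le_rfl ?_
  unfold cF
  have e : (n : ℝ) ^ 2 * ((2 + 2 * Λ) * (2 + 2 * b') + b) * (p₁ * p) =
      n ^ 2 * ((2 + 2 * Λ) * (2 * (p₁ * p) + 2 * ((b' * p₁) * p)) + (b * p) * p₁) := by ring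
  rw [e]
  have e1 : p ^ 2 ≤ (b' * p₁) * p := by rw [pow_two]; gcongr
  have e2 : L * p₁ ^ 2 ≤ (b * p) * p₁ := by
    calc L * p₁ ^ 2 = (L * p₁) * p₁ := by ring
      _ ≤ _ := by gcongr
  gcongr

theorem Sg.G2b (hΩ : IsOpen Ω) (hz : z ∈ Ω) (h : Sg σ L Ω z) (P : Pn Λ b b' L p₁ p)
    (w : Wn Ω W p₁ p z) : |G2 σ W z| ≤
      (n ^ 2 * ((2 + Λ) * cF n Λ b b') + n ^ 2 * (2 * cL n Λ b)) * (p₁ * p) := by
  have c0 := cL0 n P.Λ0 P.b0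
  have c1 := cF0 n P.Λ0 P.b0 P.b0'
  have h2 := P.L1; have h3 := P.p0; have h4 := P.p1; have h5 := P.Λ0; have h6 := P.L0
  have a1 := h.lam_le P.L0 (mul_nonneg c1 (by positivity)) (h.JF' hΩ hz P w)
  have jl := h.JL hΩ hz P w
  have a2 := h.gam_le (f := W) (g := σ.Λ W) (a := p₁) (b := cL n Λ b * p)
    (fun e he => (w.h1 e he).b0) (fun e he => (jl.b1 e).trans (by
      exact mul_le_of_le_one_right (by positivity) he))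
  have p1 : 0 ≤ p₁ * p := by positivity
  have a3 : |σ.Λ (σ.F W) z| ≤ n ^ 2 * ((2 + Λ) * cF n Λ b b') * (p₁ * p) := by
    refine a1.trans ?_
    calc (n : ℝ) ^ 2 * ((2 + L) * (cF n Λ b b' * (p₁ * p))) ≤
          n ^ 2 * ((2 + Λ) * (cF n Λ b b' * (p₁ * p))) := by gcongr
      _ = _ := by ring
  have a4 : |σ.Γ W (σ.Λ W) z| ≤ n ^ 2 * (2 * cL n Λ b) * (p₁ * p) :=
    a2.trans (le_of_eq (by ring))
  unfold G2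
  have a5 := abs_sub (1 / 2 * σ.Λ (σ.F W) z) (σ.Γ W (σ.Λ W) z)
  have a6 : |1 / 2 * σ.Λ (σ.F W) z| ≤ |σ.Λ (σ.F W) z| := by
    rw [abs_mul, abs_of_pos (by norm_num : (0:ℝ) < 1 / 2)]
    have := abs_nonneg (σ.Λ (σ.F W) z)
    linarith
  rw [add_mul]
  linarith

theorem Sg.M2b (h : Sg σ L Ω z) (h' : Sg τ L Ω z)
    (P : Pn Λ b b' L p₁ p) (w : Wn Ω W p₁ p z) : |M2 σ τ W W z| ≤
      n ^ 2 * (2 * (n ^ 2 * (2 * b'))) * (p₁ * p) := by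
  have h3 := P.p0; have h4 := P.p1; have h8 := P.pp; have h10 := P.b0'
  unfold M2
  have key : ∀ k, ∀ e, ‖e‖ ≤ 1 → |dv e (τ.D k W) z| ≤ p := by
    intro k e he
    rw [h'.D k W]
    exact ((w.h2 e _ he (h'.e k))).b0
  refine (Vale.Agent.P088.R2.H464.Cu.sum_le2 (c := 2 * (n ^ 2 * (2 * (p * p))))
    fun k l => ?_).trans ?_
  · have a1 := h.gam_le (key k) (key l)
    have a2 := (h'.j0 k l).b0
    rw [abs_mul]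
    gcongr
  · have : p * p ≤ (b' * p₁) * p := by gcongr
    calc (n : ℝ) ^ 2 * (2 * (n ^ 2 * (2 * (p * p)))) ≤
          n ^ 2 * (2 * (n ^ 2 * (2 * ((b' * p₁) * p)))) := by gcongr
      _ = _ := by ring

theorem CZ_ge {Z₁ Z₂ Z₃ : ℝ} (h1 : 0 ≤ Z₁) (h2 : 0 ≤ Z₂) (h3 : 0 ≤ Z₃) :
    Z₁ ≤ Z₁ + Z₂ + Z₃ ∧ Z₂ ≤ Z₁ + Z₂ + Z₃ ∧ Z₃ ≤ Z₁ + Z₂ + Z₃ := by
  refine ⟨?_, ?_, ?_⟩ <;> linarith

/-- The terms of order zero. -/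
theorem zo (hΩ : IsOpen Ω) (hz : z ∈ Ω) (h : Sg σ L Ω z) (h' : Sg τ L Ω z)
    (P : Pn Λ b b' L p₁ p) (w : Wn Ω W p₁ p z) (x y : ℝ) :
    -(20 * (CZ n Λ b b' * (p₁ * p)) * (x ^ 2 + y ^ 2)) ≤
      -(8 * (G2 σ W z * x ^ 2 + 2 * (M2 σ τ W W z * (x * y)) + G2 τ W z * y ^ 2)) +
      2 * (σ.Λ (σ.Λ W) z * x ^ 2 + 2 * (σ.Λ (τ.Λ W) z * (x * y)) + τ.Λ (τ.Λ W) z * y ^ 2) := by
  have c0 := cL0 n P.Λ0 P.b0
  have c1 := cF0 n P.Λ0 P.b0 P.b0'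
  have h5 := P.Λ0; have h10 := P.b0'
  have pp : 0 ≤ p₁ * p := mul_nonneg (by linarith [P.p1]) P.p0
  obtain ⟨k1, k2, k3⟩ := CZ_ge (Z₁ := n ^ 2 * ((2 + Λ) * cL n Λ b))
    (Z₂ := n ^ 2 * ((2 + Λ) * cF n Λ b b') + n ^ 2 * (2 * cL n Λ b))
    (Z₃ := n ^ 2 * (2 * (n ^ 2 * (2 * b')))) (by positivity) (by positivity) (by positivity)
  have e : n ^ 2 * ((2 + Λ) * cL n Λ b) + (n ^ 2 * ((2 + Λ) * cF n Λ b b') +
      n ^ 2 * (2 * cL n Λ b)) + n ^ 2 * (2 * (n ^ 2 * (2 * b'))) = CZ n Λ b b' := rfl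
  rw [e] at k1 k2 k3
  have b1 := (h.LL hΩ hz h P w).trans (mul_le_mul_of_nonneg_right k1 pp)
  have b2 := (h'.LL hΩ hz h P w).trans (mul_le_mul_of_nonneg_right k1 pp)
  have b3 := (h'.LL hΩ hz h' P w).trans (mul_le_mul_of_nonneg_right k1 pp)
  have b4 := (h.G2b hΩ hz P w).trans (mul_le_mul_of_nonneg_right k2 pp)
  have b5 := (h'.G2b hΩ hz P w).trans (mul_le_mul_of_nonneg_right k2 pp)
  have b6 := (h.M2b h' P w).trans (mul_le_mul_of_nonneg_right k3 pp)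
  obtain ⟨Z, hZ⟩ : ∃ Z, Z = CZ n Λ b b' * (p₁ * p) := ⟨_, rfl⟩
  rw [← hZ] at b1 b2 b3 b4 b5 b6 ⊢
  have sq : ∀ {t u : ℝ}, |t| ≤ Z → t * u ^ 2 ≤ Z * u ^ 2 ∧ -(Z * u ^ 2) ≤ t * u ^ 2 := by
    intro t u ht
    have h1 := mul_le_mul_of_nonneg_right (abs_le.1 ht).2 (sq_nonneg u)
    have h2 := mul_le_mul_of_nonneg_right (abs_le.1 ht).1 (sq_nonneg u)
    exact ⟨h1, by linarith⟩
  have xy : ∀ {t : ℝ}, |t| ≤ Z → |2 * (t * (x * y))| ≤ Z * (x ^ 2 + y ^ 2) := by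
    intro t ht
    have h1 : |2 * (t * (x * y))| = |t| * (2 * (|x| * |y|)) := by
      rw [abs_mul, abs_mul, abs_mul, abs_of_pos (by norm_num : (0:ℝ) < 2)]; ring
    rw [h1]
    have h2 : 2 * (|x| * |y|) ≤ x ^ 2 + y ^ 2 := by
      nlinarith [sq_nonneg (|x| - |y|), sq_abs x, sq_abs y]
    exact mul_le_mul ht h2 (by positivity) ((abs_nonneg t).trans ht)
  have q1 := (sq (u := x) b4).1
  have q2 := (sq (u := y) b5).1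
  have q3 := (abs_le.1 (xy b6)).2
  have q4 := (sq (u := x) b1).2
  have q5 := (sq (u := y) b3).2
  have q6 := (abs_le.1 (xy b2)).1
  linarith

end slot

end Vale.Agent.P088.R2.H437.Z0
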