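import Vale.Agent.P088.R2.H437.Z0.Fb

/-!
# P088, stage 3, zone 0: the terms of first order
-/

open Set Filter
open scoped ContDiff Topology Matrix

noncomputable section

namespace Vale.Agent.P088.R2.H437.Z0

open Vale.Agent.P088.LR Vale.Agent.P088.HY Vale.Agent.P088.R2.H961.GW Vale.Agent.P088.R2.H644.Ch
open Vale.Agent.P088.R2.H464.Cu (mid dif rq bf dg Hv up nv Nr sx sy)
open Vale.Agent.P088.R2.H747.SW (gA qf)

variable {n : ℕ}

section slot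

variable {σ τ : Sl (VV n) (Fin n)} {L Λ b b' p p₁ X : ℝ} {Ω : Set (VV n)} {f g W : VV n → ℝ}
  {z v : VV n}

theorem dv_sum {κ : Type*} (S : Finset κ) (hΩ : IsOpen Ω) (hz : z ∈ Ω) {F : κ → VV n → ℝ}
    (hF : ∀ i ∈ S, ContDiffOn ℝ ∞ (F i) Ω) (v : VV n) :
    dv v (fun z => ∑ i ∈ S, F i z) z = ∑ i ∈ S, dv v (F i) z := by
  unfold dv
  rw [fderiv_fun_sum fun j hj => df_on hΩ (hF j hj) hz]
  simp only [_root_.sum_apply]

/-- The derivative of `Λ W` in the direction `v`. -/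
theorem Sg.fb (hΩ : IsOpen Ω) (hz : z ∈ Ω) (h : Sg σ L Ω z) (hL : 0 ≤ L)
    (w : Wn Ω W p₁ p z)
    (hX : ∀ e e', ‖e‖ ≤ 1 → ‖e'‖ ≤ 1 → |dv v (dv e (dv e' W)) z| ≤ X) :
    |dv v (σ.Λ W) z| ≤ n ^ 2 * (2 * X + 2 * (L * p * ‖v‖) + L * p₁ * ‖v‖) := by
  have hv := norm_nonneg v
  have hp₁ : 0 ≤ p₁ := (w.h1 0 (by simp)).a0
  have sA : ∀ i j, ContDiffOn ℝ ∞ (fun y => σ.s i j y * dv (σ.e i) (dv (σ.e j) W) y) Ω :=
    fun i j => (h.j0 i j).sm.mul (w.h2 _ _ (h.e i) (h.e j)).sm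
  have sB : ∀ i j, ContDiffOn ℝ ∞ (fun y => dv (σ.e i) (σ.s i j) y * dv (σ.e j) W y) Ω :=
    fun i j => (h.j1 i j i).sm.mul (w.h1 _ (h.e j)).sm
  have sC : ∀ i j, ContDiffOn ℝ ∞ (fun y => σ.s i j y * dv (σ.e i) (dv (σ.e j) W) y +
      dv (σ.e i) (σ.s i j) y * dv (σ.e j) W y) Ω := fun i j => (sA i j).add (sB i j)
  rw [h.lam W]
  have e : dv v (fun y => ∑ i, ∑ j, (σ.s i j y * dv (σ.e i) (dv (σ.e j) W) y +
      dv (σ.e i) (σ.s i j) y * dv (σ.e j) W y)) z = ∑ i, ∑ j,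
      dv v (fun y => σ.s i j y * dv (σ.e i) (dv (σ.e j) W) y +
        dv (σ.e i) (σ.s i j) y * dv (σ.e j) W y) z := by
    rw [dv_sum Finset.univ hΩ hz (fun i _ => ContDiffOn.sum fun j _ => sC i j) v]
    exact Finset.sum_congr rfl fun i _ => dv_sum Finset.univ hΩ hz (fun j _ => sC i j) v
  rw [e]
  refine Vale.Agent.P088.R2.H464.Cu.sum_le2 fun i j => ?_
  rw [dv_add hΩ (sA i j) (sB i j) v hz,
    dv_mul hΩ (h.j0 i j).sm (w.h2 _ _ (h.e i) (h.e j)).sm v hz,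
    dv_mul hΩ (h.j1 i j i).sm (w.h1 _ (h.e j)).sm v hz]
  have h1 := (h.j0 i j).b0
  have h2 := (h.j0 i j).b1 v
  have h3 := (h.j1 i j i).b0
  have h4 := (h.j1 i j i).b1 v
  have h5 := (w.h2 _ _ (h.e i) (h.e j)).b0
  have h6 := hX _ _ (h.e i) (h.e j)
  have h7 := (w.h1 _ (h.e j)).b0
  have h8 := (w.h1 _ (h.e j)).b1 v
  have t1 : |dv v (σ.s i j) z * dv (σ.e i) (dv (σ.e j) W) z| ≤ (L * ‖v‖) * p := by
    rw [abs_mul]; gcongr
  have t2 : |σ.s i j z * dv v (dv (σ.e i) (dv (σ.e j) W)) z| ≤ 2 * X := by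
    rw [abs_mul]; gcongr
  have t3 : |dv v (dv (σ.e i) (σ.s i j)) z * dv (σ.e j) W z| ≤ (L * ‖v‖) * p₁ := by
    rw [abs_mul]; gcongr
  have t4 : |dv (σ.e i) (σ.s i j) z * dv v (dv (σ.e j) W) z| ≤ L * (p * ‖v‖) := by
    rw [abs_mul]; gcongr
  calc _ ≤ |dv v (σ.s i j) z * dv (σ.e i) (dv (σ.e j) W) z| +
        |σ.s i j z * dv v (dv (σ.e i) (dv (σ.e j) W)) z| +
        (|dv v (dv (σ.e i) (σ.s i j)) z * dv (σ.e j) W z| +
        |dv (σ.e i) (σ.s i j) z * dv v (dv (σ.e j) W) z|) :=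
        (abs_add_le _ _).trans (add_le_add (abs_add_le _ _) (abs_add_le _ _))
    _ ≤ (L * ‖v‖) * p + 2 * X + ((L * ‖v‖) * p₁ + L * (p * ‖v‖)) := by gcongr
    _ = _ := by ring

end slot

/-- The constant of the terms of first order. -/
def C3 (n : ℕ) (a Λ C : ℝ) : ℝ :=
  n ^ 2 * (C * (2 + 2 * (Λ + 1 / a + 1) * (1 + Λ) + Λ * (Λ + 1 / a + 1)))

theorem C3_pos (n : ℕ) {a Λ C : ℝ} (ha : 0 < a) (hΛ : 0 ≤ Λ) (hC : 0 ≤ C) : 0 ≤ C3 n a Λ C := by
  unfold C3; positivity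

theorem Nb.kE {a c₁ Λ δ s R N K E : ℝ} (h : Nb a c₁ Λ δ s R N K E) :
    K + E ≤ (Λ + 1 / a) * N := by
  have h2 : E ≤ 1 / a * N := by
    rw [one_div, ← div_eq_inv_mul, le_div_iff₀ h.a0]; linarith [h.EN]
  have := h.KN
  linarith

theorem Nb.c3 {a c₁ Λ δ s R N K E C P d t : ℝ} (h : Nb a c₁ Λ δ s R N K E) (hC : 0 ≤ C)
    (hP : 0 ≤ P) (hd : 0 ≤ d) (ht : 0 ≤ t) :
    n ^ 2 * (2 * (C * ((K + E) * (P + d + t / R) + N / R ^ 2 * t)) +
      2 * (Λ / R * (C * (K + E + N / R)) * t) + Λ / R * (C * (N + E)) * t) ≤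
    C3 n a Λ C * ((K + E) * (P + d) + N / R * t) := by
  have hN := h.N0; have hK := h.K0; have hE := h.E0; have ha := h.a0; have hR := h.R1
  have hR0 : 0 < R := by linarith
  have hΛ := h.Λ1
  obtain ⟨κ, hκ⟩ : ∃ κ, κ = Λ + 1 / a + 1 := ⟨_, rfl⟩
  have a0 : 0 < 1 / a := by positivity
  have κ1 : 1 ≤ κ := by linarith
  have k1 := h.kE
  have k2 := h.NE
  have r1 : N / R ^ 2 ≤ N / R := by
    have : R ≤ R ^ 2 := by nlinarith
    gcongr
  have r2 : N / R ≤ N := div_le_self hN.le hR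
  have e1 : (K + E) * (t / R) ≤ (κ - 1) * (N / R * t) := by
    calc (K + E) * (t / R) ≤ ((Λ + 1 / a) * N) * (t / R) := by gcongr
      _ = (κ - 1) * (N / R * t) := by rw [hκ]; ring
  have e2 : K + E + N / R ≤ κ * N := by rw [hκ]; linarith
  have e3 : Λ / R * (C * (K + E + N / R)) * t ≤ Λ * C * κ * (N / R * t) := by
    calc Λ / R * (C * (K + E + N / R)) * t ≤ Λ / R * (C * (κ * N)) * t := by gcongr
      _ = _ := by ring
  have e4 : Λ / R * (C * (N + E)) * t ≤ Λ * C * κ * (N / R * t) := by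
    have : N + E ≤ κ * N := by
      refine k2.trans ?_
      gcongr
      linarith
    calc Λ / R * (C * (N + E)) * t ≤ Λ / R * (C * (κ * N)) * t := by gcongr
      _ = _ := by ring
  have e5 : N / R ^ 2 * t ≤ N / R * t := by gcongr
  have e6 : C * ((K + E) * (P + d + t / R) + N / R ^ 2 * t) ≤
      C * ((K + E) * (P + d)) + C * κ * (N / R * t) := by
    have : C * ((K + E) * (P + d + t / R) + N / R ^ 2 * t) =
      C * ((K + E) * (P + d)) + C * ((K + E) * (t / R) + N / R ^ 2 * t) := by ring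
    rw [this]
    have e7 : (K + E) * (t / R) + N / R ^ 2 * t ≤ κ * (N / R * t) := by linarith
    have := mul_le_mul_of_nonneg_left e7 hC
    linarith
  unfold C3
  rw [← hκ]
  have nn : 0 ≤ N / R * t := by positivity
  have mm : 0 ≤ (K + E) * (P + d) := by positivity
  have f1 : 2 * (C * ((K + E) * (P + d))) ≤
      (C * (2 + 2 * κ * (1 + Λ) + Λ * κ)) * ((K + E) * (P + d)) := by
    have : 2 * C ≤ C * (2 + 2 * κ * (1 + Λ) + Λ * κ) := by
      have : 0 ≤ C * (2 * κ * (1 + Λ) + Λ * κ) := by positivity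
      linarith
    have := mul_le_mul_of_nonneg_right this mm
    linarith
  have f2 : 2 * (C * κ * (N / R * t)) + 2 * (Λ * C * κ * (N / R * t)) + Λ * C * κ * (N / R * t) ≤
      (C * (2 + 2 * κ * (1 + Λ) + Λ * κ)) * (N / R * t) := by
    have e8 : (C * (2 + 2 * κ * (1 + Λ) + Λ * κ)) * (N / R * t) =
      2 * (C * κ * (N / R * t)) + 2 * (Λ * C * κ * (N / R * t)) + Λ * C * κ * (N / R * t) +
        2 * C * (N / R * t) := by ring
    rw [e8]
    have : 0 ≤ 2 * C * (N / R * t) := by positivity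
    linarith
  calc _ ≤ n ^ 2 * (2 * (C * ((K + E) * (P + d)) + C * κ * (N / R * t)) +
      2 * (Λ * C * κ * (N / R * t)) + Λ * C * κ * (N / R * t)) := by gcongr
    _ ≤ n ^ 2 * ((C * (2 + 2 * κ * (1 + Λ) + Λ * κ)) * ((K + E) * (P + d) + N / R * t)) := by
      have : 2 * (C * ((K + E) * (P + d)) + C * κ * (N / R * t)) +
      2 * (Λ * C * κ * (N / R * t)) + Λ * C * κ * (N / R * t) ≤
        (C * (2 + 2 * κ * (1 + Λ) + Λ * κ)) * ((K + E) * (P + d) + N / R * t) := by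
        rw [mul_add (C * (2 + 2 * κ * (1 + Λ) + Λ * κ))]
        linarith
      gcongr
    _ = _ := by ring

end Vale.Agent.P088.R2.H437.Z0
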