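import Vale.Agent.P088.R2.H437.Z0.Qf

/-!
# P088, stage 3, zone 0: bounds of functions with two derivatives, slots with constant directions
-/

open Set Filter
open scoped ContDiff Topology Matrix

noncomputable section

namespace Vale.Agent.P088.R2.H437.Z0

open Vale.Agent.P088.LR Vale.Agent.P088.HY Vale.Agent.P088.R2.H961.GW Vale.Agent.P088.R2.H644.Ch
open Vale.Agent.P088.R2.H464.Cu (mid dif rq bf dg Hv up nv Nr sx sy)

variable {n : ℕ}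

/-- `f` is bounded by `b₀`, its first and second derivatives by `b₁`. -/
structure J (Ω : Set (VV n)) (f : VV n → ℝ) (b₀ b₁ : ℝ) (z : VV n) : Prop where
  sm : ContDiffOn ℝ ∞ f Ω
  b0 : |f z| ≤ b₀
  b1 : ∀ w, |dv w f z| ≤ b₁ * ‖w‖
  b2 : ∀ w w', |dv w (dv w' f) z| ≤ b₁ * ‖w‖ * ‖w'‖

section cal

variable {Ω : Set (VV n)} {f g : VV n → ℝ} {a₀ a₁ b₀ b₁ : ℝ} {z : VV n}

theorem dv_congr (hΩ : IsOpen Ω) (h : ∀ y ∈ Ω, f y = g y) (w : VV n) (hz : z ∈ Ω) :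
    dv w f z = dv w g z := by
  have : f =ᶠ[𝓝 z] g := by
    filter_upwards [hΩ.mem_nhds hz] with y hy using h y hy
  unfold dv
  rw [this.fderiv_eq]

theorem dv_add (hΩ : IsOpen Ω) (hf : ContDiffOn ℝ ∞ f Ω) (hg : ContDiffOn ℝ ∞ g Ω) (w : VV n)
    (hz : z ∈ Ω) : dv w (fun z => f z + g z) z = dv w f z + dv w g z :=
  ((hv_of (w := w) (df_on hΩ hf hz)).add (hv_of (df_on hΩ hg hz))).e

theorem dv_mul (hΩ : IsOpen Ω) (hf : ContDiffOn ℝ ∞ f Ω) (hg : ContDiffOn ℝ ∞ g Ω) (w : VV n)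
    (hz : z ∈ Ω) : dv w (fun z => f z * g z) z = dv w f z * g z + f z * dv w g z :=
  ((hv_of (w := w) (df_on hΩ hf hz)).mul (hv_of (df_on hΩ hg hz))).e

theorem J.a0 (h : J Ω f a₀ a₁ z) : 0 ≤ a₀ := (abs_nonneg _).trans h.b0

theorem J.mono (h : J Ω f a₀ a₁ z) (h0 : a₀ ≤ b₀) (h1 : a₁ ≤ b₁) : J Ω f b₀ b₁ z :=
  ⟨h.sm, h.b0.trans h0, fun w => (h.b1 w).trans (by gcongr), fun w w' =>
    (h.b2 w w').trans (by gcongr)⟩

theorem J.add (hΩ : IsOpen Ω) (hz : z ∈ Ω) (hf : J Ω f a₀ a₁ z) (hg : J Ω g b₀ b₁ z) :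
    J Ω (fun z => f z + g z) (a₀ + b₀) (a₁ + b₁) z where
  sm := hf.sm.add hg.sm
  b0 := (abs_add_le _ _).trans (add_le_add hf.b0 hg.b0)
  b1 w := by
    rw [dv_add hΩ hf.sm hg.sm w hz]
    refine (abs_add_le _ _).trans ((add_le_add (hf.b1 w) (hg.b1 w)).trans (le_of_eq (by ring)))
  b2 w w' := by
    rw [dv_congr hΩ (fun y hy => dv_add hΩ hf.sm hg.sm w' hy) w hz,
      dv_add hΩ (sm_dv hΩ hf.sm w') (sm_dv hΩ hg.sm w') w hz]
    refine (abs_add_le _ _).trans ((add_le_add (hf.b2 w w') (hg.b2 w w')).trans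
      (le_of_eq (by ring)))

theorem J.zero (hΩ : IsOpen Ω) (hz : z ∈ Ω) : J Ω (fun _ => (0 : ℝ)) 0 0 z where
  sm := contDiffOn_const
  b0 := by simp
  b1 w := by unfold dv; simp
  b2 w w' := by
    have : dv w' (fun _ : VV n => (0 : ℝ)) = fun _ => 0 := by
      funext y; unfold dv; simp
    rw [this]; unfold dv; simp

theorem J.sum {κ : Type*} (S : Finset κ) (hΩ : IsOpen Ω) (hz : z ∈ Ω) {F : κ → VV n → ℝ}
    (hF : ∀ i ∈ S, J Ω (F i) a₀ a₁ z) :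
    J Ω (fun z => ∑ i ∈ S, F i z) (S.card * a₀) (S.card * a₁) z := by
  classical
  induction S using Finset.induction_on with
  | empty =>
    simp only [Finset.sum_empty, Finset.card_empty, Nat.cast_zero, zero_mul]
    exact J.zero hΩ hz
  | insert i S hi ih =>
    simp only [Finset.sum_insert hi]
    rw [Finset.card_insert_of_notMem hi]
    have := J.add hΩ hz (hF i (Finset.mem_insert_self _ _))
      (ih fun j hj => hF j (Finset.mem_insert_of_mem hj))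
    refine this.mono ?_ ?_ <;> push_cast <;> linarith

theorem J.mul (hΩ : IsOpen Ω) (hz : z ∈ Ω) (hf : J Ω f a₀ a₁ z) (hg : J Ω g b₀ b₁ z)
    (ha₁ : 0 ≤ a₁) (hb₁ : 0 ≤ b₁) :
    J Ω (fun z => f z * g z) (a₀ * b₀) (a₀ * b₁ + a₁ * b₀ + 2 * (a₁ * b₁)) z where
  sm := hf.sm.mul hg.sm
  b0 := by
    rw [abs_mul]
    have := hf.b0; have := hg.b0; have := hf.a0
    gcongr
  b1 w := by
    rw [dv_mul hΩ hf.sm hg.sm w hz]
    refine (abs_add_le _ _).trans ?_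
    rw [abs_mul, abs_mul]
    have h1 := hf.b0; have h2 := hg.b0; have h3 := hf.a0; have h4 := hg.a0
    have h5 := hf.b1 w; have h6 := hg.b1 w
    have hw := norm_nonneg w
    calc |dv w f z| * |g z| + |f z| * |dv w g z| ≤ (a₁ * ‖w‖) * b₀ + a₀ * (b₁ * ‖w‖) := by gcongr
      _ = (a₀ * b₁ + a₁ * b₀) * ‖w‖ := by ring
      _ ≤ _ := by
        refine mul_le_mul_of_nonneg_right ?_ hw
        have : 0 ≤ a₁ * b₁ := mul_nonneg ha₁ hb₁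
        linarith
  b2 w w' := by
    have e1 : ∀ y ∈ Ω, dv w' (fun z => f z * g z) y = dv w' f y * g y + f y * dv w' g y :=
      fun y hy => dv_mul hΩ hf.sm hg.sm w' hy
    have sf := sm_dv hΩ hf.sm w'
    have sg := sm_dv hΩ hg.sm w'
    rw [dv_congr hΩ e1 w hz, dv_add hΩ (sf.mul hg.sm) (hf.sm.mul sg) w hz,
      dv_mul hΩ sf hg.sm w hz, dv_mul hΩ hf.sm sg w hz]
    have h1 := hf.b0; have h2 := hg.b0; have h3 := hf.a0; have h4 := hg.a0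
    have h5 := hf.b1 w; have h6 := hg.b1 w
    have h7 := hf.b1 w'; have h8 := hg.b1 w'
    have h9 := hf.b2 w w'; have h10 := hg.b2 w w'
    have hw := norm_nonneg w
    have hw' := norm_nonneg w'
    have t1 : |dv w (dv w' f) z * g z| ≤ a₁ * ‖w‖ * ‖w'‖ * b₀ := by rw [abs_mul]; gcongr
    have t2 : |dv w' f z * dv w g z| ≤ (a₁ * ‖w'‖) * (b₁ * ‖w‖) := by rw [abs_mul]; gcongr
    have t3 : |dv w f z * dv w' g z| ≤ (a₁ * ‖w‖) * (b₁ * ‖w'‖) := by rw [abs_mul]; gcongr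
    have t4 : |f z * dv w (dv w' g) z| ≤ a₀ * (b₁ * ‖w‖ * ‖w'‖) := by rw [abs_mul]; gcongr
    calc _ ≤ |dv w (dv w' f) z * g z| + |dv w' f z * dv w g z| + (|dv w f z * dv w' g z| +
          |f z * dv w (dv w' g) z|) :=
          (abs_add_le _ _).trans (add_le_add (abs_add_le _ _) (abs_add_le _ _))
      _ ≤ a₁ * ‖w‖ * ‖w'‖ * b₀ + (a₁ * ‖w'‖) * (b₁ * ‖w‖) + ((a₁ * ‖w‖) * (b₁ * ‖w'‖) +
          a₀ * (b₁ * ‖w‖ * ‖w'‖)) := by gcongr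
      _ = _ := by ring

end cal

/-! ## Slots -/

/-- A slot with constant directions at a point. -/
structure Sg (σ : Sl (VV n) (Fin n)) (L : ℝ) (Ω : Set (VV n)) (z : VV n) : Prop where
  D : ∀ j f, σ.D j f = dv (σ.e j) f
  e : ∀ j, ‖σ.e j‖ ≤ 1
  k : ∀ i y, σ.k i y = 0
  j0 : ∀ i j, J Ω (σ.s i j) 2 L z
  j1 : ∀ i j k, J Ω (dv (σ.e k) (σ.s i j)) L L z

section slot

variable {σ τ : Sl (VV n) (Fin n)} {L p p₁ b : ℝ} {Ω : Set (VV n)} {f g W : VV n → ℝ} {z : VV n}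

theorem Sg.lam (h : Sg σ L Ω z) (f : VV n → ℝ) : σ.Λ f = fun y => ∑ i, ∑ j,
    (σ.s i j y * dv (σ.e i) (dv (σ.e j) f) y + dv (σ.e i) (σ.s i j) y * dv (σ.e j) f y) := by
  funext y
  unfold Sl.Λ
  simp only [h.D, h.k, zero_mul, add_zero]

/-- `Λ f` from the bounds of the derivatives of `f`. -/
theorem Sg.J_lam (hΩ : IsOpen Ω) (hz : z ∈ Ω) (h : Sg σ L Ω z) (hL : 0 ≤ L) (hp : 0 ≤ p)
    (h1 : ∀ e, ‖e‖ ≤ 1 → J Ω (dv e f) p₁ p z)
    (h2 : ∀ e e', ‖e‖ ≤ 1 → ‖e'‖ ≤ 1 → J Ω (dv e (dv e' f)) p p z) :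
    J Ω (σ.Λ f) (n ^ 2 * (2 * p + L * p₁)) (n ^ 2 * (2 * p + 6 * L * p + L * p₁)) z := by
  rw [h.lam f]
  have hp₁ : 0 ≤ p₁ := (h1 0 (by simp)).a0
  have t : ∀ i j, J Ω (fun y => σ.s i j y * dv (σ.e i) (dv (σ.e j) f) y +
      dv (σ.e i) (σ.s i j) y * dv (σ.e j) f y) (2 * p + L * p₁) (2 * p + 6 * L * p + L * p₁) z := by
    intro i j
    have a := (h.j0 i j).mul hΩ hz (h2 _ _ (h.e i) (h.e j)) hL hp
    have b := (h.j1 i j i).mul hΩ hz (h1 _ (h.e j)) hL hp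
    refine (a.add hΩ hz b).mono (le_of_eq (by ring)) (le_of_eq (by ring))
  have := J.sum Finset.univ hΩ hz fun i _ => J.sum Finset.univ hΩ hz fun j _ => t i j
  refine this.mono (le_of_eq ?_) (le_of_eq ?_) <;>
    simp only [Finset.card_univ, Fintype.card_fin] <;> ring

theorem Sg.lam_le (h : Sg σ L Ω z) (hL : 0 ≤ L) {a₀ a₁ : ℝ} (ha : 0 ≤ a₁) (hf : J Ω f a₀ a₁ z) :
    |σ.Λ f z| ≤ n ^ 2 * ((2 + L) * a₁) := by
  rw [h.lam f]
  refine Vale.Agent.P088.R2.H464.Cu.sum_le2 fun i j => ?_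
  have h1 := (h.j0 i j).b0
  have h2 := (h.j1 i j i).b0
  have e1 := h.e i
  have e2 := h.e j
  have h3 : |dv (σ.e i) (dv (σ.e j) f) z| ≤ a₁ := by
    refine (hf.b2 _ _).trans ?_
    calc a₁ * ‖σ.e i‖ * ‖σ.e j‖ ≤ a₁ * 1 * 1 := by gcongr
      _ = a₁ := by ring
  have h4 : |dv (σ.e j) f z| ≤ a₁ := by
    refine (hf.b1 _).trans ?_
    exact mul_le_of_le_one_right ha e2
  refine (abs_add_le _ _).trans ?_
  rw [abs_mul, abs_mul]
  calc _ ≤ 2 * a₁ + L * a₁ := by gcongr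
    _ = _ := by ring

theorem Sg.gam (h : Sg σ L Ω z) (f g : VV n → ℝ) : σ.Γ f g = fun y => ∑ i, ∑ j,
    σ.s i j y * (dv (σ.e i) f y * dv (σ.e j) g y) := by
  funext y
  unfold Sl.Γ
  simp only [h.D, mul_assoc]

theorem Sg.gam_le (h : Sg σ L Ω z) {a b : ℝ} (hf : ∀ e, ‖e‖ ≤ 1 → |dv e f z| ≤ a)
    (hg : ∀ e, ‖e‖ ≤ 1 → |dv e g z| ≤ b) : |σ.Γ f g z| ≤ n ^ 2 * (2 * (a * b)) := by
  rw [h.gam f g]
  refine Vale.Agent.P088.R2.H464.Cu.sum_le2 fun i j => ?_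
  have h1 := (h.j0 i j).b0
  have h3 := hf _ (h.e i)
  have h4 := hg _ (h.e j)
  have a0 : 0 ≤ a := (abs_nonneg _).trans h3
  rw [abs_mul, abs_mul]
  gcongr

/-- `F = Γ(W, W)`. -/
theorem Sg.J_F (hΩ : IsOpen Ω) (hz : z ∈ Ω) (h : Sg σ L Ω z) (hL : 0 ≤ L) (hp : 0 ≤ p)
    (h1 : ∀ e, ‖e‖ ≤ 1 → J Ω (dv e W) p₁ p z) :
    J Ω (σ.F W) (n ^ 2 * (2 * p₁ ^ 2))
      (n ^ 2 * ((2 + 2 * L) * (2 * (p₁ * p) + 2 * p ^ 2) + L * p₁ ^ 2)) z := by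
  have e : σ.F W = σ.Γ W W := rfl
  rw [e, h.gam W W]
  have hp₁ : 0 ≤ p₁ := (h1 0 (by simp)).a0
  have t : ∀ i j, J Ω (fun y => σ.s i j y * (dv (σ.e i) W y * dv (σ.e j) W y)) (2 * p₁ ^ 2)
      ((2 + 2 * L) * (2 * (p₁ * p) + 2 * p ^ 2) + L * p₁ ^ 2) z := by
    intro i j
    have a := (h1 _ (h.e i)).mul hΩ hz (h1 _ (h.e j)) hp hp
    have b := (h.j0 i j).mul hΩ hz a hL (by positivity)
    refine b.mono (le_of_eq (by ring)) (le_of_eq (by ring))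
  have := J.sum Finset.univ hΩ hz fun i _ => J.sum Finset.univ hΩ hz fun j _ => t i j
  refine this.mono (le_of_eq ?_) (le_of_eq ?_) <;>
    simp only [Finset.card_univ, Fintype.card_fin] <;> ring

end slot

end Vale.Agent.P088.R2.H437.Z0
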