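import Vale.Agent.P088.R2.H437.Z0.Th

/-!
# P088, stage 3, zone 0: the field `ll` of `Hz` on a convex set
-/

open Set Filter
open scoped ContDiff Topology Matrix

noncomputable section

namespace Vale.Agent.P088.R2.H437.Z0

open Vale.Agent.P088.LR Vale.Agent.P088.HY Vale.Agent.P088.R2.H961.GW Vale.Agent.P088.R2.H644.Ch
open Vale.Agent.P088.R2.H464.Cu (mid dif rq)

variable {n : ℕ} {β Λ R : ℝ} {l : V n → ℝ} {g : MF n} {Φ S : ℝ → ℝ} {O : Set (V n)}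
  {Ω : Set (VV n)} {z : VV n}

theorem Dt.l2 (h : Dt Λ R l g Φ S O Ω) {x : V n} (hx : x ∈ O) (w w' : V n) :
    |fderiv ℝ (fun x => fderiv ℝ l x w) x w'| ≤ Λ / R * ‖w‖ * ‖w'‖ := by
  have h1 := h.jl x hx 2 (by norm_num) (by norm_num)
  have e : ‖iteratedFDeriv ℝ 2 l x‖ = ‖fderiv ℝ (fderiv ℝ l) x‖ := by
    rw [← norm_iteratedFDeriv_fderiv, norm_iteratedFDeriv_one]
  rw [e] at h1
  have h1' : ‖fderiv ℝ (fderiv ℝ l) x‖ ≤ Λ / R := by
    refine h1.trans (le_of_eq ?_)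
    norm_num
    rfl
  have hd : DifferentiableAt ℝ (fderiv ℝ l) x := by
    have h2 : ContDiffOn ℝ ∞ (fderiv ℝ l) O := h.sl.fderiv_of_isOpen h.oO (by norm_num)
    exact ((h2 x hx).contDiffAt (h.oO.mem_nhds hx)).differentiableAt (by simp)
  have e2 : fderiv ℝ (fun x => fderiv ℝ l x w) x w' = fderiv ℝ (fderiv ℝ l) x w' w := by
    have := fderiv_clm_apply hd (differentiableAt_const w)
    rw [this]
    simp
  rw [e2]
  refine ((fderiv ℝ (fderiv ℝ l) x w').le_opNorm w).trans ?_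
  have h3 := (fderiv ℝ (fderiv ℝ l) x).le_opNorm w'
  have h4 := norm_nonneg w
  have h5 := norm_nonneg w'
  calc ‖fderiv ℝ (fderiv ℝ l) x w'‖ * ‖w‖ ≤ (‖fderiv ℝ (fderiv ℝ l) x‖ * ‖w'‖) * ‖w‖ := by gcongr
    _ ≤ (Λ / R * ‖w'‖) * ‖w‖ := by gcongr
    _ = _ := by ring

/-- The field `ll` of `Hz` when `O` is convex. -/
theorem Dt.ll (h : Dt Λ R l g Φ S O Ω) (hΛ : 0 ≤ Λ) (cv : Convex ℝ O)
    (dq : ∀ z ∈ Ω, ‖dif z‖ ≤ β) : ∀ z ∈ Ω, ∀ w : V n,
      |fderiv ℝ l z.1 w - fderiv ℝ l z.2 w| ≤ Λ / R * ‖w‖ * β := by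
  intro z hz w
  obtain ⟨hx, hy, -⟩ := h.pt z hz
  have hR : 0 < R := zero_lt_one.trans_le h.R1
  have sw : ContDiffOn ℝ ∞ (fun x => fderiv ℝ l x w) O := by
    have h2 : ContDiffOn ℝ ∞ (fderiv ℝ l) O := h.sl.fderiv_of_isOpen h.oO (by norm_num)
    exact h2.clm_apply contDiffOn_const
  have := Convex.norm_image_sub_le_of_norm_fderiv_le (𝕜 := ℝ) (f := fun x => fderiv ℝ l x w)
    (s := O) (C := Λ / R * ‖w‖) (fun x hx => df_of h.oO sw hx) (fun x hx => ?_) cv hy hx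
  · rw [Real.norm_eq_abs] at this
    refine this.trans ?_
    have h3 := dq z hz
    gcongr
    exact h3
  · refine ContinuousLinearMap.opNorm_le_bound _ (by positivity) fun w' => ?_
    rw [Real.norm_eq_abs]
    exact h.l2 hx w w'

end Vale.Agent.P088.R2.H437.Z0
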