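import Vale.Agent.P088.R2.H437.Z0.Sm
import Vale.Agent.P088.R2.H808.Z0.Num

/-!
# P088, stage 3, zone 0: the numbers for `zone0N`
-/

open Set Filter
open scoped ContDiff Topology Matrix

noncomputable section

namespace Vale.Agent.P088.R2.H437.Z0

open Vale.Agent.P088.LR Vale.Agent.P088.HY Vale.Agent.P088.R2.H961.GW Vale.Agent.P088.R2.H644.Ch
open Vale.Agent.P088.R2.H464.Cu (mid dif rq bf dg Hv up nv Nr sx sy)
open Vale.Agent.P088.R2.H747.SW (gA qf qq dq SmQ Ys)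
open Vale.Agent.P088.R2.H808.Zq (Ns Nz xf)
open Vale.Agent.P088.R2.H165 (Tab.Nu)

variable {n : ℕ}

/-- The constant of the numbers. -/
def C1 (n : ℕ) (Λ₀ a Λ C c₂ : ℝ) : ℝ := (1 + (1 / a + 1)) + c₂ * (4 * n ^ 3 * Λ₀ ^ 2 + 2 * n ^ 2) +
  n * (C * (1 + 1 / a)) ^ 2 + cL n Λ (bb a Λ) * (C * (Λ + 1 / a + 1)) + n * (2 * Λ₀ * Λ) ^ 2 + c₂

theorem add6 {a b c d e f : ℝ} (ha : 0 ≤ a) (hb : 0 ≤ b) (hc : 0 ≤ c) (hd : 0 ≤ d) (he : 0 ≤ e)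
    (hf : 0 ≤ f) : a ≤ a + b + c + d + e + f ∧ b ≤ a + b + c + d + e + f ∧
      c ≤ a + b + c + d + e + f ∧ d ≤ a + b + c + d + e + f ∧ e ≤ a + b + c + d + e + f ∧
      f ≤ a + b + c + d + e + f := by
  refine ⟨?_, ?_, ?_, ?_, ?_, ?_⟩ <;> linarith

theorem C1_ge (n : ℕ) {Λ₀ a Λ C c₂ : ℝ} (ha : 0 < a) (hΛ : 0 ≤ Λ) (hC : 0 ≤ C)
    (hc₂ : 0 ≤ c₂) : 1 + (1 / a + 1) ≤ C1 n Λ₀ a Λ C c₂ ∧
    c₂ * (4 * n ^ 3 * Λ₀ ^ 2 + 2 * n ^ 2) ≤ C1 n Λ₀ a Λ C c₂ ∧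
    n * (C * (1 + 1 / a)) ^ 2 ≤ C1 n Λ₀ a Λ C c₂ ∧
    cL n Λ (bb a Λ) * (C * (Λ + 1 / a + 1)) ≤ C1 n Λ₀ a Λ C c₂ ∧
    n * (2 * Λ₀ * Λ) ^ 2 ≤ C1 n Λ₀ a Λ C c₂ ∧ c₂ ≤ C1 n Λ₀ a Λ C c₂ := by
  have h1 : 0 ≤ cL n Λ (bb a Λ) := by unfold cL bb; positivity
  exact add6 (by positivity) (by positivity) (by positivity) (by positivity) (by positivity) hc₂

section inst

variable {Λ₀ a c₁ β Λ δ ε s R C c₂ η : ℝ} {l : V n → ℝ} {g s₁ s₂ : MF n} {Φ S : ℝ → ℝ}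
  {O : Set (V n)} {Ω : Set (VV n)} {z v : VV n} {W : VV n → ℝ} {ν : Tab.Nu (VV n)}

/-- `x = e^u + s Φ'(u)`. -/
theorem Hz.jx (h : Hz Λ₀ a c₁ β Λ δ ε s R l g s₁ s₂ Φ S O Ω) (hΛ₀ : 1 ≤ Λ₀) (hΛ : 1 ≤ Λ)
    (hE : ∀ w ∈ Ω, ν.En w = Real.exp (uf l w)) (hN : ∀ w ∈ Ω, ν.N w = deriv Φ (uf l w))
    (hz : z ∈ Ω) : J1 Ω (xf ν s) (Real.exp (uf l z) + s * deriv Φ (uf l z))
      (2 * Λ₀ * Λ * (Real.exp (uf l z) + s * deriv Φ (uf l z))) z := by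
  have hΩ := h.dt.oΩ
  have hs := h.s0
  have N0 := h.dt.N0 z hz
  have K0 := h.dt.K0 z hz
  have KN := h.KN z hz
  have E0 := Real.exp_pos (uf l z)
  have hΛ₀0 : 0 ≤ Λ₀ := by linarith
  have je := h.jcomp hΛ₀0 hz Real.contDiff_exp
  rw [Real.deriv_exp, abs_of_pos E0] at je
  have jN := h.jcomp hΛ₀0 hz (dS h.dt.sΦ)
  rw [abs_of_pos N0, abs_of_pos K0] at jN
  have a2 := (J1.cst (Ω := Ω) s z).mul hΩ hz jN
  rw [abs_of_pos hs] at a2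
  have a3 := je.add hΩ hz a2
  have e : ∀ w ∈ Ω, xf ν s w = Real.exp (uf l w) + s * deriv Φ (uf l w) := by
    intro w hw
    unfold xf
    rw [hE w hw, hN w hw]
  refine (a3.congr hΩ hz e).mono le_rfl ?_
  have h1 : s * (2 * Λ₀ * deriv (deriv Φ) (uf l z)) ≤ s * (2 * Λ₀ * (Λ * deriv Φ (uf l z))) := by
    gcongr
  have h2 : 2 * Λ₀ * Real.exp (uf l z) ≤ 2 * Λ₀ * Real.exp (uf l z) * Λ :=
    le_mul_of_one_le_right (by positivity) hΛ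
  simp only [zero_mul, add_zero]
  linarith

theorem Hz.nz (h : Hz Λ₀ a c₁ β Λ δ ε s R l g s₁ s₂ Φ S O Ω) (hΛ : 1 ≤ Λ)
    (ha : 0 < a) (hc : 0 < c₁) (hC : 1 ≤ C) (hc₂ : 0 < c₂) (hδ : δ ≤ 1) (hz : z ∈ Ω)
    (hE : ν.En z = Real.exp (uf l z)) (hN : ν.N z = deriv Φ (uf l z))
    (hK : ν.K z = deriv (deriv Φ) (uf l z)) :
    Nz (mZ c₂ s l Φ) ν (C1 n Λ₀ a Λ C c₂) s z := by
  have nb := h.nb hΛ ha hc hδ hz
  have hs := h.s0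
  have s1 := h.s1
  obtain ⟨k1, -, -, -, -, k6⟩ := C1_ge (Λ₀ := Λ₀) n ha (by linarith : (0:ℝ) ≤ Λ)
    (by linarith : 0 ≤ C) hc₂.le
  have N0 := nb.N0
  have E0 := nb.E0
  have a0 : 0 < 1 / a := by positivity
  have ex : xf ν s z = Real.exp (uf l z) + s * deriv Φ (uf l z) := by unfold xf; rw [hE, hN]
  refine ⟨by rw [hE]; exact E0.le, by rw [hK]; exact nb.K0.le, by rw [hN]; exact nb.Ng, ?_, ?_⟩
  · rw [ex, hN]
    have h1 : Real.exp (uf l z) ≤ 1 / a * deriv Φ (uf l z) := by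
      rw [one_div, ← div_eq_inv_mul, le_div_iff₀ ha]; linarith [nb.EN]
    have h2 : s * deriv Φ (uf l z) ≤ 1 * deriv Φ (uf l z) := by gcongr
    have h3 : (1 + (1 / a + 1)) * deriv Φ (uf l z) ≤ C1 n Λ₀ a Λ C c₂ * deriv Φ (uf l z) := by
      gcongr
    linarith
  · rw [ex]
    unfold mZ
    have h1 : c₂ / 4 * (s * deriv Φ (uf l z)) ≤ c₂ * (s * deriv Φ (uf l z)) := by
      have : 0 ≤ c₂ * (s * deriv Φ (uf l z)) := by positivity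
      linarith
    have h2 : c₂ * (s * deriv Φ (uf l z)) ≤ C1 n Λ₀ a Λ C c₂ *
        (Real.exp (uf l z) + s * deriv Φ (uf l z)) := by
      have : s * deriv Φ (uf l z) ≤ Real.exp (uf l z) + s * deriv Φ (uf l z) := by linarith
      have : 0 ≤ s * deriv Φ (uf l z) := by positivity
      have C0 : 0 ≤ C1 n Λ₀ a Λ C c₂ := hc₂.le.trans k6
      gcongr
    linarith

/-- The numbers of one slot. -/
theorem ns_gen {σ : Sl (VV n) (Fin n)} {q : Fin n → Fin n → VV n → ℝ} {L Λ b b' p₁ p t N x cq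
    C₁ P₁ P₀ : ℝ} (hΩ : IsOpen Ω) (hz : z ∈ Ω) (hσ : Sg σ L Ω z) (P : Pn Λ b b' L p₁ p)
    (w : Wn Ω W p₁ p z) (jx : J1 Ω (xf ν s) x (t * x) z) (ht : 0 ≤ t) (ex : xf ν s z = x)
    (eN : ν.N z = N) (hN : 1 ≤ N) (hp₁ : p₁ ≤ P₁ * N) (hp : p ≤ P₀ * N) (k3 : n * P₁ ^ 2 ≤ C₁)
    (k4 : cL n Λ b * P₀ ≤ C₁) (k5 : n * t ^ 2 ≤ C₁) (hC : 0 ≤ C₁)
    (hq : cq * (x * N ^ 2) ≤ qq q (fun i => σ.D i W z) z)
    (hU : ∀ A : Fin n → ℝ, qq q A z ≤ C₁ * (ν.K z + x) * ∑ i, A i ^ 2) :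
    Ns σ 0 W q ν cq C₁ s z := by
  have p0 : 0 ≤ p₁ := (w.h1 0 (by simp)).a0
  have cl := cL0 n P.Λ0 P.b0
  have N0 : 0 ≤ N := by linarith
  have x0 : 0 ≤ x := jx.a0
  refine ⟨by rw [ex, eN]; exact hq, by rw [ex]; exact hU, ?_, ?_, by simp, ?_⟩
  · have h1 : ∀ i, σ.D i W z ^ 2 ≤ (P₁ * N) ^ 2 := by
      intro i
      rw [hσ.D i W, ← sq_abs]
      have := (w.h1 _ (hσ.e i)).b0
      gcongr
      exact this.trans hp₁
    calc ∑ i, σ.D i W z ^ 2 ≤ ∑ _i : Fin n, (P₁ * N) ^ 2 := Finset.sum_le_sum fun i _ => h1 i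
      _ = n * P₁ ^ 2 * N ^ 2 := by
        rw [Finset.sum_const, Finset.card_univ, Fintype.card_fin, nsmul_eq_mul]; ring
      _ ≤ C₁ * N ^ 2 := by gcongr
      _ = _ := by rw [eN]
  · refine ((hσ.JL hΩ hz P w).b0).trans ?_
    calc cL n Λ b * p ≤ cL n Λ b * (P₀ * N) := by gcongr
      _ = (cL n Λ b * P₀) * N := by ring
      _ ≤ C₁ * N ^ 2 := by
        have : N ≤ N ^ 2 := by nlinarith
        gcongr
      _ = _ := by rw [eN]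
  · have h1 : ∀ i, σ.D i (xf ν s) z ^ 2 ≤ (t * x) ^ 2 := by
      intro i
      rw [hσ.D i (xf ν s), ← sq_abs]
      have h2 := jx.b1 (σ.e i)
      have h3 := hσ.e i
      have h4 : |dv (σ.e i) (xf ν s) z| ≤ t * x :=
        h2.trans (mul_le_of_le_one_right (by positivity) h3)
      gcongr
    calc ∑ i, σ.D i (xf ν s) z ^ 2 ≤ ∑ _i : Fin n, (t * x) ^ 2 :=
          Finset.sum_le_sum fun i _ => h1 i
      _ = n * t ^ 2 * (x * 1) ^ 2 := by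
        rw [Finset.sum_const, Finset.card_univ, Fintype.card_fin, nsmul_eq_mul]; ring
      _ ≤ C₁ * (x * N) ^ 2 := by gcongr
      _ = _ := by rw [eN, ex]

/-- **The numbers of both slots**, for a weight which is `W0` on `Ω`. -/
theorem ns0 (h : Hz Λ₀ a c₁ β Λ δ ε s R l g s₁ s₂ Φ S O Ω) (hΛ₀ : 1 ≤ Λ₀) (hΛ : 1 ≤ Λ)
    (ha : 0 < a) (hc : 0 < c₁) (hC : 1 ≤ C) (hc₂ : 0 < c₂) (hδ : δ ≤ 1)
    (hβ : β ≤ bT n Λ₀ a c₁) (hβ' : kX n Λ₀ a * β ≤ 1) (hz : z ∈ Ω)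
    (wb : WB C R l Φ (W0 l g Φ S) z) (hW : ∀ w ∈ Ω, W w = W0 l g Φ S w)
    (hE : ∀ w ∈ Ω, ν.En w = Real.exp (uf l w)) (hN : ∀ w ∈ Ω, ν.N w = deriv Φ (uf l w))
    (hK : ν.K z = deriv (deriv Φ) (uf l z)) :
    Ns (sx s₁) 0 W (Q1 c₂ s l s₁ Φ) ν (c₂ * cQ n Λ₀) (C1 n Λ₀ a Λ C c₂) s z ∧
    Ns (sy s₂) 0 W (Q2 c₂ s l s₂ Φ) ν (c₂ * cQ n Λ₀) (C1 n Λ₀ a Λ C c₂) s z := by
  have b1 : β ≤ 1 := by
    unfold bT at hβ
    exact (le_min_iff.1 hβ).1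
  have hΩ := h.dt.oΩ
  have nb := h.nb hΛ ha hc hδ hz
  have wn := h.wn (by linarith : (0:ℝ) ≤ C) hz wb
  have P := nb.pn hC
  have hs₁ := h.sg₁ (by linarith : (0:ℝ) ≤ Λ) hz
  have hs₂ := h.sg₂ (by linarith : (0:ℝ) ≤ Λ) hz
  obtain ⟨k1, k2, k3, k4, k5, k6⟩ := C1_ge (Λ₀ := Λ₀) n ha (by linarith : (0:ℝ) ≤ Λ)
    (by linarith : 0 ≤ C) hc₂.le
  have N0 := nb.N0
  have E0 := nb.E0
  have K0 := nb.K0
  have a0 : 0 < 1 / a := by positivity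
  have C0 : 0 ≤ C1 n Λ₀ a Λ C c₂ := hc₂.le.trans k6
  have jx := h.jx hΛ₀ hΛ hE hN hz
  have ex : xf ν s z = Real.exp (uf l z) + s * deriv Φ (uf l z) := by
    unfold xf; rw [hE z hz, hN z hz]
  obtain ⟨t4, t5⟩ := qDW_ge h hΛ₀ ha b1 hβ' hz hc₂.le
  have e1 : (fun i => (sx s₁).D i W z) = fun i => (sx s₁).D i (W0 l g Φ S) z :=
    funext fun i => D_congr _ hΩ hW i hz
  have e2 : (fun i => (sy s₂).D i W z) = fun i => (sy s₂).D i (W0 l g Φ S) z :=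
    funext fun i => D_congr _ hΩ hW i hz
  rw [← e1] at t4
  rw [← e2] at t5
  have hp₁ : C * (deriv Φ (uf l z) + Real.exp (uf l z)) ≤
      (C * (1 + 1 / a)) * deriv Φ (uf l z) := by
    have := mul_le_mul_of_nonneg_left nb.NE (by linarith : 0 ≤ C)
    linarith
  have hp : C * (deriv (deriv Φ) (uf l z) + Real.exp (uf l z) + deriv Φ (uf l z) / R) ≤
      (C * (Λ + 1 / a + 1)) * deriv Φ (uf l z) := by
    have h1 := nb.kE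
    have h2 : deriv Φ (uf l z) / R ≤ deriv Φ (uf l z) := div_le_self N0.le nb.R1
    have h3 : deriv (deriv Φ) (uf l z) + Real.exp (uf l z) + deriv Φ (uf l z) / R ≤
      (Λ + 1 / a + 1) * deriv Φ (uf l z) := by linarith
    have := mul_le_mul_of_nonneg_left h3 (by linarith : 0 ≤ C)
    linarith
  have wn' : Wn Ω W (C * (deriv Φ (uf l z) + Real.exp (uf l z)))
      (C * (deriv (deriv Φ) (uf l z) + Real.exp (uf l z) + deriv Φ (uf l z) / R)) z :=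
    ⟨fun e he => (wn.h1 e he).congr hΩ hz fun y hy => dv_congr hΩ hW e hy,
      fun e e' he he' => (wn.h2 e e' he he').congr hΩ hz fun y hy =>
        dv_congr hΩ (fun u hu => dv_congr hΩ hW e' hu) e hy⟩
  have up : ∀ A : Fin n → ℝ, c₂ * (4 * n ^ 3 * Λ₀ ^ 2 + 2 * n ^ 2) *
      ((Real.exp (uf l z) + s * deriv Φ (uf l z)) * Vale.Agent.P088.R2.H464.Cu.dt A A) ≤
      C1 n Λ₀ a Λ C c₂ * (ν.K z + (Real.exp (uf l z) + s * deriv Φ (uf l z))) *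
        ∑ i, A i ^ 2 := by
    intro A
    rw [hK, ← dt_sq]
    have := Vale.Agent.P088.R2.H464.Cu.dt_nonneg A
    have hs := h.s0
    have h1 : 0 ≤ Real.exp (uf l z) + s * deriv Φ (uf l z) := by positivity
    have h2 : Real.exp (uf l z) + s * deriv Φ (uf l z) ≤
      deriv (deriv Φ) (uf l z) + (Real.exp (uf l z) + s * deriv Φ (uf l z)) := by linarith
    calc _ ≤ C1 n Λ₀ a Λ C c₂ *
      ((deriv (deriv Φ) (uf l z) + (Real.exp (uf l z) + s * deriv Φ (uf l z))) *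
        Vale.Agent.P088.R2.H464.Cu.dt A A) := by gcongr
      _ = _ := by ring
  refine ⟨ns_gen hΩ hz hs₁ P wn' jx (by positivity) ex (hN z hz) nb.Ng hp₁ hp k3 k4 k5 C0 t4
      fun A => ((qq_up h hΛ₀ hz hc₂.le A).1).trans (up A),
    ns_gen hΩ hz hs₂ P wn' jx (by positivity) ex (hN z hz) nb.Ng hp₁ hp k3 k4 k5 C0 t5
      fun A => ((qq_up h hΛ₀ hz hc₂.le A).2).trans (up A)⟩

end inst

end Vale.Agent.P088.R2.H437.Z0
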