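import Vale.Agent.P088.R2.H437.Z0.Th
import Vale.Agent.P088.R2.H747.S.SemW3

/-!
# P088, stage 3, zone 0: the form `c₂ (e^u ν ν + s Φ'(u) s_ij)`
-/

open Set Filter
open scoped ContDiff Topology Matrix

noncomputable section

namespace Vale.Agent.P088.R2.H437.Z0

open Vale.Agent.P088.LR Vale.Agent.P088.HY Vale.Agent.P088.R2.H961.GW Vale.Agent.P088.R2.H644.Ch
open Vale.Agent.P088.R2.H464.Cu (mid dif rq bf dg Hv up nv Nr sx sy)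
open Vale.Agent.P088.R2.H747.SW (qq)

variable {n : ℕ}

/-- The vector `s Dl`. -/
def nu (s' : MF n) (l : V n → ℝ) (x : V n) (i : Fin n) : ℝ := ∑ j, s' x i j * pd j l x

/-- The form of the first slot. -/
def Q1 (c₂ s : ℝ) (l : V n → ℝ) (s₁ : MF n) (Φ : ℝ → ℝ) (i j : Fin n) (z : VV n) : ℝ :=
  c₂ * (Real.exp (uf l z) * (nu s₁ l z.1 i * nu s₁ l z.1 j) +
    s * deriv Φ (uf l z) * s₁ z.1 i j)

/-- The form of the second slot. -/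
def Q2 (c₂ s : ℝ) (l : V n → ℝ) (s₂ : MF n) (Φ : ℝ → ℝ) (i j : Fin n) (z : VV n) : ℝ :=
  c₂ * (Real.exp (uf l z) * (nu s₂ l z.2 i * nu s₂ l z.2 j) +
    s * deriv Φ (uf l z) * s₂ z.2 i j)

theorem qq_gen (c E m : ℝ) (ν : Fin n → ℝ) (G : Matrix (Fin n) (Fin n) ℝ) (A : Fin n → ℝ) :
    ∑ i, ∑ j, (c * (E * (ν i * ν j) + m * G i j)) * A i * A j =
      c * (E * (∑ i, ν i * A i) ^ 2 + m * bf G A A) := by
  have e : (∑ i, ν i * A i) ^ 2 = ∑ i, ∑ j, ν i * A i * (ν j * A j) := by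
    rw [pow_two, Finset.sum_mul_sum]
  rw [e]
  unfold bf
  simp only [Finset.mul_sum, mul_add, ← Finset.sum_add_distrib]
  exact Finset.sum_congr rfl fun i _ => Finset.sum_congr rfl fun j _ => by ring

theorem qq1 (c₂ s : ℝ) (l : V n → ℝ) (s₁ : MF n) (Φ : ℝ → ℝ) (A : Fin n → ℝ) (z : VV n) :
    qq (Q1 c₂ s l s₁ Φ) A z = c₂ * (Real.exp (uf l z) * (∑ i, nu s₁ l z.1 i * A i) ^ 2 +
      s * deriv Φ (uf l z) * bf (s₁ z.1) A A) := qq_gen _ _ _ _ _ _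

theorem qq2 (c₂ s : ℝ) (l : V n → ℝ) (s₂ : MF n) (Φ : ℝ → ℝ) (A : Fin n → ℝ) (z : VV n) :
    qq (Q2 c₂ s l s₂ Φ) A z = c₂ * (Real.exp (uf l z) * (∑ i, nu s₂ l z.2 i * A i) ^ 2 +
      s * deriv Φ (uf l z) * bf (s₂ z.2) A A) := qq_gen _ _ _ _ _ _

theorem nu_up (s' : MF n) (l : V n → ℝ) (x A : V n) :
    ∑ i, nu s' l x i * A i = fderiv ℝ l x (up (s' x) A) := by
  rw [Vale.Agent.P088.R2.H464.Cu.fd_pd]
  unfold nu up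
  simp only [Finset.sum_mul]
  rw [Finset.sum_comm]
  exact Finset.sum_congr rfl fun i _ => Finset.sum_congr rfl fun j _ => by ring

theorem bf_up {S : Matrix (Fin n) (Fin n) ℝ} (A : V n) : bf S A A = H464.Cu.dt A (up S A) := by
  unfold bf up Vale.Agent.P088.R2.H464.Cu.dt
  rw [Finset.sum_comm]
  simp only [Finset.mul_sum]
  exact Finset.sum_congr rfl fun i _ => Finset.sum_congr rfl fun j _ => by ring

section loc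

variable {Λ₀ a c₁ β Λ δ ε s R : ℝ} {l : V n → ℝ} {g s₁ s₂ : MF n} {Φ S : ℝ → ℝ} {O : Set (V n)}
  {Ω : Set (VV n)} {z v : VV n}

theorem Hz.l1 (h : Hz Λ₀ a c₁ β Λ δ ε s R l g s₁ s₂ Φ S O Ω) {x : V n} (hx : x ∈ O) (w : V n) :
    |fderiv ℝ l x w| ≤ Λ₀ * ‖w‖ := h.l0 x hx w

theorem Hz.l2 (h : Hz Λ₀ a c₁ β Λ δ ε s R l g s₁ s₂ Φ S O Ω) {x : V n} (hx : x ∈ O) (w w' : V n) :
    |fderiv ℝ (fun x => fderiv ℝ l x w) x w'| ≤ Λ / R * ‖w‖ * ‖w'‖ := by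
  have h1 := h.dt.jl x hx 2 (by norm_num) (by norm_num)
  have e : ‖iteratedFDeriv ℝ 2 l x‖ = ‖fderiv ℝ (fderiv ℝ l) x‖ := by
    rw [← norm_iteratedFDeriv_fderiv, norm_iteratedFDeriv_one]
  rw [e] at h1
  have h1' : ‖fderiv ℝ (fderiv ℝ l) x‖ ≤ Λ / R := by
    refine h1.trans (le_of_eq ?_)
    norm_num
    rfl
  have hd : DifferentiableAt ℝ (fderiv ℝ l) x := by
    have h2 : ContDiffOn ℝ ∞ (fderiv ℝ l) O := h.dt.sl.fderiv_of_isOpen h.dt.oO (by norm_num)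
    exact ((h2 x hx).contDiffAt (h.dt.oO.mem_nhds hx)).differentiableAt (by simp)
  have e2 : fderiv ℝ (fun x => fderiv ℝ l x w) x w' = fderiv ℝ (fderiv ℝ l) x w' w := by
    have := fderiv_clm_apply hd (differentiableAt_const w)
    rw [this]
    simp
  rw [e2]
  refine ((fderiv ℝ (fderiv ℝ l) x w').le_opNorm w).trans ?_
  have h3 := (fderiv ℝ (fderiv ℝ l) x).le_opNorm w'
  have h4 := norm_nonneg w
  have h5 := norm_nonneg w'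
  calc ‖fderiv ℝ (fderiv ℝ l) x w'‖ * ‖w‖ ≤ (‖fderiv ℝ (fderiv ℝ l) x‖ * ‖w'‖) * ‖w‖ := by gcongr
    _ ≤ (Λ / R * ‖w'‖) * ‖w‖ := by gcongr
    _ = _ := by ring

/-- The difference of the gradients of `l`. -/
theorem Hz.l12 (h : Hz Λ₀ a c₁ β Λ δ ε s R l g s₁ s₂ Φ S O Ω) (_hΛ : 0 ≤ Λ) (hz : z ∈ Ω) (w : V n) :
    |fderiv ℝ l z.1 w - fderiv ℝ l z.2 w| ≤ Λ / R * ‖w‖ * β := h.ll z hz w

theorem Hz.uv (h : Hz Λ₀ a c₁ β Λ δ ε s R l g s₁ s₂ Φ S O Ω) (hz : z ∈ Ω) (v : VV n) :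
    dv v (uf l) z = fderiv ℝ l z.1 v.1 + fderiv ℝ l z.2 v.2 := by
  obtain ⟨hx, hy, -⟩ := h.dt.pt z hz
  have d1 := df_of h.dt.oO h.dt.sl hx
  have d2 := df_of h.dt.oO h.dt.sl hy
  have f1 : DifferentiableAt ℝ (fun z : VV n => l z.1) z :=
    DifferentiableAt.comp z d1 differentiableAt_fst
  have f2 : DifferentiableAt ℝ (fun z : VV n => l z.2) z :=
    DifferentiableAt.comp z d2 differentiableAt_snd
  show fderiv ℝ (fun z : VV n => l z.1 + l z.2) z (v.1, v.2) = _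
  rw [fderiv_fun_add f1 f2, _root_.add_apply, fd_fst d1 v.1 v.2, fd_snd d2 v.1 v.2]

/-- The difference of the two parts of `D_v u`. -/
theorem x12 (h : Hz Λ₀ a c₁ β Λ δ ε s R l g s₁ s₂ Φ S O Ω) (hΛ : 0 ≤ Λ) (hβ1 : β ≤ 1)
    (hδ : Λ ^ 2 * δ ≤ 1) (hz : z ∈ Ω) (v : VV n) :
    (fderiv ℝ l z.1 v.1 - fderiv ℝ l z.2 v.2) ^ 2 ≤
      2 * (Λ₀ ^ 2 * H464.Cu.dt (v.1 - v.2) (v.1 - v.2) + s * (H464.Cu.dt v.1 v.1 + H464.Cu.dt v.2 v.2)) := by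
  obtain ⟨hx, hy, -⟩ := h.dt.pt z hz
  have hR := h.R0
  have hβ := h.β0
  have hδ0 := h.d0 hz
  have s0 := h.s0
  have M1 := Vale.Agent.P088.R2.H464.Cu.dt_nonneg v.1
  have M2 := Vale.Agent.P088.R2.H464.Cu.dt_nonneg v.2
  have n2 := nsq v.2
  have n3 := nsq (v.1 - v.2)
  have b1 : |fderiv ℝ l z.1 v.1 - fderiv ℝ l z.2 v.2| ≤
      Λ₀ * ‖v.1 - v.2‖ + Λ / R * ‖v.2‖ * β := by
    have e1 : fderiv ℝ l z.1 v.1 - fderiv ℝ l z.2 v.2 =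
        fderiv ℝ l z.1 (v.1 - v.2) + (fderiv ℝ l z.1 v.2 - fderiv ℝ l z.2 v.2) := by
      rw [map_sub]; ring
    rw [e1]
    exact (abs_add_le _ _).trans (add_le_add (h.l1 hx _) (h.l12 hΛ hz _))
  obtain ⟨p, hp⟩ : ∃ p, p = ‖v.1 - v.2‖ := ⟨_, rfl⟩
  obtain ⟨q, hq⟩ : ∃ q, q = ‖v.2‖ := ⟨_, rfl⟩
  rw [← hp, ← hq] at b1
  rw [← hp] at n3
  rw [← hq] at n2
  have e1 := sq_le_sq' (by linarith [(abs_le.1 b1).1]) (abs_le.1 b1).2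
  have e2 : (Λ₀ * p + Λ / R * q * β) ^ 2 ≤
      2 * (Λ₀ ^ 2 * p ^ 2 + Λ ^ 2 * (1 / R ^ 2 * q ^ 2) * β ^ 2) := by
    have : 2 * (Λ₀ ^ 2 * p ^ 2 + Λ ^ 2 * (1 / R ^ 2 * q ^ 2) * β ^ 2) -
        (Λ₀ * p + Λ / R * q * β) ^ 2 = (Λ₀ * p - Λ / R * q * β) ^ 2 := by
      field_simp; ring
    have := sq_nonneg (Λ₀ * p - Λ / R * q * β)
    linarith
  have e3 : Λ ^ 2 * (1 / R ^ 2 * q ^ 2) * β ^ 2 ≤ s * (H464.Cu.dt v.1 v.1 + H464.Cu.dt v.2 v.2) := by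
    have e4 : β ^ 2 ≤ 1 := by nlinarith
    have e5 := h.Rs
    have e6 : q ^ 2 ≤ H464.Cu.dt v.1 v.1 + H464.Cu.dt v.2 v.2 := by linarith
    calc Λ ^ 2 * (1 / R ^ 2 * q ^ 2) * β ^ 2 ≤
        Λ ^ 2 * ((δ * s) * (H464.Cu.dt v.1 v.1 + H464.Cu.dt v.2 v.2)) * 1 := by gcongr
      _ = (Λ ^ 2 * δ) * (s * (H464.Cu.dt v.1 v.1 + H464.Cu.dt v.2 v.2)) := by ring
      _ ≤ 1 * (s * (H464.Cu.dt v.1 v.1 + H464.Cu.dt v.2 v.2)) := by gcongr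
      _ = _ := by ring
  have e7 := mul_le_mul_of_nonneg_left n3 (sq_nonneg Λ₀)
  linarith

theorem q_fin {c₂ E N K x1 x2 D M s a c₁ Λ₀ dA dB m : ℝ} (hc₂ : 0 ≤ c₂) (hE : 0 ≤ E)
    (hN : 0 ≤ N) (hs : 0 ≤ s) (hD : 0 ≤ D) (hM : 0 ≤ M) (ha : 0 < a) (EN : a * E ≤ N)
    (EK : c₁ * E ≤ K) (b2 : (x1 - x2) ^ 2 ≤ 2 * (Λ₀ ^ 2 * D + s * M))
    (k1 : c₂ ≤ 1 / 2 * c₁) (k2 : c₂ * Λ₀ ^ 2 ≤ 1 / 32) (k3 : c₂ * (1 / a + m) ≤ 1 / 4)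
    (hAB : dA + dB ≤ m * M) :
    c₂ * (E * x1 ^ 2 + s * N * dA) + c₂ * (E * x2 ^ 2 + s * N * dB) ≤
      1 / 2 * (1 / 2 * K * (x1 + x2) ^ 2 + 1 / 2 * (s * N) * M + 1 / 16 * E * D) := by
  have c1 : c₂ * (1 / 2 * E * (x1 + x2) ^ 2) ≤ 1 / 4 * K * (x1 + x2) ^ 2 := by
    have : c₂ * E ≤ 1 / 2 * K := by
      calc c₂ * E ≤ 1 / 2 * c₁ * E := by gcongr
        _ ≤ 1 / 2 * K := by linarith
    have := mul_le_mul_of_nonneg_right this (sq_nonneg (x1 + x2))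
    linarith
  have c2 : c₂ * (E * (Λ₀ ^ 2 * D)) ≤ 1 / 32 * E * D := by
    calc c₂ * (E * (Λ₀ ^ 2 * D)) = (c₂ * Λ₀ ^ 2) * (E * D) := by ring
      _ ≤ 1 / 32 * (E * D) := by gcongr
      _ = _ := by ring
  have c3 : c₂ * (E * (s * M)) ≤ c₂ * (1 / a) * (s * N * M) := by
    have e1 : E ≤ N / a := by rw [le_div_iff₀ ha]; linarith
    calc c₂ * (E * (s * M)) ≤ c₂ * ((N / a) * (s * M)) := by gcongr
      _ = _ := by ring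
  have c4 : c₂ * (s * N * dA + s * N * dB) ≤ c₂ * m * (s * N * M) := by
    calc c₂ * (s * N * dA + s * N * dB) = c₂ * (s * N * (dA + dB)) := by ring
      _ ≤ c₂ * (s * N * (m * M)) := by gcongr
      _ = _ := by ring
  have c5 : c₂ * (1 / a) * (s * N * M) + c₂ * m * (s * N * M) ≤ 1 / 4 * (s * N * M) := by
    have := mul_le_mul_of_nonneg_right k3 (by positivity : 0 ≤ s * N * M)
    linarith
  have c6 : c₂ * (E * (1 / 2 * (x1 - x2) ^ 2)) ≤ c₂ * (E * (Λ₀ ^ 2 * D)) +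
      c₂ * (E * (s * M)) := by
    have : c₂ * (E * (1 / 2 * (x1 - x2) ^ 2)) ≤
      c₂ * (E * (1 / 2 * (2 * (Λ₀ ^ 2 * D + s * M)))) := by gcongr
    linarith
  have e : c₂ * (E * x1 ^ 2 + s * N * dA) + c₂ * (E * x2 ^ 2 + s * N * dB) =
      c₂ * (1 / 2 * E * (x1 + x2) ^ 2) + c₂ * (E * (1 / 2 * (x1 - x2) ^ 2)) +
        c₂ * (s * N * dA + s * N * dB) := by ring
  rw [e]
  linarith

theorem dA_le {s' : MF n} (n' : Nr O ε (ε / R) (ε / R ^ 2) s') (hε : n * ε ≤ 1 / 2) {x : V n}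
    (hx : x ∈ O) (A : V n) : H464.Cu.dt A (up (s' x) A) ≤ 2 * n * H464.Cu.dt (up (s' x) A) (up (s' x) A) := by
  have A1 := Vale.Agent.P088.R2.H464.Cu.up_ge n' hε hx A
  have n1 := nsq (up (s' x) A)
  have h1 := (le_abs_self _).trans (Vale.Agent.P088.R2.H464.Cu.dt_le A (up (s' x) A))
  have h2 := norm_nonneg (up (s' x) A)
  have h3 := norm_nonneg A
  calc H464.Cu.dt A (up (s' x) A) ≤ n * (‖A‖ * ‖up (s' x) A‖) := h1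
    _ ≤ n * ((2 * ‖up (s' x) A‖) * ‖up (s' x) A‖) := by gcongr
    _ = 2 * n * ‖up (s' x) A‖ ^ 2 := by ring
    _ ≤ _ := by gcongr

/-- The forms are bounded by the lower bound of `TH`. -/
theorem q_le (h : Hz Λ₀ a c₁ β Λ δ ε s R l g s₁ s₂ Φ S O Ω) (hΛ : 0 ≤ Λ) (ha : 0 < a)
    (hβ1 : β ≤ 1) (hδ : Λ ^ 2 * δ ≤ 1) (hz : z ∈ Ω) {c₂ : ℝ} (hc₂ : 0 ≤ c₂)
    (k1 : c₂ ≤ 1 / 2 * c₁) (k2 : c₂ * Λ₀ ^ 2 ≤ 1 / 32) (k3 : c₂ * (1 / a + 2 * n) ≤ 1 / 4)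
    (A B : V n) (hv : v = (up (s₁ z.1) A, up (s₂ z.2) B)) :
    qq (Q1 c₂ s l s₁ Φ) A z + qq (Q2 c₂ s l s₂ Φ) B z ≤
      1 / 2 * (1 / 2 * deriv (deriv Φ) (uf l z) * dv v (uf l) z ^ 2 +
        1 / 2 * (s * deriv Φ (uf l z)) * (H464.Cu.dt v.1 v.1 + H464.Cu.dt v.2 v.2) +
        1 / 16 * Real.exp (uf l z) * H464.Cu.dt (v.1 - v.2) (v.1 - v.2)) := by
  obtain ⟨hx, hy, -⟩ := h.dt.pt z hz
  rw [qq1, qq2, nu_up, nu_up, bf_up, bf_up, h.uv hz v]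
  have ev1 : up (s₁ z.1) A = v.1 := by rw [hv]
  have ev2 : up (s₂ z.2) B = v.2 := by rw [hv]
  have A1 := dA_le h.n₁ h.εn hx A
  have B1 := dA_le h.n₂ h.εn hy B
  rw [ev1] at A1 ⊢
  rw [ev2] at B1 ⊢
  exact q_fin hc₂ (Real.exp_pos _).le (h.dt.N0 z hz).le h.s0.le
    (Vale.Agent.P088.R2.H464.Cu.dt_nonneg _) (add_nonneg
      (Vale.Agent.P088.R2.H464.Cu.dt_nonneg _) (Vale.Agent.P088.R2.H464.Cu.dt_nonneg _)) ha
    (h.EN z hz) (h.EK z hz) (x12 h hΛ hβ1 hδ hz v) k1 k2 k3 (by linarith)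

theorem nu_le (h : Hz Λ₀ a c₁ β Λ δ ε s R l g s₁ s₂ Φ S O Ω) (hΛ₀ : 1 ≤ Λ₀) {s' : MF n}
    (n' : Nr O ε (ε / R) (ε / R ^ 2) s') {x : V n} (hx : x ∈ O) : ‖nu s' l x‖ ≤ 2 * n * Λ₀ := by
  rw [pi_norm_le_iff_of_nonneg (by positivity)]
  intro i
  rw [Real.norm_eq_abs]
  unfold nu
  refine (Vale.Agent.P088.R2.H464.Cu.sum_le1 (c := 2 * Λ₀) fun j => ?_).trans (le_of_eq (by ring))
  rw [abs_mul]
  have h1 := n'.le2 h.ε1 hx i j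
  have h2 := h.l1 hx (Pi.single j 1)
  have h3 : |pd j l x| ≤ Λ₀ := by
    refine (show |pd j l x| ≤ Λ₀ * ‖(Pi.single j 1 : V n)‖ from h2).trans ?_
    exact mul_le_of_le_one_right (by linarith) (Vale.Agent.P088.R2.H464.Cu.norm_single_le j)
  gcongr

theorem nu_sq {s' : MF n} (hε : n * ε ≤ 1 / 2) (n' : Nr O ε (ε / R) (ε / R ^ 2) s')
    (lg : ∀ x ∈ O, 1 / 8 ≤ ∑ k, pd k l x ^ 2) {x : V n} (hx : x ∈ O) :
    1 / 32 ≤ fderiv ℝ l x (nu s' l x) := by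
  have e : fderiv ℝ l x (nu s' l x) = bf (s' x) (fun k => pd k l x) (fun k => pd k l x) := by
    rw [Vale.Agent.P088.R2.H464.Cu.fd_pd]
    unfold nu bf
    simp only [Finset.sum_mul]
    exact Finset.sum_congr rfl fun i _ => Finset.sum_congr rfl fun j _ => by ring
  have h1 := Vale.Agent.P088.R2.H464.Cu.form_ge hε (fun i j => n'.b0 x hx i j)
    (fun k => pd k l x)
  have h2 := lg x hx
  have h3 : H464.Cu.dt (fun k => pd k l x) (fun k => pd k l x) = ∑ k, pd k l x ^ 2 := by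
    unfold Vale.Agent.P088.R2.H464.Cu.dt
    exact Finset.sum_congr rfl fun i _ => by ring
  rw [e]
  rw [h3] at h1
  linarith

theorem dt_cs (u w : V n) : H464.Cu.dt u w ^ 2 ≤ H464.Cu.dt u u * H464.Cu.dt w w := by
  have := Finset.sum_mul_sq_le_sq_mul_sq Finset.univ u w
  unfold Vale.Agent.P088.R2.H464.Cu.dt
  simpa only [pow_two] using this

theorem dv_inl (f : VV n → ℝ) (z : VV n) (u : V n) : dv (u, 0) f z = H464.Cu.dt u (fun i => dx i f z) := by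
  unfold dv Vale.Agent.P088.R2.H464.Cu.dt
  rw [Vale.Agent.P088.R2.H464.Cu.inl_sum]
  simp only [map_sum, map_smul, smul_eq_mul]
  rfl

theorem dv_inr (f : VV n → ℝ) (z : VV n) (u : V n) : dv (0, u) f z = H464.Cu.dt u (fun i => dy i f z) := by
  unfold dv Vale.Agent.P088.R2.H464.Cu.dt
  rw [Vale.Agent.P088.R2.H464.Cu.inr_sum]
  simp only [map_sum, map_smul, smul_eq_mul]
  rfl

/-- The constant of the smallness of `δ`. -/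
def kX (n : ℕ) (Λ₀ a : ℝ) : ℝ := 64 * (3 * (2 * n ^ 2 + n ^ 3) * (2 * n * Λ₀) * Λ₀ / a) + 1

theorem kX_pos (n : ℕ) {Λ₀ a : ℝ} (hΛ₀ : 1 ≤ Λ₀) (ha : 0 < a) : 0 < kX n Λ₀ a := by
  unfold kX; positivity

theorem X_ge (h : Hz Λ₀ a c₁ β Λ δ ε s R l g s₁ s₂ Φ S O Ω) (hΛ₀ : 1 ≤ Λ₀) (ha : 0 < a) (hβ1 : β ≤ 1)
    (hβ : kX n Λ₀ a * β ≤ 1) (hz : z ∈ Ω) (w : VV n) (hw : ‖w‖ ≤ 2 * n * Λ₀)
    (hu : 1 / 32 ≤ dv w (uf l) z) : 1 / 64 * deriv Φ (uf l z) ≤ dv w (W0 l g Φ S) z := by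
  have hR := h.R0
  have hd := h.β0
  have hN := h.dt.N0 z hz
  have hE := Real.exp_pos (uf l z)
  have EN := h.EN z hz
  have e := (W0_d h.dt.sΦ h.dt.sS (df_on h.dt.oΩ h.su hz) (df_on h.dt.oΩ h.sr hz) w).e
  have e' : dv w (W0 l g Φ S) z = deriv Φ (uf l z) * dv w (uf l) z +
      (Real.exp (uf l z) * dv w (uf l) z * S (rq g z) +
        Real.exp (uf l z) * (deriv S (rq g z) * dv w (rq g) z)) := e
  rw [e']
  have r1 := r1_le h hβ1 hz w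
  have w0 := norm_nonneg w
  have w1 : ‖w.1 - w.2‖ + ‖w‖ / R ≤ 3 * ‖w‖ := by
    have h1 := norm_sub_le w.1 w.2
    have h2 := norm_fst_le w
    have h3 := norm_snd_le w
    have h4 : ‖w‖ / R ≤ ‖w‖ := div_le_self w0 h.dt.R1
    linarith
  have S1 : |deriv S (rq g z)| ≤ Λ₀ := by
    rw [abs_of_nonneg (by linarith [h.S1 z hz])]
    exact h.S2 z hz
  obtain ⟨b, hb⟩ : ∃ b : ℝ, b = 3 * (2 * n ^ 2 + n ^ 3) * (2 * n * Λ₀) := ⟨_, rfl⟩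
  have b0 : 0 ≤ b := by rw [hb]; positivity
  have r2 : |dv w (rq g) z| ≤ b * β := by
    refine r1.trans ?_
    calc (2 * (n : ℝ) ^ 2 + n ^ 3) * (β * (‖w.1 - w.2‖ + ‖w‖ / R))
        ≤ (2 * (n : ℝ) ^ 2 + n ^ 3) * (β * (3 * (2 * n * Λ₀))) := by
          have : ‖w.1 - w.2‖ + ‖w‖ / R ≤ 3 * (2 * n * Λ₀) := by linarith
          gcongr
      _ = b * β := by rw [hb]; ring
  have e1 : Real.exp (uf l z) ≤ deriv Φ (uf l z) / a := by rw [le_div_iff₀ ha]; linarith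
  have r3 : |Real.exp (uf l z) * (deriv S (rq g z) * dv w (rq g) z)| ≤
      1 / 64 * deriv Φ (uf l z) := by
    rw [abs_mul, abs_mul, abs_of_pos hE]
    calc Real.exp (uf l z) * (|deriv S (rq g z)| * |dv w (rq g) z|)
        ≤ deriv Φ (uf l z) / a * (Λ₀ * (b * β)) := by gcongr
      _ = 1 / 64 * ((64 * (b * Λ₀ / a)) * β) * deriv Φ (uf l z) := by ring
      _ ≤ 1 / 64 * 1 * deriv Φ (uf l z) := by
          have : (64 * (b * Λ₀ / a)) * β ≤ 1 := by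
            refine le_trans (mul_le_mul_of_nonneg_right ?_ hd.le) hβ
            unfold kX
            rw [← hb]
            linarith
          gcongr
      _ = _ := by ring
  have r4 := (abs_le.1 r3).1
  have r5 : deriv Φ (uf l z) * (1 / 32) ≤ deriv Φ (uf l z) * dv w (uf l) z :=
    mul_le_mul_of_nonneg_left hu hN.le
  have r6 : 0 ≤ Real.exp (uf l z) * dv w (uf l) z * S (rq g z) := by
    have := h.S0 z hz
    positivity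
  linarith

/-- The constant in the lower bound of `q(DW)`. -/
def cQ (n : ℕ) (Λ₀ : ℝ) : ℝ := 1 / 4 * (1 / 64) ^ 2 / (1 + 4 * n ^ 3 * Λ₀ ^ 2)

theorem cQ_pos (n : ℕ) (Λ₀ : ℝ) : 0 < cQ n Λ₀ := by unfold cQ; positivity

/-- The arithmetic of the lower bound. -/
theorem q_alg {c₂ E m X b G t N : ℝ} (hc : 0 ≤ c₂) (hE : 0 ≤ E) (hm : 0 ≤ m) (hN : 0 ≤ N)
    (hX : 1 / 64 * N ≤ X) (hb : 1 / 4 * G ≤ b) (hG : X ^ 2 ≤ t * G) (ht : 0 ≤ t) (hG0 : 0 ≤ G) :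
    c₂ * (1 / 4 * (1 / 64) ^ 2 / (1 + t)) * ((E + m) * N ^ 2) ≤ c₂ * (E * X ^ 2 + m * b) := by
  have h1 : (1 / 64) ^ 2 * N ^ 2 ≤ X ^ 2 := by
    rw [← mul_pow]; gcongr
  have h2 : (1 / 64) ^ 2 * N ^ 2 / (1 + t) ≤ G := by
    rw [div_le_iff₀ (by positivity)]
    nlinarith
  have h3 : 1 / 4 * (1 / 64) ^ 2 / (1 + t) ≤ (1 / 64) ^ 2 := by
    rw [div_le_iff₀ (by positivity)]
    nlinarith
  have h4 : (1 / 4 * (1 / 64) ^ 2 / (1 + t)) * (E * N ^ 2) ≤ E * X ^ 2 := by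
    calc (1 / 4 * (1 / 64) ^ 2 / (1 + t)) * (E * N ^ 2) ≤ (1 / 64) ^ 2 * (E * N ^ 2) := by gcongr
      _ = E * ((1 / 64) ^ 2 * N ^ 2) := by ring
      _ ≤ _ := by gcongr
  have h5 : (1 / 4 * (1 / 64) ^ 2 / (1 + t)) * (m * N ^ 2) ≤ m * b := by
    calc (1 / 4 * (1 / 64) ^ 2 / (1 + t)) * (m * N ^ 2) =
          m * (1 / 4 * ((1 / 64) ^ 2 * N ^ 2 / (1 + t))) := by ring
      _ ≤ m * (1 / 4 * G) := by gcongr
      _ ≤ _ := by gcongr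
  have h6 : c₂ * (1 / 4 * (1 / 64) ^ 2 / (1 + t)) * ((E + m) * N ^ 2) =
      c₂ * ((1 / 4 * (1 / 64) ^ 2 / (1 + t)) * (E * N ^ 2) +
        (1 / 4 * (1 / 64) ^ 2 / (1 + t)) * (m * N ^ 2)) := by ring
  rw [h6]
  gcongr

/-- The lower bound of `q(DW)` in both slots. -/
theorem qDW_ge (h : Hz Λ₀ a c₁ β Λ δ ε s R l g s₁ s₂ Φ S O Ω) (hΛ₀ : 1 ≤ Λ₀) (ha : 0 < a) (hβ1 : β ≤ 1)
    (hβ : kX n Λ₀ a * β ≤ 1) (hz : z ∈ Ω) {c₂ : ℝ} (hc₂ : 0 ≤ c₂) :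
    c₂ * cQ n Λ₀ * ((Real.exp (uf l z) + s * deriv Φ (uf l z)) * deriv Φ (uf l z) ^ 2) ≤
      qq (Q1 c₂ s l s₁ Φ) (fun i => (sx s₁).D i (W0 l g Φ S) z) z ∧
    c₂ * cQ n Λ₀ * ((Real.exp (uf l z) + s * deriv Φ (uf l z)) * deriv Φ (uf l z) ^ 2) ≤
      qq (Q2 c₂ s l s₂ Φ) (fun i => (sy s₂).D i (W0 l g Φ S) z) z := by
  obtain ⟨hx, hy, -⟩ := h.dt.pt z hz
  have hN := h.dt.N0 z hz
  have hE := Real.exp_pos (uf l z)
  have s0 := h.s0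
  have key : ∀ (s' : MF n) (x : V n), x ∈ O → Nr O ε (ε / R) (ε / R ^ 2) s' → ∀ (w : VV n)
      (Wv : V n), ‖w‖ ≤ 2 * n * Λ₀ → 1 / 32 ≤ dv w (uf l) z →
      dv w (W0 l g Φ S) z = H464.Cu.dt (nu s' l x) Wv →
      c₂ * cQ n Λ₀ * ((Real.exp (uf l z) + s * deriv Φ (uf l z)) * deriv Φ (uf l z) ^ 2) ≤
      c₂ * (Real.exp (uf l z) * (∑ i, nu s' l x i * Wv i) ^ 2 +
        s * deriv Φ (uf l z) * bf (s' x) Wv Wv) := by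
    intro s' x hx' n' w Wv hw hu e
    have h1 := X_ge h hΛ₀ ha hβ1 hβ hz w hw hu
    have h2 := Vale.Agent.P088.R2.H464.Cu.form_ge h.εn (fun i j => n'.b0 x hx' i j) Wv
    have h3 := dt_cs (nu s' l x) Wv
    have h4 : H464.Cu.dt (nu s' l x) (nu s' l x) ≤ 4 * n ^ 3 * Λ₀ ^ 2 := by
      have h5 := nu_le h hΛ₀ n' hx'
      have h6 := dt_le_n (nu s' l x)
      calc _ ≤ _ := h6
        _ ≤ n * (2 * n * Λ₀) ^ 2 := by gcongr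
        _ = _ := by ring
    have h7 := Vale.Agent.P088.R2.H464.Cu.dt_nonneg Wv
    have e2 : (∑ i, nu s' l x i * Wv i) = H464.Cu.dt (nu s' l x) Wv := rfl
    rw [e] at h1
    rw [e2]
    refine q_alg hc₂ hE.le (by positivity) hN.le h1 (by
      have : ((1 : ℝ) / 2) ^ 2 = 1 / 4 := by norm_num
      rwa [this] at h2) (h3.trans (by gcongr)) (by positivity) h7
  constructor
  · have e0 : (fun i => (sx s₁).D i (W0 l g Φ S) z) = fun i => dx i (W0 l g Φ S) z :=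
      funext fun i => Vale.Agent.P088.R2.H464.Cu.Dx1 i _ z
    rw [e0, qq1]
    refine key s₁ z.1 hx h.n₁ (nu s₁ l z.1, 0) _ ?_ ?_ (dv_inl _ z _)
    · rw [Prod.norm_def]
      simpa using nu_le h hΛ₀ h.n₁ hx
    · rw [h.uv hz]
      have := nu_sq h.εn h.n₁ h.lg hx
      simpa using this
  · have e0 : (fun i => (sy s₂).D i (W0 l g Φ S) z) = fun i => dy i (W0 l g Φ S) z :=
      funext fun i => Vale.Agent.P088.R2.H464.Cu.Dy1 i _ z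
    rw [e0, qq2]
    refine key s₂ z.2 hy h.n₂ (0, nu s₂ l z.2) _ ?_ ?_ (dv_inr _ z _)
    · rw [Prod.norm_def]
      simpa using nu_le h hΛ₀ h.n₂ hy
    · rw [h.uv hz]
      have := nu_sq h.εn h.n₂ h.lg hy
      simpa using this

/-- The upper bound of the forms. -/
theorem qq_up (h : Hz Λ₀ a c₁ β Λ δ ε s R l g s₁ s₂ Φ S O Ω) (hΛ₀ : 1 ≤ Λ₀) (hz : z ∈ Ω) {c₂ : ℝ}
    (hc₂ : 0 ≤ c₂) (A : V n) :
    qq (Q1 c₂ s l s₁ Φ) A z ≤ c₂ * (4 * n ^ 3 * Λ₀ ^ 2 + 2 * n ^ 2) *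
      ((Real.exp (uf l z) + s * deriv Φ (uf l z)) * H464.Cu.dt A A) ∧
    qq (Q2 c₂ s l s₂ Φ) A z ≤ c₂ * (4 * n ^ 3 * Λ₀ ^ 2 + 2 * n ^ 2) *
      ((Real.exp (uf l z) + s * deriv Φ (uf l z)) * H464.Cu.dt A A) := by
  obtain ⟨hx, hy, -⟩ := h.dt.pt z hz
  have hN := h.dt.N0 z hz
  have hE := Real.exp_pos (uf l z)
  have s0 := h.s0
  have key : ∀ (s' : MF n) (x : V n), x ∈ O → Nr O ε (ε / R) (ε / R ^ 2) s' →
      c₂ * (Real.exp (uf l z) * (∑ i, nu s' l x i * A i) ^ 2 +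
        s * deriv Φ (uf l z) * bf (s' x) A A) ≤ c₂ * (4 * n ^ 3 * Λ₀ ^ 2 + 2 * n ^ 2) *
      ((Real.exp (uf l z) + s * deriv Φ (uf l z)) * H464.Cu.dt A A) := by
    intro s' x hx' n'
    have h3 := dt_cs (nu s' l x) A
    have h4 : H464.Cu.dt (nu s' l x) (nu s' l x) ≤ 4 * n ^ 3 * Λ₀ ^ 2 := by
      have h5 := nu_le h hΛ₀ n' hx'
      have h6 := dt_le_n (nu s' l x)
      calc _ ≤ _ := h6
        _ ≤ n * (2 * n * Λ₀) ^ 2 := by gcongr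
        _ = _ := by ring
    have h7 := Vale.Agent.P088.R2.H464.Cu.dt_nonneg A
    have h8 : bf (s' x) A A ≤ 2 * n ^ 2 * H464.Cu.dt A A := by
      have h9 := (le_abs_self _).trans (Vale.Agent.P088.R2.H464.Cu.bf_le (by norm_num : (0:ℝ) ≤ 2)
        (fun i j => n'.le2 h.ε1 hx' i j) A A)
      calc _ ≤ _ := h9
        _ = 2 * n ^ 2 * ‖A‖ ^ 2 := by ring
        _ ≤ _ := by gcongr; exact nsq A
    have e2 : (∑ i, nu s' l x i * A i) = H464.Cu.dt (nu s' l x) A := rfl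
    rw [e2]
    have h10 : H464.Cu.dt (nu s' l x) A ^ 2 ≤ 4 * n ^ 3 * Λ₀ ^ 2 * H464.Cu.dt A A := h3.trans (by gcongr)
    have p1 : 0 ≤ Real.exp (uf l z) * (2 * n ^ 2 * H464.Cu.dt A A) := by positivity
    have p2 : 0 ≤ s * deriv Φ (uf l z) * (4 * n ^ 3 * Λ₀ ^ 2 * H464.Cu.dt A A) := by positivity
    calc c₂ * (Real.exp (uf l z) * H464.Cu.dt (nu s' l x) A ^ 2 +
        s * deriv Φ (uf l z) * bf (s' x) A A) ≤ c₂ * (Real.exp (uf l z) *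
        (4 * n ^ 3 * Λ₀ ^ 2 * H464.Cu.dt A A) + s * deriv Φ (uf l z) * (2 * n ^ 2 * H464.Cu.dt A A)) := by gcongr
      _ ≤ c₂ * ((Real.exp (uf l z) * (4 * n ^ 3 * Λ₀ ^ 2 * H464.Cu.dt A A) +
        s * deriv Φ (uf l z) * (2 * n ^ 2 * H464.Cu.dt A A)) + (Real.exp (uf l z) * (2 * n ^ 2 * H464.Cu.dt A A) +
          s * deriv Φ (uf l z) * (4 * n ^ 3 * Λ₀ ^ 2 * H464.Cu.dt A A))) :=
          mul_le_mul_of_nonneg_left (by linarith) hc₂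
      _ = _ := by ring
  rw [qq1, qq2]
  exact ⟨key s₁ z.1 hx h.n₁, key s₂ z.2 hy h.n₂⟩

end loc

end Vale.Agent.P088.R2.H437.Z0
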