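import Vale.Agent.P088.R2.H437.Z0.Jc

/-!
# P088, stage 3, zone 0: the two slots
-/

open Set Filter
open scoped ContDiff Topology Matrix

noncomputable section

namespace Vale.Agent.P088.R2.H437.Z0

open Vale.Agent.P088.LR Vale.Agent.P088.HY Vale.Agent.P088.R2.H961.GW Vale.Agent.P088.R2.H644.Ch
open Vale.Agent.P088.R2.H464.Cu (mid dif rq bf dg Hv up nv Nr sx sy)

variable {n : ℕ}

section jet

variable {E : Type*} [NormedAddCommGroup E] [NormedSpace ℝ E] {f : E → ℝ} {U : Set E} {z : E}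

theorem sm_fw (hU : IsOpen U) (hf : ContDiffOn ℝ ∞ f U) (w : E) :
    ContDiffOn ℝ ∞ (fun y => fderiv ℝ f y w) U :=
  (hf.fderiv_of_isOpen hU (by norm_num)).clm_apply contDiffOn_const

/-- The jets of a directional derivative. -/
theorem jet_w (hU : IsOpen U) (hf : ContDiffOn ℝ ∞ f U) (w : E) (hz : z ∈ U) (j : ℕ) :
    ‖iteratedFDeriv ℝ j (fun y => fderiv ℝ f y w) z‖ ≤ ‖w‖ * ‖iteratedFDeriv ℝ (j + 1) f z‖ := by
  have h1 : ContDiffOn ℝ ∞ (fderiv ℝ f) U := hf.fderiv_of_isOpen hU (by norm_num)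
  have s1 : ContDiffAt ℝ (j : ℕ∞ω) (fderiv ℝ f) z :=
    ((h1 z hz).contDiffAt (hU.mem_nhds hz)).of_le (by exact_mod_cast le_top)
  have e : ‖iteratedFDeriv ℝ j (ContinuousLinearMap.apply ℝ ℝ w ∘ fderiv ℝ f) z‖ ≤
      ‖ContinuousLinearMap.apply ℝ ℝ w‖ * ‖iteratedFDeriv ℝ j (fderiv ℝ f) z‖ :=
    (ContinuousLinearMap.apply ℝ ℝ w).norm_iteratedFDeriv_comp_left s1 le_rfl
  rw [norm_iteratedFDeriv_fderiv] at e
  refine e.trans (mul_le_mul_of_nonneg_right ?_ (norm_nonneg _))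
  refine ContinuousLinearMap.opNorm_le_bound _ (norm_nonneg w) fun L => ?_
  rw [ContinuousLinearMap.apply_apply, mul_comm]
  exact L.le_opNorm w

theorem fw_le (w : E) : |fderiv ℝ f z w| ≤ ‖iteratedFDeriv ℝ 1 f z‖ * ‖w‖ := by
  rw [norm_iteratedFDeriv_one]
  exact (fderiv ℝ f z).le_opNorm w

end jet

section slot

variable {Ω : Set (VV n)} {O : Set (V n)} {f g : VV n → ℝ} {h : V n → ℝ} {a₀ a₁ b₀ b₁ L : ℝ}
  {z : VV n} {P : VV n →L[ℝ] V n}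

theorem J.congr (hΩ : IsOpen Ω) (hz : z ∈ Ω) (e : ∀ y ∈ Ω, g y = f y) (hf : J Ω f a₀ a₁ z) :
    J Ω g a₀ a₁ z where
  sm := hf.sm.congr e
  b0 := by rw [e z hz]; exact hf.b0
  b1 w := by rw [dv_congr hΩ e w hz]; exact hf.b1 w
  b2 w w' := by
    rw [dv_congr hΩ (fun y hy => dv_congr hΩ e w' hy) w hz]; exact hf.b2 w w'

theorem dv_pr (hO : IsOpen O) (hP : P z ∈ O) (hh : ContDiffOn ℝ ∞ h O) (w : VV n) :
    dv w (fun z => h (P z)) z = fderiv ℝ h (P z) (P w) := by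
  have d : DifferentiableAt ℝ h (P z) :=
    ((hh _ hP).contDiffAt (hO.mem_nhds hP)).differentiableAt (by simp)
  have e := (d.hasFDerivAt.comp z P.hasFDerivAt).fderiv
  unfold dv
  have e2 : fderiv ℝ (fun z => h (P z)) z = (fderiv ℝ h (P z)).comp P := e
  rw [e2]
  rfl

theorem J_pr (hP : ∀ w, ‖P w‖ ≤ ‖w‖) (hO : IsOpen O) (hΩ : IsOpen Ω) (hΩO : ∀ z ∈ Ω, P z ∈ O)
    (hh : ContDiffOn ℝ ∞ h O) (hz : z ∈ Ω) (hb : 0 ≤ b₁) (h0 : |h (P z)| ≤ b₀)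
    (h1 : ‖iteratedFDeriv ℝ 1 h (P z)‖ ≤ b₁) (h2 : ‖iteratedFDeriv ℝ 2 h (P z)‖ ≤ b₁) :
    J Ω (fun z => h (P z)) b₀ b₁ z where
  sm := hh.comp P.contDiff.contDiffOn hΩO
  b0 := h0
  b1 w := by
    rw [dv_pr hO (hΩO z hz) hh w]
    refine (fw_le _).trans ?_
    have := hP w
    gcongr
  b2 w w' := by
    have s1 := sm_fw hO hh (P w')
    rw [dv_congr hΩ (fun y hy => dv_pr hO (hΩO y hy) hh w') w hz]
    have e := dv_pr (z := z) hO (hΩO z hz) s1 w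
    refine (le_of_eq (congrArg abs e)).trans ?_
    refine (fw_le _).trans ?_
    have h3 := jet_w hO hh (P w') (hΩO z hz) 1
    have h4 := hP w
    have h5 := hP w'
    have h6 := norm_nonneg w
    have h7 := norm_nonneg w'
    have h8 := norm_nonneg (P w)
    calc ‖iteratedFDeriv ℝ 1 (fun y => fderiv ℝ h y (P w')) (P z)‖ * ‖P w‖
        ≤ (‖P w'‖ * ‖iteratedFDeriv ℝ (1 + 1) h (P z)‖) * ‖P w‖ := by gcongr
      _ ≤ (‖w'‖ * b₁) * ‖w‖ := by gcongr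
      _ = _ := by ring

/-- A directional derivative. -/
theorem J_pr1 (hP : ∀ w, ‖P w‖ ≤ ‖w‖) (hO : IsOpen O) (hΩ : IsOpen Ω) (hΩO : ∀ z ∈ Ω, P z ∈ O)
    (hh : ContDiffOn ℝ ∞ h O) (hz : z ∈ Ω) (hb : 0 ≤ b₁) {e : VV n} (he : ‖e‖ ≤ 1)
    (h1 : ‖iteratedFDeriv ℝ 1 h (P z)‖ ≤ b₁) (h2 : ‖iteratedFDeriv ℝ 2 h (P z)‖ ≤ b₁)
    (h3 : ‖iteratedFDeriv ℝ 3 h (P z)‖ ≤ b₁) :
    J Ω (dv e (fun z => h (P z))) b₁ b₁ z := by
  have hz' := hΩO z hz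
  have s1 := sm_fw hO hh (P e)
  have n1 : ‖P e‖ ≤ 1 := (hP e).trans he
  have n0 := norm_nonneg (P e)
  have key : ∀ j, ‖iteratedFDeriv ℝ (j + 1) h (P z)‖ ≤ b₁ →
      ‖iteratedFDeriv ℝ j (fun y => fderiv ℝ h y (P e)) (P z)‖ ≤ b₁ := by
    intro j hj
    refine (jet_w hO hh (P e) hz' j).trans ?_
    calc ‖P e‖ * ‖iteratedFDeriv ℝ (j + 1) h (P z)‖ ≤ 1 * b₁ := by gcongr
      _ = b₁ := one_mul _
  have := J_pr (h := fun y => fderiv ℝ h y (P e)) hP hO hΩ hΩO s1 hz hb (b₀ := b₁) (by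
    refine (fw_le _).trans ?_
    calc _ ≤ b₁ * 1 := by gcongr
      _ = b₁ := mul_one _) (key 1 h2) (key 2 h3)
  exact this.congr hΩ hz fun y hy => dv_pr hO (hΩO y hy) hh e

end slot

section inst

variable {Λ₀ a c₁ β Λ δ ε s R : ℝ} {l : V n → ℝ} {g s₁ s₂ : MF n} {Φ S : ℝ → ℝ} {O : Set (V n)}
  {Ω : Set (VV n)} {z v : VV n}

theorem jR {Λ R : ℝ} (hΛ : 0 ≤ Λ) (hR : 1 ≤ R) {m : ℕ} (hm : 1 ≤ m) {x : ℝ}
    (h : x ≤ Λ * R⁻¹ ^ m) : x ≤ Λ / R := by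
  refine h.trans ?_
  rw [div_eq_mul_inv]
  have h1 : 0 ≤ R⁻¹ := by positivity
  have h2 : R⁻¹ ≤ 1 := inv_le_one_of_one_le₀ hR
  have : R⁻¹ ^ m ≤ R⁻¹ := by
    calc R⁻¹ ^ m ≤ R⁻¹ ^ 1 := pow_le_pow_of_le_one h1 h2 hm
      _ = _ := pow_one _
  gcongr

theorem Hz.sg₁ (h : Hz Λ₀ a c₁ β Λ δ ε s R l g s₁ s₂ Φ S O Ω) (hΛ : 0 ≤ Λ) (hz : z ∈ Ω) :
    Sg (sx s₁) (Λ / R) Ω z where
  D j f := by
    funext y
    show (fun _ : V n => (1 : ℝ)) y.1 * fderiv ℝ f y _ = _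
    rw [one_mul]; rfl
  e j := by
    show ‖((Pi.single j 1, 0) : VV n)‖ ≤ 1
    rw [Prod.norm_def]
    simp [Vale.Agent.P088.R2.H464.Cu.norm_single_le j]
  k i y := by
    show -((n : ℝ) - 1) * pd i (fun _ : V n => (1 : ℝ)) y.1 = 0
    have : pd i (fun _ : V n => (1 : ℝ)) y.1 = 0 := by
      unfold pd; simp
    rw [this, mul_zero]
  j0 i j := by
    have hx := (h.dt.pt z hz).1
    have hR := h.R0
    exact J_pr (P := ContinuousLinearMap.fst ℝ (V n) (V n)) (h := fun x => s₁ x i j)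
      (fun w => norm_fst_le w) h.dt.oO h.dt.oΩ (fun z hz => (h.dt.pt z hz).1) (h.n₁.sm i j) hz
      (by positivity) (h.n₁.le2 h.ε1 hx i j)
      (jR hΛ h.dt.R1 le_rfl (h.j₁ _ hx i j 1 (by norm_num)))
      (jR hΛ h.dt.R1 (by norm_num) (h.j₁ _ hx i j 2 (by norm_num)))
  j1 i j k := by
    have hx := (h.dt.pt z hz).1
    have hR := h.R0
    refine J_pr1 (P := ContinuousLinearMap.fst ℝ (V n) (V n)) (h := fun x => s₁ x i j)
      (fun w => norm_fst_le w) h.dt.oO h.dt.oΩ (fun z hz => (h.dt.pt z hz).1) (h.n₁.sm i j) hz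
      (by positivity) ?_
      (jR hΛ h.dt.R1 le_rfl (h.j₁ _ hx i j 1 (by norm_num)))
      (jR hΛ h.dt.R1 (by norm_num) (h.j₁ _ hx i j 2 (by norm_num)))
      (jR hΛ h.dt.R1 (by norm_num) (h.j₁ _ hx i j 3 (by norm_num)))
    show ‖((Pi.single k 1, 0) : VV n)‖ ≤ 1
    rw [Prod.norm_def]
    simp [Vale.Agent.P088.R2.H464.Cu.norm_single_le k]

theorem Hz.sg₂ (h : Hz Λ₀ a c₁ β Λ δ ε s R l g s₁ s₂ Φ S O Ω) (hΛ : 0 ≤ Λ) (hz : z ∈ Ω) :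
    Sg (sy s₂) (Λ / R) Ω z where
  D j f := by
    funext y
    show (fun _ : V n => (1 : ℝ)) y.2 * fderiv ℝ f y _ = _
    rw [one_mul]; rfl
  e j := by
    show ‖((0, Pi.single j 1) : VV n)‖ ≤ 1
    rw [Prod.norm_def]
    simp [Vale.Agent.P088.R2.H464.Cu.norm_single_le j]
  k i y := by
    show -((n : ℝ) - 1) * pd i (fun _ : V n => (1 : ℝ)) y.2 = 0
    have : pd i (fun _ : V n => (1 : ℝ)) y.2 = 0 := by
      unfold pd; simp
    rw [this, mul_zero]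
  j0 i j := by
    have hx := (h.dt.pt z hz).2.1
    have hR := h.R0
    exact J_pr (P := ContinuousLinearMap.snd ℝ (V n) (V n)) (h := fun x => s₂ x i j)
      (fun w => norm_snd_le w) h.dt.oO h.dt.oΩ (fun z hz => (h.dt.pt z hz).2.1) (h.n₂.sm i j) hz
      (by positivity) (h.n₂.le2 h.ε1 hx i j)
      (jR hΛ h.dt.R1 le_rfl (h.j₂ _ hx i j 1 (by norm_num)))
      (jR hΛ h.dt.R1 (by norm_num) (h.j₂ _ hx i j 2 (by norm_num)))
  j1 i j k := by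
    have hx := (h.dt.pt z hz).2.1
    have hR := h.R0
    refine J_pr1 (P := ContinuousLinearMap.snd ℝ (V n) (V n)) (h := fun x => s₂ x i j)
      (fun w => norm_snd_le w) h.dt.oO h.dt.oΩ (fun z hz => (h.dt.pt z hz).2.1) (h.n₂.sm i j) hz
      (by positivity) ?_
      (jR hΛ h.dt.R1 le_rfl (h.j₂ _ hx i j 1 (by norm_num)))
      (jR hΛ h.dt.R1 (by norm_num) (h.j₂ _ hx i j 2 (by norm_num)))
      (jR hΛ h.dt.R1 (by norm_num) (h.j₂ _ hx i j 3 (by norm_num)))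
    show ‖((0, Pi.single k 1) : VV n)‖ ≤ 1
    rw [Prod.norm_def]
    simp [Vale.Agent.P088.R2.H464.Cu.norm_single_le k]

end inst

end Vale.Agent.P088.R2.H437.Z0
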