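import Vale.Agent.P088.R2.H437.Z0.Cert

/-!
# P088, stage 3, zone 0: the smallness of the errors of one slot
-/

open Set Filter
open scoped ContDiff Topology Matrix

noncomputable section

namespace Vale.Agent.P088.R2.H437.Z0

open Vale.Agent.P088.LR Vale.Agent.P088.HY Vale.Agent.P088.R2.H961.GW Vale.Agent.P088.R2.H644.Ch
open Vale.Agent.P088.R2.H464.Cu (mid dif rq bf dg Hv up nv Nr sx sy)
open Vale.Agent.P088.R2.H747.SW (gA qf qq dq SmQ Ys)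
open Vale.Agent.P088.R2.H960.W (dF eC cY YY)

variable {n : ℕ}

/-- `f` is bounded by `b₀`, its first derivatives by `b₁`. -/
structure J1 (Ω : Set (VV n)) (f : VV n → ℝ) (b₀ b₁ : ℝ) (z : VV n) : Prop where
  sm : ContDiffOn ℝ ∞ f Ω
  b0 : |f z| ≤ b₀
  b1 : ∀ w, |dv w f z| ≤ b₁ * ‖w‖

section cal

variable {Ω : Set (VV n)} {O : Set (V n)} {f g : VV n → ℝ} {h : V n → ℝ} {a₀ a₁ b₀ b₁ : ℝ}
  {z : VV n} {P : VV n →L[ℝ] V n}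

theorem J.j1 (h : J Ω f a₀ a₁ z) : J1 Ω f a₀ a₁ z := ⟨h.sm, h.b0, h.b1⟩

theorem J1.a0 (h : J1 Ω f a₀ a₁ z) : 0 ≤ a₀ := (abs_nonneg _).trans h.b0

theorem J1.mono (h : J1 Ω f a₀ a₁ z) (h0 : a₀ ≤ b₀) (h1 : a₁ ≤ b₁) : J1 Ω f b₀ b₁ z :=
  ⟨h.sm, h.b0.trans h0, fun w => (h.b1 w).trans (by gcongr)⟩

theorem J1.congr (hΩ : IsOpen Ω) (hz : z ∈ Ω) (e : ∀ y ∈ Ω, g y = f y) (hf : J1 Ω f a₀ a₁ z) :
    J1 Ω g a₀ a₁ z where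
  sm := hf.sm.congr e
  b0 := by rw [e z hz]; exact hf.b0
  b1 w := by rw [dv_congr hΩ e w hz]; exact hf.b1 w

theorem J1.add (hΩ : IsOpen Ω) (hz : z ∈ Ω) (hf : J1 Ω f a₀ a₁ z) (hg : J1 Ω g b₀ b₁ z) :
    J1 Ω (fun z => f z + g z) (a₀ + b₀) (a₁ + b₁) z where
  sm := hf.sm.add hg.sm
  b0 := (abs_add_le _ _).trans (add_le_add hf.b0 hg.b0)
  b1 w := by
    rw [dv_add hΩ hf.sm hg.sm w hz]
    refine (abs_add_le _ _).trans ((add_le_add (hf.b1 w) (hg.b1 w)).trans (le_of_eq (by ring)))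

theorem J1.zero (z : VV n) : J1 Ω (fun _ => (0 : ℝ)) 0 0 z where
  sm := contDiffOn_const
  b0 := by simp
  b1 w := by unfold dv; simp

theorem J1.cst (c : ℝ) (z : VV n) : J1 Ω (fun _ => c) |c| 0 z where
  sm := contDiffOn_const
  b0 := le_rfl
  b1 w := by unfold dv; simp

theorem J1.sum {κ : Type*} (S : Finset κ) (hΩ : IsOpen Ω) (hz : z ∈ Ω) {F : κ → VV n → ℝ}
    (hF : ∀ i ∈ S, J1 Ω (F i) a₀ a₁ z) :
    J1 Ω (fun z => ∑ i ∈ S, F i z) (S.card * a₀) (S.card * a₁) z := by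
  classical
  induction S using Finset.induction_on with
  | empty =>
    simp only [Finset.sum_empty, Finset.card_empty, Nat.cast_zero, zero_mul]
    exact J1.zero z
  | insert i S hi ih =>
    simp only [Finset.sum_insert hi]
    rw [Finset.card_insert_of_notMem hi]
    have := J1.add hΩ hz (hF i (Finset.mem_insert_self _ _))
      (ih fun j hj => hF j (Finset.mem_insert_of_mem hj))
    refine this.mono ?_ ?_ <;> push_cast <;> linarith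

theorem J1.mul (hΩ : IsOpen Ω) (hz : z ∈ Ω) (hf : J1 Ω f a₀ a₁ z) (hg : J1 Ω g b₀ b₁ z) :
    J1 Ω (fun z => f z * g z) (a₀ * b₀) (a₀ * b₁ + a₁ * b₀) z where
  sm := hf.sm.mul hg.sm
  b0 := by
    rw [abs_mul]
    have := hf.b0; have := hg.b0; have := hf.a0
    gcongr
  b1 w := by
    rw [dv_mul hΩ hf.sm hg.sm w hz]
    refine (abs_add_le _ _).trans ?_
    rw [abs_mul, abs_mul]
    have h1 := hf.b0; have h2 := hg.b0; have h3 := hf.a0; have h4 := hg.a0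
    have h5 := hf.b1 w; have h6 := hg.b1 w
    have h7 : 0 ≤ a₁ * ‖w‖ := (abs_nonneg _).trans h5
    calc |dv w f z| * |g z| + |f z| * |dv w g z| ≤ (a₁ * ‖w‖) * b₀ + a₀ * (b₁ * ‖w‖) := by gcongr
      _ = _ := by ring

theorem J1_pr (hP : ∀ w, ‖P w‖ ≤ ‖w‖) (hO : IsOpen O) (hΩO : ∀ z ∈ Ω, P z ∈ O)
    (hh : ContDiffOn ℝ ∞ h O) (hz : z ∈ Ω) (hb : 0 ≤ b₁) (h0 : |h (P z)| ≤ b₀)
    (h1 : ‖iteratedFDeriv ℝ 1 h (P z)‖ ≤ b₁) : J1 Ω (fun z => h (P z)) b₀ b₁ z where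
  sm := hh.comp P.contDiff.contDiffOn hΩO
  b0 := h0
  b1 w := by
    rw [dv_pr hO (hΩO z hz) hh w]
    refine (fw_le _).trans ?_
    have := hP w
    gcongr

end cal

/-- The sizes of the vector `s Dl`. -/
def B0 (n : ℕ) (Λ₀ : ℝ) : ℝ := 2 * n * Λ₀

def B1 (n : ℕ) (Λ₀ Λ : ℝ) : ℝ := n * (2 * Λ + Λ * Λ₀)

/-- The sizes of the forms. -/
def q0 (n : ℕ) (Λ₀ : ℝ) : ℝ := B0 n Λ₀ ^ 2 + 2

def q1 (n : ℕ) (Λ₀ Λ : ℝ) : ℝ :=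
  2 * (B0 n Λ₀ * B1 n Λ₀ Λ) + 2 * Λ₀ * B0 n Λ₀ ^ 2 + Λ + 4 * Λ₀ * Λ

section inst

variable {Λ₀ a c₁ β Λ δ ε s R C c₂ η : ℝ} {l : V n → ℝ} {g s₁ s₂ : MF n} {Φ S : ℝ → ℝ}
  {O : Set (V n)} {Ω : Set (VV n)} {z v : VV n} {W : VV n → ℝ} {P : VV n →L[ℝ] V n}

/-- The vector `s Dl`. -/
theorem Hz.jν (h : Hz Λ₀ a c₁ β Λ δ ε s R l g s₁ s₂ Φ S O Ω) (hΛ₀ : 0 ≤ Λ₀) (hΛ : 0 ≤ Λ)
    {s' : MF n} (n' : Nr O ε (ε / R) (ε / R ^ 2) s')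
    (j' : ∀ x ∈ O, ∀ i j, ∀ m ≤ 4, ‖iteratedFDeriv ℝ m (fun x => s' x i j) x‖ ≤ Λ * R⁻¹ ^ m)
    (hP : ∀ w, ‖P w‖ ≤ ‖w‖) (hΩO : ∀ z ∈ Ω, P z ∈ O) (hz : z ∈ Ω) (i : Fin n) :
    J1 Ω (fun z => nu s' l (P z) i) (B0 n Λ₀) (B1 n Λ₀ Λ) z := by
  have hx := hΩO z hz
  have hR := h.dt.R1
  have lR : Λ / R ≤ Λ := div_le_self hΛ hR
  have t : ∀ j, J1 Ω (fun z => s' (P z) i j * pd j l (P z)) (2 * Λ₀) (2 * Λ + Λ * Λ₀) z := by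
    intro j
    have a := J1_pr (h := fun x => s' x i j) hP h.dt.oO hΩO (n'.sm i j) hz hΛ
      (n'.le2 h.ε1 hx i j) ((jR hΛ hR le_rfl (j' _ hx i j 1 (by norm_num))).trans lR)
    have e1 : |pd j l (P z)| ≤ Λ₀ := by
      refine (show |pd j l (P z)| ≤ Λ₀ * ‖(Pi.single j 1 : V n)‖ from h.l1 hx _).trans ?_
      exact mul_le_of_le_one_right hΛ₀ (Vale.Agent.P088.R2.H464.Cu.norm_single_le j)
    have e2 : ‖iteratedFDeriv ℝ 1 (pd j l) (P z)‖ ≤ Λ := by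
      have h1 := jet_w h.dt.oO h.dt.sl (Pi.single j 1) hx 1
      have h2 := h.dt.jl _ hx 2 (by norm_num) (by norm_num)
      have h3 := Vale.Agent.P088.R2.H464.Cu.norm_single_le j
      have h4 : Λ * R⁻¹ ^ (2 - 1) ≤ Λ := by
        have : R⁻¹ ^ (2 - 1) ≤ 1 := pow_le_one₀ (by positivity) (inv_le_one_of_one_le₀ hR)
        exact mul_le_of_le_one_right hΛ this
      refine (show ‖iteratedFDeriv ℝ 1 (pd j l) (P z)‖ ≤ _ from h1).trans ?_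
      calc ‖(Pi.single j 1 : V n)‖ * ‖iteratedFDeriv ℝ (1 + 1) l (P z)‖ ≤ 1 * Λ := by
            gcongr
            exact h2.trans h4
        _ = Λ := one_mul _
    have b := J1_pr (h := pd j l) hP h.dt.oO hΩO (sm_fw h.dt.oO h.dt.sl (Pi.single j 1)) hz hΛ
      e1 e2
    exact (a.mul h.dt.oΩ hz b).mono le_rfl (le_of_eq (by ring))
  have := J1.sum Finset.univ h.dt.oΩ hz fun j _ => t j
  refine this.mono (le_of_eq ?_) (le_of_eq ?_)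
  · unfold B0
    simp only [Finset.card_univ, Fintype.card_fin]; ring
  · unfold B1
    simp only [Finset.card_univ, Fintype.card_fin]

theorem Hz.du (h : Hz Λ₀ a c₁ β Λ δ ε s R l g s₁ s₂ Φ S O Ω) (hΛ₀ : 0 ≤ Λ₀) (hz : z ∈ Ω)
    (w : VV n) : |dv w (uf l) z| ≤ 2 * Λ₀ * ‖w‖ := by
  rw [h.uv hz w]
  have h1 := h.l1 (h.dt.pt z hz).1 w.1
  have h2 := h.l1 (h.dt.pt z hz).2.1 w.2
  have h3 := norm_fst_le w
  have h4 := norm_snd_le w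
  calc _ ≤ |fderiv ℝ l z.1 w.1| + |fderiv ℝ l z.2 w.2| := abs_add_le _ _
    _ ≤ Λ₀ * ‖w.1‖ + Λ₀ * ‖w.2‖ := add_le_add h1 h2
    _ ≤ Λ₀ * ‖w‖ + Λ₀ * ‖w‖ := by gcongr
    _ = _ := by ring

theorem Hz.jcomp (h : Hz Λ₀ a c₁ β Λ δ ε s R l g s₁ s₂ Φ S O Ω) (hΛ₀ : 0 ≤ Λ₀) (hz : z ∈ Ω)
    {Ψ : ℝ → ℝ} (hΨ : ContDiff ℝ ∞ Ψ) :
    J1 Ω (fun z => Ψ (uf l z)) |Ψ (uf l z)| (2 * Λ₀ * |deriv Ψ (uf l z)|) z where
  sm := hΨ.comp_contDiffOn h.su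
  b0 := le_rfl
  b1 w := by
    have e := (hv_comp (hΨ.differentiable (by simp) _)
      (hv_of (w := w) (df_on h.dt.oΩ h.su hz))).e
    have e' : dv w (fun z => Ψ (uf l z)) z = deriv Ψ (uf l z) * dv w (uf l) z := e
    rw [e', abs_mul]
    have := h.du hΛ₀ hz w
    have h1 := abs_nonneg (deriv Ψ (uf l z))
    calc |deriv Ψ (uf l z)| * |dv w (uf l) z| ≤ |deriv Ψ (uf l z)| * (2 * Λ₀ * ‖w‖) := by gcongr
      _ = _ := by ring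

/-- The coefficients of the forms. -/
theorem Hz.jq (h : Hz Λ₀ a c₁ β Λ δ ε s R l g s₁ s₂ Φ S O Ω) (hΛ₀ : 1 ≤ Λ₀) (hΛ : 1 ≤ Λ)
    (hc₂ : 0 ≤ c₂) {s' : MF n} (n' : Nr O ε (ε / R) (ε / R ^ 2) s')
    (j' : ∀ x ∈ O, ∀ i j, ∀ m ≤ 4, ‖iteratedFDeriv ℝ m (fun x => s' x i j) x‖ ≤ Λ * R⁻¹ ^ m)
    (hP : ∀ w, ‖P w‖ ≤ ‖w‖) (hΩO : ∀ z ∈ Ω, P z ∈ O) (hz : z ∈ Ω) (i j : Fin n) :
    J1 Ω (fun z => c₂ * (Real.exp (uf l z) * (nu s' l (P z) i * nu s' l (P z) j) +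
      s * deriv Φ (uf l z) * s' (P z) i j))
      (c₂ * (q0 n Λ₀ * (Real.exp (uf l z) + s * deriv Φ (uf l z))))
      (c₂ * (q1 n Λ₀ Λ * (Real.exp (uf l z) + s * deriv Φ (uf l z)))) z := by
  have hx := hΩO z hz
  have hR := h.dt.R1
  have hs := h.s0
  have hN := h.dt.N0 z hz
  have hK := h.dt.K0 z hz
  have KN := h.KN z hz
  have hΛ0 : 0 ≤ Λ := by linarith
  have hΛ₀0 : 0 ≤ Λ₀ := by linarith
  have lR : Λ / R ≤ Λ := div_le_self hΛ0 hR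
  have hE := Real.exp_pos (uf l z)
  have hΩ := h.dt.oΩ
  have B0' : 0 ≤ B0 n Λ₀ := by unfold B0; positivity
  have B1' : 0 ≤ B1 n Λ₀ Λ := by unfold B1; positivity
  have ν1 := h.jν hΛ₀0 hΛ0 n' j' hP hΩO hz i
  have ν2 := h.jν hΛ₀0 hΛ0 n' j' hP hΩO hz j
  have je := h.jcomp hΛ₀0 hz Real.contDiff_exp
  rw [Real.deriv_exp, abs_of_pos hE] at je
  have jN := h.jcomp hΛ₀0 hz (dS h.dt.sΦ)
  rw [abs_of_pos hN, abs_of_pos hK] at jN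
  have js := J1_pr (h := fun x => s' x i j) hP h.dt.oO hΩO (n'.sm i j) hz hΛ0
      (n'.le2 h.ε1 hx i j) ((jR hΛ0 hR le_rfl (j' _ hx i j 1 (by norm_num))).trans lR)
  have a1 := je.mul hΩ hz (ν1.mul hΩ hz ν2)
  have a2 := ((J1.cst (Ω := Ω) s z).mul hΩ hz jN).mul hΩ hz js
  rw [abs_of_pos hs] at a2
  have a3 := (J1.cst (Ω := Ω) c₂ z).mul hΩ hz (a1.add hΩ hz a2)
  rw [abs_of_nonneg hc₂] at a3
  obtain ⟨N, eN⟩ : ∃ N, N = deriv Φ (uf l z) := ⟨_, rfl⟩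
  obtain ⟨K, eK⟩ : ∃ K, K = deriv (deriv Φ) (uf l z) := ⟨_, rfl⟩
  obtain ⟨E, eE⟩ : ∃ E, E = Real.exp (uf l z) := ⟨_, rfl⟩
  rw [← eN, ← eE, ← eK] at a3
  rw [← eN, ← eK] at KN
  rw [← eN] at hN
  rw [← eE] at hE
  rw [← eN, ← eE]
  refine a3.mono ?_ ?_
  · unfold q0
    have h1 : 0 ≤ s * N * B0 n Λ₀ ^ 2 + 2 * E := by positivity
    have : E * (B0 n Λ₀ * B0 n Λ₀) + s * N * 2 ≤ (B0 n Λ₀ ^ 2 + 2) * (E + s * N) := by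
      nlinarith
    gcongr
  · unfold q1
    have h1 : 0 ≤ s * N * (2 * (B0 n Λ₀ * B1 n Λ₀ Λ) + 2 * Λ₀ * B0 n Λ₀ ^ 2) +
      E * (Λ + 4 * Λ₀ * Λ) := by positivity
    have h2 : s * (2 * Λ₀ * K) * 2 ≤ s * (2 * Λ₀ * (Λ * N)) * 2 := by gcongr
    have h3 : (2 * (B0 n Λ₀ * B1 n Λ₀ Λ) + 2 * Λ₀ * B0 n Λ₀ ^ 2 + Λ + 4 * Λ₀ * Λ) *
      (E + s * N) = E * (2 * (B0 n Λ₀ * B1 n Λ₀ Λ) + 2 * Λ₀ * B0 n Λ₀ ^ 2) +
        s * N * (Λ + 4 * Λ₀ * Λ) + (s * N * (2 * (B0 n Λ₀ * B1 n Λ₀ Λ) + 2 * Λ₀ * B0 n Λ₀ ^ 2) +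
      E * (Λ + 4 * Λ₀ * Λ)) := by ring
    rw [h3]
    have h4 : c₂ * (E * (B0 n Λ₀ * B1 n Λ₀ Λ + B1 n Λ₀ Λ * B0 n Λ₀) +
        2 * Λ₀ * E * (B0 n Λ₀ * B0 n Λ₀) + (s * N * Λ + (s * (2 * Λ₀ * K) + 0 * N) * 2)) + 0 *
        (E * (B0 n Λ₀ * B0 n Λ₀) + s * N * 2) ≤ c₂ *
        (E * (2 * (B0 n Λ₀ * B1 n Λ₀ Λ) + 2 * Λ₀ * B0 n Λ₀ ^ 2) +
        s * N * (Λ + 4 * Λ₀ * Λ) + (s * N * (2 * (B0 n Λ₀ * B1 n Λ₀ Λ) + 2 * Λ₀ * B0 n Λ₀ ^ 2) +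
      E * (Λ + 4 * Λ₀ * Λ))) := by
      simp only [zero_mul, add_zero]
      refine mul_le_mul_of_nonneg_left ?_ hc₂
      linarith
    exact h4

/-- The divergence of the form. -/
theorem dq_le {σ : Sl (VV n) (Fin n)} {L p₁ p Q₀ Q₁ : ℝ} {q : Fin n → Fin n → VV n → ℝ}
    (hΩ : IsOpen Ω) (hz : z ∈ Ω) (hσ : Sg σ L Ω z) (hQ : 0 ≤ Q₁) (w : Wn Ω W p₁ p z)
    (hq : ∀ i j, J1 Ω (q i j) Q₀ Q₁ z) : |dq σ q W z| ≤ n ^ 2 * (Q₁ * p₁ + Q₀ * p) := by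
  have hp₁ : 0 ≤ p₁ := (w.h1 0 (by simp)).a0
  unfold dq
  have e : ∀ j, σ.D j (fun z => ∑ i, q i j z * σ.D i W z) z +
      σ.k j z * ∑ i, q i j z * σ.D i W z = ∑ i, (dv (σ.e j) (q i j) z * dv (σ.e i) W z +
        q i j z * dv (σ.e j) (dv (σ.e i) W) z) := by
    intro j
    rw [hσ.k, zero_mul, add_zero, hσ.D j]
    have e1 : (fun z => ∑ i, q i j z * σ.D i W z) = fun z => ∑ i, q i j z * dv (σ.e i) W z := by
      funext y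
      exact Finset.sum_congr rfl fun i _ => by rw [hσ.D i]
    rw [e1, dv_sum Finset.univ hΩ hz (fun i _ => (hq i j).sm.mul (w.h1 _ (hσ.e i)).sm)]
    exact Finset.sum_congr rfl fun i _ => dv_mul hΩ (hq i j).sm (w.h1 _ (hσ.e i)).sm _ hz
  rw [Finset.sum_congr rfl fun j _ => e j]
  refine Vale.Agent.P088.R2.H464.Cu.sum_le2 fun j i => ?_
  refine (abs_add_le _ _).trans ?_
  rw [abs_mul, abs_mul]
  have q0 := (hq i j).b0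
  have q1 := (hq i j).b1 (σ.e j)
  have ej := hσ.e j
  have w1 := (w.h1 _ (hσ.e i)).b0
  have w2 := (w.h2 _ _ (hσ.e j) (hσ.e i)).b0
  have Q0 := (hq i j).a0
  have q1' : |dv (σ.e j) (q i j) z| ≤ Q₁ := q1.trans (mul_le_of_le_one_right hQ ej)
  gcongr

theorem dF0 (σ : Sl (VV n) (Fin n)) (W : VV n → ℝ) (z : VV n) :
    dF σ (fun _ _ => 0) W z = 0 := by
  unfold dF
  refine Finset.sum_eq_zero fun j _ => ?_
  have : (fun z => σ.F W z * (0 : ℝ)) = fun _ => 0 := funext fun y => mul_zero _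
  rw [this, D_const, mul_zero, mul_zero, add_zero]

theorem eC0 (σ : Sl (VV n) (Fin n)) (W b : VV n → ℝ) (z : VV n) :
    eC σ (fun _ _ => 0) 0 W b z = 0 := by
  unfold eC cY
  have : ∀ i, σ.D i (fun _ : VV n => (0 : ℝ)) z = 0 := fun i => D_const σ 0 i z
  simp [this]

/-- The constant of the divergence. -/
def CD (n : ℕ) (Λ₀ a Λ C : ℝ) : ℝ :=
  n ^ 2 * (q1 n Λ₀ Λ * (C * (1 + 1 / a)) + q0 n Λ₀ * (C * (Λ + 1 / a + 1)))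

theorem CD_pos (n : ℕ) {Λ₀ a Λ C : ℝ} (hΛ₀ : 0 ≤ Λ₀) (ha : 0 < a) (hΛ : 0 ≤ Λ) (hC : 0 ≤ C) :
    0 ≤ CD n Λ₀ a Λ C := by
  unfold CD q1 q0 B0 B1; positivity

theorem Nb.cd {a c₁ Λ δ s R N K E C Q₀ Q₁ c₂ : ℝ} (h : Nb a c₁ Λ δ s R N K E) (hC : 0 ≤ C)
    (hc₂ : 0 ≤ c₂) (hQ₀ : 0 ≤ Q₀) (hQ₁ : 0 ≤ Q₁) :
    n ^ 2 * (c₂ * (Q₁ * (E + s * N)) * (C * (N + E)) +
      c₂ * (Q₀ * (E + s * N)) * (C * (K + E + N / R))) ≤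
    c₂ * (n ^ 2 * (Q₁ * (C * (1 + 1 / a)) + Q₀ * (C * (Λ + 1 / a + 1)))) * (δ * Gz s N E) := by
  have hN := h.N0; have hK := h.K0; have hE := h.E0; have ha := h.a0; have hR := h.R1
  have hΛ := h.Λ1; have hs := h.s0; have hd := h.d0
  have a0 : 0 < 1 / a := by positivity
  have k1 := h.kE
  have k2 := h.NE
  have r2 : N / R ≤ N := div_le_self hN.le hR
  have e2 : K + E + N / R ≤ (Λ + 1 / a + 1) * N := by linarith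
  have e3 : (E + s * N) * N ≤ δ * Gz s N E := by
    have h1 := h.N1
    unfold Gz
    calc (E + s * N) * N = (E + s * N) * N * 1 := (mul_one _).symm
      _ ≤ (E + s * N) * N * (δ * N) := by gcongr
      _ = _ := by ring
  have e4 : c₂ * (Q₁ * (E + s * N)) * (C * (N + E)) ≤
      c₂ * (Q₁ * (C * (1 + 1 / a))) * (δ * Gz s N E) := by
    calc c₂ * (Q₁ * (E + s * N)) * (C * (N + E)) ≤
          c₂ * (Q₁ * (E + s * N)) * (C * ((1 + 1 / a) * N)) := by gcongr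
      _ = c₂ * (Q₁ * (C * (1 + 1 / a))) * ((E + s * N) * N) := by ring
      _ ≤ _ := by gcongr
  have e5 : c₂ * (Q₀ * (E + s * N)) * (C * (K + E + N / R)) ≤
      c₂ * (Q₀ * (C * (Λ + 1 / a + 1))) * (δ * Gz s N E) := by
    calc c₂ * (Q₀ * (E + s * N)) * (C * (K + E + N / R)) ≤
          c₂ * (Q₀ * (E + s * N)) * (C * ((Λ + 1 / a + 1) * N)) := by gcongr
      _ = c₂ * (Q₀ * (C * (Λ + 1 / a + 1))) * ((E + s * N) * N) := by ring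
      _ ≤ _ := by gcongr
  calc _ ≤ n ^ 2 * (c₂ * (Q₁ * (C * (1 + 1 / a))) * (δ * Gz s N E) +
      c₂ * (Q₀ * (C * (Λ + 1 / a + 1))) * (δ * Gz s N E)) := by gcongr
    _ = _ := by ring

/-- The smallness of `δ`. -/
def dS0 (n : ℕ) (Λ₀ a Λ C η : ℝ) : ℝ := min 1 (η * cQ n Λ₀ / (CD n Λ₀ a Λ C + 1))

theorem dS0_pos (n : ℕ) {Λ₀ a Λ C η : ℝ} (hΛ₀ : 0 ≤ Λ₀) (ha : 0 < a) (hΛ : 0 ≤ Λ) (hC : 0 ≤ C)
    (hη : 0 < η) : 0 < dS0 n Λ₀ a Λ C η := by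
  have h1 := CD_pos n hΛ₀ ha hΛ hC
  have h2 := cQ_pos n Λ₀
  unfold dS0; positivity

/-- The divergences of the forms are small. -/
theorem dq_small (h : Hz Λ₀ a c₁ β Λ δ ε s R l g s₁ s₂ Φ S O Ω) (hΛ₀ : 1 ≤ Λ₀) (hΛ : 1 ≤ Λ)
    (ha : 0 < a) (hc : 0 < c₁) (hC : 1 ≤ C) (hc₂ : 0 ≤ c₂) (hβ1 : β ≤ 1)
    (hβ : kX n Λ₀ a * β ≤ 1) (hδ : δ ≤ dS0 n Λ₀ a Λ C η) (hz : z ∈ Ω)
    (wb : WB C R l Φ (W0 l g Φ S) z) :
    |dq (sx s₁) (Q1 c₂ s l s₁ Φ) (W0 l g Φ S) z| ≤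
      η * qq (Q1 c₂ s l s₁ Φ) (fun i => (sx s₁).D i (W0 l g Φ S) z) z ∧
    |dq (sy s₂) (Q2 c₂ s l s₂ Φ) (W0 l g Φ S) z| ≤
      η * qq (Q2 c₂ s l s₂ Φ) (fun i => (sy s₂).D i (W0 l g Φ S) z) z := by
  unfold dS0 at hδ
  obtain ⟨d1, d2⟩ := le_min_iff.1 hδ
  have CD0 := CD_pos (Λ₀ := Λ₀) (a := a) (Λ := Λ) (C := C) n (by linarith) ha (by linarith)
    (by linarith)
  rw [le_div_iff₀ (by positivity)] at d2
  have hd := h.d0 hz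
  have d3 : CD n Λ₀ a Λ C * δ ≤ η * cQ n Λ₀ := by linarith
  have nb := h.nb hΛ ha hc d1 hz
  have wn := h.wn (by linarith : (0:ℝ) ≤ C) hz wb
  have P := nb.pn hC
  have hs₁ := h.sg₁ (by linarith : (0:ℝ) ≤ Λ) hz
  have hs₂ := h.sg₂ (by linarith : (0:ℝ) ≤ Λ) hz
  obtain ⟨t4, t5⟩ := qDW_ge h hΛ₀ ha hβ1 hβ hz hc₂
  have Q0' : 0 ≤ q0 n Λ₀ := by unfold q0; positivity
  have Q1' : 0 ≤ q1 n Λ₀ Λ := by unfold q1 B0 B1; positivity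
  have x0 : 0 ≤ Real.exp (uf l z) + s * deriv Φ (uf l z) := by
    have := nb.E0; have := nb.N0; have := nb.s0
    positivity
  have j1 := fun i j => h.jq (P := ContinuousLinearMap.fst ℝ (V n) (V n)) hΛ₀ hΛ hc₂ h.n₁ h.j₁
    (fun w => norm_fst_le w) (fun z hz => (h.dt.pt z hz).1) hz i j
  have j2 := fun i j => h.jq (P := ContinuousLinearMap.snd ℝ (V n) (V n)) hΛ₀ hΛ hc₂ h.n₂ h.j₂
    (fun w => norm_snd_le w) (fun z hz => (h.dt.pt z hz).2.1) hz i j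
  have D1 := dq_le (q := Q1 c₂ s l s₁ Φ) h.dt.oΩ hz hs₁ (by positivity) wn j1
  have D2 := dq_le (q := Q2 c₂ s l s₂ Φ) h.dt.oΩ hz hs₂ (by positivity) wn j2
  have cd := nb.cd (n := n) (by linarith : (0:ℝ) ≤ C) hc₂ Q0' Q1'
  have fin : c₂ * (n ^ 2 * (q1 n Λ₀ Λ * (C * (1 + 1 / a)) + q0 n Λ₀ * (C * (Λ + 1 / a + 1)))) *
      (δ * Gz s (deriv Φ (uf l z)) (Real.exp (uf l z))) ≤
      η * (c₂ * cQ n Λ₀ * ((Real.exp (uf l z) + s * deriv Φ (uf l z)) *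
        deriv Φ (uf l z) ^ 2)) := by
    have G0 := nb.G0
    have e1 : c₂ * (n ^ 2 * (q1 n Λ₀ Λ * (C * (1 + 1 / a)) +
        q0 n Λ₀ * (C * (Λ + 1 / a + 1)))) * (δ * Gz s (deriv Φ (uf l z)) (Real.exp (uf l z))) =
        c₂ * Gz s (deriv Φ (uf l z)) (Real.exp (uf l z)) * (CD n Λ₀ a Λ C * δ) := by
      unfold CD; ring
    have e2 : η * (c₂ * cQ n Λ₀ * ((Real.exp (uf l z) + s * deriv Φ (uf l z)) *
        deriv Φ (uf l z) ^ 2)) = c₂ * Gz s (deriv Φ (uf l z)) (Real.exp (uf l z)) *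
          (η * cQ n Λ₀) := by
      unfold Gz; ring
    rw [e1, e2]
    gcongr
  have η0 : 0 ≤ η := by
    have h1 := cQ_pos n Λ₀
    have h2 : 0 ≤ η * cQ n Λ₀ := le_trans (by positivity) d3
    exact nonneg_of_mul_nonneg_left h2 h1
  exact ⟨D1.trans (cd.trans (fin.trans (mul_le_mul_of_nonneg_left t4 η0))),
    D2.trans (cd.trans (fin.trans (mul_le_mul_of_nonneg_left t5 η0)))⟩

/-- The margin. -/
def mZ (c₂ s : ℝ) (l : V n → ℝ) (Φ : ℝ → ℝ) (z : VV n) : ℝ := c₂ / 4 * (s * deriv Φ (uf l z))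

theorem dqc (σ : Sl (VV n) (Fin n)) (q : Fin n → Fin n → VV n → ℝ) {W W' : VV n → ℝ}
    (hΩ : IsOpen Ω) (e : ∀ w ∈ Ω, W w = W' w) (hz : z ∈ Ω) : dq σ q W z = dq σ q W' z := by
  unfold dq
  refine Finset.sum_congr rfl fun j _ => ?_
  have e1 : ∀ w ∈ Ω, ∑ i, q i j w * σ.D i W w = ∑ i, q i j w * σ.D i W' w := fun w hw =>
    Finset.sum_congr rfl fun i _ => by rw [D_congr σ hΩ e i hw]
  rw [D_congr σ hΩ e1 j hz, e1 z hz]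

theorem dt_sq (A : Fin n → ℝ) : Vale.Agent.P088.R2.H464.Cu.dt A A = ∑ i, A i ^ 2 := by
  unfold Vale.Agent.P088.R2.H464.Cu.dt
  exact Finset.sum_congr rfl fun i _ => by ring

/-- The smallness in one slot. -/
theorem smq_gen {σ : Sl (VV n) (Fin n)} {q : Fin n → Fin n → VV n → ℝ}
    (hσ : ∀ i j, |σ.s i j z| ≤ 2) (hη : 0 ≤ η) (hc₂ : 0 ≤ c₂) (hs : 0 ≤ s)
    (hN : 0 ≤ deriv Φ (uf l z)) (hq : ∀ A : Fin n → ℝ,
      c₂ / 4 * (s * deriv Φ (uf l z)) * Vale.Agent.P088.R2.H464.Cu.dt A A ≤ qq q A z)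
    (hd : |dq σ q W z| ≤ η * qq q (fun i => σ.D i W z) z) :
    SmQ σ W q (mZ c₂ s l Φ) (fun _ _ => 0) 0 η (2 * n ^ 2) z := by
  have m0 : 0 ≤ mZ c₂ s l Φ z := by unfold mZ; positivity
  have q0 : 0 ≤ qq q (fun i => σ.D i W z) z :=
    le_trans (mul_nonneg m0 (Vale.Agent.P088.R2.H464.Cu.dt_nonneg _)) (hq _)
  refine ⟨m0, fun A => ?_, fun A B => ?_, hd, ?_, fun b => ?_, ?_⟩
  · rw [← dt_sq]
    exact hq A
  · rw [← dt_sq, ← dt_sq]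
    have h1 := Vale.Agent.P088.R2.H464.Cu.bf_le (G := fun i j => σ.s i j z)
      (by norm_num : (0:ℝ) ≤ 2) hσ A B
    have h2 := nsq A
    have h3 := nsq B
    have e : bf (fun i j => σ.s i j z) A B = ∑ i, ∑ j, σ.s i j z * A i * B j := rfl
    rw [← e, ← sq_abs]
    have h4 := norm_nonneg A
    have h5 := norm_nonneg B
    have h6 := Vale.Agent.P088.R2.H464.Cu.dt_nonneg A
    calc |bf (fun i j => σ.s i j z) A B| ^ 2 ≤ (n ^ 2 * (2 * ‖A‖ * ‖B‖)) ^ 2 := by gcongr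
      _ = (2 * n ^ 2) ^ 2 * (‖A‖ ^ 2 * ‖B‖ ^ 2) := by ring
      _ ≤ _ := by gcongr
  · rw [dF0, abs_zero]
    exact mul_nonneg hη q0
  · rw [eC0, abs_zero]
    refine mul_nonneg hη (mul_nonneg m0 ?_)
    unfold Ys
    exact Finset.sum_nonneg fun i _ => sq_nonneg _
  · simp only [ne_eq, OfNat.ofNat_ne_zero, not_false_eq_true, zero_pow, Finset.sum_const_zero,
      mul_zero]
    positivity

/-- **The smallness of the errors**, for a weight which is `W0` on `Ω`. -/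
theorem smq0 (h : Hz Λ₀ a c₁ β Λ δ ε s R l g s₁ s₂ Φ S O Ω) (hΛ₀ : 1 ≤ Λ₀) (hΛ : 1 ≤ Λ)
    (ha : 0 < a) (hc : 0 < c₁) (hC : 1 ≤ C) (hη : 0 < η) (hc₂ : 0 < c₂)
    (hβ : β ≤ bT n Λ₀ a c₁) (hβ' : kX n Λ₀ a * β ≤ 1) (hδ : δ ≤ dS0 n Λ₀ a Λ C η) (hz : z ∈ Ω)
    (wb : WB C R l Φ (W0 l g Φ S) z) (hW : ∀ w ∈ Ω, W w = W0 l g Φ S w) :
    SmQ (sx s₁) W (Q1 c₂ s l s₁ Φ) (mZ c₂ s l Φ) (fun _ _ => 0) 0 η (2 * n ^ 2) z ∧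
    SmQ (sy s₂) W (Q2 c₂ s l s₂ Φ) (mZ c₂ s l Φ) (fun _ _ => 0) 0 η (2 * n ^ 2) z := by
  have b1 : β ≤ 1 := by
    unfold bT at hβ
    exact (le_min_iff.1 hβ).1
  obtain ⟨hx, hy, -⟩ := h.dt.pt z hz
  have hΩ := h.dt.oΩ
  have hN := h.dt.N0 z hz
  have hs := h.s0
  have hE := Real.exp_pos (uf l z)
  obtain ⟨t1, t2⟩ := dq_small h hΛ₀ hΛ ha hc hC hc₂.le b1 hβ' hδ hz wb
  have e1 : (fun i => (sx s₁).D i W z) = fun i => (sx s₁).D i (W0 l g Φ S) z :=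
    funext fun i => D_congr _ hΩ hW i hz
  have e2 : (fun i => (sy s₂).D i W z) = fun i => (sy s₂).D i (W0 l g Φ S) z :=
    funext fun i => D_congr _ hΩ hW i hz
  rw [← e1, ← dqc _ _ hΩ hW hz] at t1
  rw [← e2, ← dqc _ _ hΩ hW hz] at t2
  have key : ∀ (G : Matrix (Fin n) (Fin n) ℝ) (ν : Fin n → ℝ) (A : Fin n → ℝ),
      (∀ i j, |G i j - (1 : Matrix (Fin n) (Fin n) ℝ) i j| ≤ ε) →
      c₂ / 4 * (s * deriv Φ (uf l z)) * Vale.Agent.P088.R2.H464.Cu.dt A A ≤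
        c₂ * (Real.exp (uf l z) * (∑ i, ν i * A i) ^ 2 + s * deriv Φ (uf l z) * bf G A A) := by
    intro G ν A hG
    have h2 := Vale.Agent.P088.R2.H464.Cu.form_ge h.εn hG A
    have h3 : (1 / 2 : ℝ) ^ 2 = 1 / 4 := by norm_num
    rw [h3] at h2
    have h4 : 0 ≤ Real.exp (uf l z) * (∑ i, ν i * A i) ^ 2 := by positivity
    have h5 := mul_le_mul_of_nonneg_left h2 (mul_pos hs hN).le
    calc c₂ / 4 * (s * deriv Φ (uf l z)) * Vale.Agent.P088.R2.H464.Cu.dt A A =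
          c₂ * (s * deriv Φ (uf l z) * (1 / 4 * Vale.Agent.P088.R2.H464.Cu.dt A A)) := by ring
      _ ≤ _ := mul_le_mul_of_nonneg_left (by linarith) hc₂.le
  refine ⟨smq_gen (fun i j => h.n₁.le2 h.ε1 hx i j) hη.le hc₂.le hs.le hN.le (fun A => ?_) t1,
    smq_gen (fun i j => h.n₂.le2 h.ε1 hy i j) hη.le hc₂.le hs.le hN.le (fun A => ?_) t2⟩
  · rw [qq1]
    exact key _ _ _ fun i j => h.n₁.b0 _ hx i j
  · rw [qq2]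
    exact key _ _ _ fun i j => h.n₂.b0 _ hy i j

end inst

end Vale.Agent.P088.R2.H437.Z0
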