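import Vale.Agent.P088.R2.H464.EP.Rq

/-!
# P088, stage 3, zone 0: the data and the derivative bounds of the weight

`W = Φ(u) + e^u Σ(ρ)`, `u = l(x) + l(y)`, `ρ = ⟨g(p) q, q⟩ / 2`. The directions `(a, b)` with
`Dl(x) a + Dl(y) b = 0`, `a = b` are slow: they cost `1 / R`.
-/

open Set Filter
open scoped ContDiff Topology Matrix

noncomputable section

namespace Vale.Agent.P088.R2.H437.Z0

open Vale.Agent.P088.LR Vale.Agent.P088.HY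
open Vale.Agent.P088.R2.H464.Cu (mid dif rq)

variable {n : ℕ}

/-- The derivative in the direction `w`. -/
def dv (w : VV n) (f : VV n → ℝ) (z : VV n) : ℝ := fderiv ℝ f z w

/-- `u = l(x) + l(y)`. -/
def uf (l : V n → ℝ) (z : VV n) : ℝ := l z.1 + l z.2

/-- The weight. -/
def W0 (l : V n → ℝ) (g : MF n) (Φ S : ℝ → ℝ) (z : VV n) : ℝ :=
  Φ (uf l z) + Real.exp (uf l z) * S (rq g z)

/-- The size of a direction: `|Du(v)| + ‖a - b‖ + ‖v‖ / R`. -/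
def om (l : V n → ℝ) (R : ℝ) (z v : VV n) : ℝ := |dv v (uf l) z| + ‖v.1 - v.2‖ + ‖v‖ / R

/-- The data on an open set `O` of points and an open set `Ω` of pairs. -/
structure Dt (Λ R : ℝ) (l : V n → ℝ) (g : MF n) (Φ S : ℝ → ℝ) (O : Set (V n))
    (Ω : Set (VV n)) : Prop where
  R1 : 1 ≤ R
  oO : IsOpen O
  oΩ : IsOpen Ω
  pt : ∀ z ∈ Ω, z.1 ∈ O ∧ z.2 ∈ O ∧ mid z ∈ O
  nq : ∀ z ∈ Ω, ‖dif z‖ ≤ 1
  sl : ContDiffOn ℝ ∞ l O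
  jl : ∀ x ∈ O, ∀ m, 1 ≤ m → m ≤ 5 → ‖iteratedFDeriv ℝ m l x‖ ≤ Λ * R⁻¹ ^ (m - 1)
  sg : ∀ i j, ContDiffOn ℝ ∞ (fun x => g x i j) O
  jg : ∀ x ∈ O, ∀ i j, ∀ m ≤ 5, ‖iteratedFDeriv ℝ m (fun x => g x i j) x‖ ≤ Λ * R⁻¹ ^ m
  sΦ : ContDiff ℝ ∞ Φ
  N0 : ∀ z ∈ Ω, 0 < deriv Φ (uf l z)
  K0 : ∀ z ∈ Ω, 0 < deriv (deriv Φ) (uf l z)
  dΦ : ∀ z ∈ Ω, ∀ j ≤ 3, |iteratedDeriv (j + 2) Φ (uf l z)| ≤ Λ * deriv (deriv Φ) (uf l z)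
  sS : ContDiff ℝ ∞ S
  dS : ∀ z ∈ Ω, ∀ j ≤ 5, |iteratedDeriv j S (rq g z)| ≤ Λ

/-- The derivative bounds at a point. -/
structure WB (C R : ℝ) (l : V n → ℝ) (Φ : ℝ → ℝ) (W : VV n → ℝ) (z : VV n) : Prop where
  d1 : ∀ v, |dv v W z| ≤
    C * (deriv Φ (uf l z) + Real.exp (uf l z)) * ‖v‖
  d2 : ∀ w v, |dv w (dv v W) z| ≤
    C * (deriv (deriv Φ) (uf l z) + Real.exp (uf l z) + deriv Φ (uf l z) / R) * ‖w‖ * ‖v‖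
  d3 : ∀ w v v', |dv w (dv v (dv v' W)) z| ≤
    C * (deriv (deriv Φ) (uf l z) + Real.exp (uf l z) + deriv Φ (uf l z) / R ^ 2) *
      ‖w‖ * ‖v‖ * ‖v'‖
  d3v : ∀ w v v', |dv w (dv v (dv v' W)) z| ≤
    C * ((deriv (deriv Φ) (uf l z) + Real.exp (uf l z)) * om l R z w +
      deriv Φ (uf l z) / R ^ 2 * ‖w‖) * ‖v‖ * ‖v'‖
  d4 : ∀ w w' v v', |dv w (dv w' (dv v (dv v' W))) z| ≤
    C * (deriv (deriv Φ) (uf l z) + Real.exp (uf l z) + deriv Φ (uf l z) / R ^ 3) *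
      ‖w‖ * ‖w'‖ * ‖v‖ * ‖v'‖

/-- **(WD)** the derivative bounds of the weight. -/
def RowWD : Prop := ∀ (n : ℕ) (Λ : ℝ), 1 ≤ Λ → ∃ C : ℝ, 1 ≤ C ∧
  ∀ (R : ℝ) (l : V n → ℝ) (g : MF n) (Φ S : ℝ → ℝ) (O : Set (V n)) (Ω : Set (VV n)),
    Dt Λ R l g Φ S O Ω → ∀ z ∈ Ω, WB C R l Φ (W0 l g Φ S) z

end Vale.Agent.P088.R2.H437.Z0
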