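import Vale.Agent.P088.R2.H437.Z0.Der

/-!
# P088, stage 3, zone 0: the lower bound of the Hessian form
-/

open Set Filter
open scoped ContDiff Topology Matrix

noncomputable section

namespace Vale.Agent.P088.R2.H437.Z0

open Vale.Agent.P088.LR Vale.Agent.P088.HY Vale.Agent.P088.R2.H961.GW Vale.Agent.P088.R2.H644.Ch
open Vale.Agent.P088.R2.H464.Cu (mid dif rq bf dg Hv up nv dt Nr sx sy)

variable {n : ℕ}

theorem nsq (v : V n) : ‖v‖ ^ 2 ≤ dt v v := by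
  rcases isEmpty_or_nonempty (Fin n) with h | h
  · have : v = 0 := Subsingleton.elim _ _
    rw [this]; simp [dt]
  · obtain ⟨i, -, hi⟩ := Finset.exists_mem_eq_sup' (Finset.univ_nonempty (α := Fin n))
      (fun i => ‖v i‖)
    have e : ‖v‖ = ‖v i‖ := by
      refine le_antisymm ?_ (norm_le_pi_norm v i)
      rw [pi_norm_le_iff_of_nonneg (norm_nonneg _)]
      intro j
      rw [← hi]
      exact Finset.le_sup' (fun i => ‖v i‖) (Finset.mem_univ j)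
    rw [e, Real.norm_eq_abs, sq_abs, pow_two]
    exact Finset.single_le_sum (f := fun i => v i * v i) (fun i _ => mul_self_nonneg _)
      (Finset.mem_univ i)

theorem dt_le_n (v : V n) : dt v v ≤ n * ‖v‖ ^ 2 := by
  have := Vale.Agent.P088.R2.H464.Cu.dt_le v v
  calc dt v v ≤ |dt v v| := le_abs_self _
    _ ≤ _ := this
    _ = _ := by ring

theorem nsq2 (v : VV n) : ‖v‖ ^ 2 ≤ dt v.1 v.1 + dt v.2 v.2 := by
  have h1 := nsq v.1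
  have h2 := nsq v.2
  have h3 := Vale.Agent.P088.R2.H464.Cu.dt_nonneg v.1
  have h4 := Vale.Agent.P088.R2.H464.Cu.dt_nonneg v.2
  rw [Prod.norm_def]
  rcases max_cases ‖v.1‖ ‖v.2‖ with h | h <;> rw [h.1] <;> linarith

theorem n_mid (v : VV n) : ‖mid v‖ ≤ ‖v‖ := by
  unfold mid
  rw [norm_smul]
  have h1 := norm_add_le v.1 v.2
  have h2 := norm_fst_le v
  have h3 := norm_snd_le v
  norm_num
  linarith

/-- The hypotheses of zone 0. `Λ` bounds the jets, `Λ₀` bounds `Dl`, `S'`, `S''`; `a E ≤ N`,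
`c₁ E ≤ K ≤ Λ N`; `β` is small with respect to `Λ₀, a, c₁`, `δ` is small with respect to
everything else, `s` is the lower bound of the Hessian of `l`. -/
structure Hz (Λ₀ a c₁ β Λ δ ε s R : ℝ) (l : V n → ℝ) (g s₁ s₂ : MF n) (Φ S : ℝ → ℝ) (O : Set (V n))
    (Ω : Set (VV n)) : Prop where
  dt : Dt Λ R l g Φ S O Ω
  ll : ∀ z ∈ Ω, ∀ w, |fderiv ℝ l z.1 w - fderiv ℝ l z.2 w| ≤ Λ / R * ‖w‖ * β
  n₁ : Nr O ε (ε / R) (ε / R ^ 2) s₁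
  n₂ : Nr O ε (ε / R) (ε / R ^ 2) s₂
  ng : Nr O ε (ε / R) (ε / R ^ 2) g
  j₁ : ∀ x ∈ O, ∀ i j, ∀ m ≤ 4, ‖iteratedFDeriv ℝ m (fun x => s₁ x i j) x‖ ≤ Λ * R⁻¹ ^ m
  j₂ : ∀ x ∈ O, ∀ i j, ∀ m ≤ 4, ‖iteratedFDeriv ℝ m (fun x => s₂ x i j) x‖ ≤ Λ * R⁻¹ ^ m
  ε0 : 0 ≤ ε
  ε1 : ε ≤ 1
  εn : n * ε ≤ 1 / 2
  εs : ε / R ≤ δ * s
  s0 : 0 < s
  s1 : s ≤ 1
  Rs : 1 / R ^ 2 ≤ δ * s
  lc : ∀ x ∈ O, ∀ v, s * Vale.Agent.P088.R2.H464.Cu.dt v v ≤ fderiv ℝ (fun x => fderiv ℝ l x v) x v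
  lg : ∀ x ∈ O, 1 / 8 ≤ ∑ k, pd k l x ^ 2
  β0 : 0 < β
  l0 : ∀ x ∈ O, ∀ w, |fderiv ℝ l x w| ≤ Λ₀ * ‖w‖
  dq : ∀ z ∈ Ω, ‖dif z‖ ≤ β
  S0 : ∀ z ∈ Ω, 0 ≤ S (rq g z)
  S1 : ∀ z ∈ Ω, 1 / 2 ≤ deriv S (rq g z)
  S2 : ∀ z ∈ Ω, deriv S (rq g z) ≤ Λ₀
  S3 : ∀ z ∈ Ω, |deriv (deriv S) (rq g z)| ≤ Λ₀
  EN : ∀ z ∈ Ω, a * Real.exp (uf l z) ≤ deriv Φ (uf l z)
  EK : ∀ z ∈ Ω, c₁ * Real.exp (uf l z) ≤ deriv (deriv Φ) (uf l z)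
  KN : ∀ z ∈ Ω, deriv (deriv Φ) (uf l z) ≤ Λ * deriv Φ (uf l z)
  KE : ∀ z ∈ Ω, deriv (deriv Φ) (uf l z) ≤ δ * (Real.exp (uf l z) * deriv Φ (uf l z))
  N1 : ∀ z ∈ Ω, 1 ≤ δ * deriv Φ (uf l z)
  NR : ∀ z ∈ Ω, 1 / R ≤ δ * (s * deriv Φ (uf l z))

section loc

variable {Λ₀ a c₁ β Λ δ ε s R : ℝ} {l : V n → ℝ} {g s₁ s₂ : MF n} {Φ S : ℝ → ℝ} {O : Set (V n)}
  {Ω : Set (VV n)} {z v : VV n}

theorem Hz.R0 (h : Hz Λ₀ a c₁ β Λ δ ε s R l g s₁ s₂ Φ S O Ω) : 0 < R := zero_lt_one.trans_le h.dt.R1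

theorem Hz.su (h : Hz Λ₀ a c₁ β Λ δ ε s R l g s₁ s₂ Φ S O Ω) : ContDiffOn ℝ ∞ (uf l) Ω :=
  (Vale.Agent.P088.R2.H464.Cu.sm_uf h.dt.sl).mono fun z hz => ⟨(h.dt.pt z hz).1, (h.dt.pt z hz).2.1⟩

theorem Hz.sr (h : Hz Λ₀ a c₁ β Λ δ ε s R l g s₁ s₂ Φ S O Ω) : ContDiffOn ℝ ∞ (rq g) Ω :=
  (Vale.Agent.P088.R2.H464.Cu.sm_rq h.dt.sg).mono fun z hz => (h.dt.pt z hz).2.2

theorem Hz.d0 (h : Hz Λ₀ a c₁ β Λ δ ε s R l g s₁ s₂ Φ S O Ω) (hz : z ∈ Ω) : 0 < δ := by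
  have h1 := h.N1 z hz
  have h2 := h.dt.N0 z hz
  by_contra hc
  push Not at hc
  have := mul_nonpos_of_nonpos_of_nonneg hc h2.le
  linarith

theorem r1_le (h : Hz Λ₀ a c₁ β Λ δ ε s R l g s₁ s₂ Φ S O Ω) (hβ1 : β ≤ 1) (hz : z ∈ Ω) (v : VV n) :
    |dv v (rq g) z| ≤ (2 * n ^ 2 + n ^ 3) * (β * (‖v.1 - v.2‖ + ‖v‖ / R)) := by
  have hm := (h.dt.pt z hz).2.2
  have hR := h.R0
  have hd := h.β0
  have dg' : ∀ i j, DifferentiableAt ℝ (fun x => g x i j) (mid z) := fun i j =>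
    df_of h.dt.oO (h.ng.sm i j) hm
  have e := (Vale.Agent.P088.R2.H464.Cu.rq_d dg' h.ng.sy v).e
  have e' : dv v (rq g) z = bf (g (mid z)) (dif v) (dif z) +
      1 / 2 * bf (dg (mid v) g (mid z)) (dif z) (dif z) := e
  rw [e']
  have h1 := Vale.Agent.P088.R2.H464.Cu.bf_le (by norm_num : (0:ℝ) ≤ 2)
    (fun i j => h.ng.le2 h.ε1 hm i j) (dif v) (dif z)
  have h0 : 0 ≤ ε / R := div_nonneg h.ε0 hR.le
  have h2 := Vale.Agent.P088.R2.H464.Cu.bf_le (c := n * (‖mid v‖ * (ε / R))) (by positivity)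
    (fun i j => h.ng.dg hm (mid v) i j) (dif z) (dif z)
  have hq := h.dq z hz
  have q0 := norm_nonneg (dif z)
  have d0 := norm_nonneg (dif v)
  have m1 := n_mid v
  have m0 := norm_nonneg (mid v)
  have v0 := norm_nonneg v
  have a1 : (n : ℝ) ^ 2 * (2 * ‖dif v‖ * ‖dif z‖) ≤ 2 * n ^ 2 * (β * ‖dif v‖) := by
    calc (n : ℝ) ^ 2 * (2 * ‖dif v‖ * ‖dif z‖) ≤ (n : ℝ) ^ 2 * (2 * ‖dif v‖ * β) := by gcongr
      _ = _ := by ring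
  have a2 : (n : ℝ) ^ 2 * (n * (‖mid v‖ * (ε / R)) * ‖dif z‖ * ‖dif z‖) ≤
      n ^ 3 * (β * (‖v‖ / R)) := by
    have e1 : ε / R ≤ 1 / R := by gcongr; exact h.ε1
    have e2 : ‖dif z‖ * ‖dif z‖ ≤ β * 1 := mul_le_mul hq (hq.trans hβ1) q0 hd.le
    calc (n : ℝ) ^ 2 * (n * (‖mid v‖ * (ε / R)) * ‖dif z‖ * ‖dif z‖)
        = n ^ 3 * ((‖mid v‖ * (ε / R)) * (‖dif z‖ * ‖dif z‖)) := by ring
      _ ≤ n ^ 3 * ((‖v‖ * (1 / R)) * (β * 1)) := by gcongr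
      _ = _ := by ring
  rw [show v.1 - v.2 = dif v from rfl]
  have p1 : 0 ≤ (n : ℝ) ^ 3 * (β * ‖dif v‖) := by positivity
  have p2 : 0 ≤ (n : ℝ) ^ 2 * (β * (‖v‖ / R)) := by positivity
  have p3 : 0 ≤ (n : ℝ) ^ 3 * (β * (‖v‖ / R)) := by positivity
  have b3 : |1 / 2 * bf (dg (mid v) g (mid z)) (dif z) (dif z)| ≤
      1 / 2 * ((n : ℝ) ^ 2 * (n * (‖mid v‖ * (ε / R)) * ‖dif z‖ * ‖dif z‖)) := by
    rw [abs_mul, abs_of_pos (by norm_num : (0:ℝ) < 1 / 2)]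
    exact mul_le_mul_of_nonneg_left h2 (by norm_num)
  refine (abs_add_le _ _).trans ?_
  linarith

theorem r2_ge (h : Hz Λ₀ a c₁ β Λ δ ε s R l g s₁ s₂ Φ S O Ω) (hβ1 : β ≤ 1) (hz : z ∈ Ω) (v : VV n) :
    1 / 4 * Vale.Agent.P088.R2.H464.Cu.dt (v.1 - v.2) (v.1 - v.2) -
      (n ^ 3 + n ^ 4) * (β * (‖v.1 - v.2‖ ^ 2 + (‖v‖ / R) ^ 2)) ≤ dv v (dv v (rq g)) z := by
  have hm := (h.dt.pt z hz).2.2
  have hR := h.R0
  have hd := h.β0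
  have e := (Vale.Agent.P088.R2.H464.Cu.rq_dd h.dt.oO h.dt.sg h.ng.sy v v hm).e
  have e' : dv v (dv v (rq g)) z = bf (g (mid z)) (dif v) (dif v) +
      bf (dg (mid v) g (mid z)) (dif v) (dif z) + bf (dg (mid v) g (mid z)) (dif v) (dif z) +
      1 / 2 * bf (dg (mid v) (dg (mid v) g) (mid z)) (dif z) (dif z) := e
  rw [e']
  have ed : v.1 - v.2 = dif v := rfl
  rw [ed]
  have h0 : 0 ≤ ε / R := div_nonneg h.ε0 hR.le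
  have h0' : 0 ≤ ε / R ^ 2 := div_nonneg h.ε0 (by positivity)
  have h1 := Vale.Agent.P088.R2.H464.Cu.form_ge h.εn (fun i j => h.ng.b0 _ hm i j) (dif v)
  have h2 := Vale.Agent.P088.R2.H464.Cu.bf_le (c := n * (‖mid v‖ * (ε / R))) (by positivity)
    (fun i j => h.ng.dg hm (mid v) i j) (dif v) (dif z)
  have h3 := Vale.Agent.P088.R2.H464.Cu.bf_le (c := n ^ 2 * (‖mid v‖ * ‖mid v‖ * (ε / R ^ 2)))
    (by positivity) (fun i j => h.ng.dg2 h.dt.oO hm (mid v) (mid v) i j) (dif z) (dif z)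
  have hq := h.dq z hz
  have q0 := norm_nonneg (dif z)
  have d0 := norm_nonneg (dif v)
  have m1 := n_mid v
  have m0 := norm_nonneg (mid v)
  have v0 := norm_nonneg v
  have a2 : (n : ℝ) ^ 2 * (n * (‖mid v‖ * (ε / R)) * ‖dif v‖ * ‖dif z‖) ≤
      n ^ 3 * (β * (1 / 2 * (‖dif v‖ ^ 2 + (‖v‖ / R) ^ 2))) := by
    have e1 : ε / R ≤ 1 / R := by gcongr; exact h.ε1
    have e3 : ‖v‖ / R * ‖dif v‖ ≤ 1 / 2 * (‖dif v‖ ^ 2 + (‖v‖ / R) ^ 2) := by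
      nlinarith [sq_nonneg (‖v‖ / R - ‖dif v‖)]
    calc (n : ℝ) ^ 2 * (n * (‖mid v‖ * (ε / R)) * ‖dif v‖ * ‖dif z‖)
        = n ^ 3 * ((‖mid v‖ * (ε / R)) * ‖dif v‖ * ‖dif z‖) := by ring
      _ ≤ n ^ 3 * ((‖v‖ * (1 / R)) * ‖dif v‖ * β) := by gcongr
      _ = n ^ 3 * (β * (‖v‖ / R * ‖dif v‖)) := by ring
      _ ≤ _ := by gcongr
  have a3 : (n : ℝ) ^ 2 * (n ^ 2 * (‖mid v‖ * ‖mid v‖ * (ε / R ^ 2)) * ‖dif z‖ * ‖dif z‖) ≤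
      n ^ 4 * (β * (‖v‖ / R) ^ 2) := by
    have e1 : ε / R ^ 2 ≤ 1 / R ^ 2 := by gcongr; exact h.ε1
    have e2 : ‖dif z‖ * ‖dif z‖ ≤ β * 1 := mul_le_mul hq (hq.trans hβ1) q0 hd.le
    calc (n : ℝ) ^ 2 * (n ^ 2 * (‖mid v‖ * ‖mid v‖ * (ε / R ^ 2)) * ‖dif z‖ * ‖dif z‖)
        = n ^ 4 * ((‖mid v‖ * ‖mid v‖ * (ε / R ^ 2)) * (‖dif z‖ * ‖dif z‖)) := by ring
      _ ≤ n ^ 4 * ((‖v‖ * ‖v‖ * (1 / R ^ 2)) * (β * 1)) := by gcongr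
      _ = _ := by field_simp
  have b2 := (abs_le.1 h2).1
  have b3 := (abs_le.1 h3).1
  have p1 : 0 ≤ (n : ℝ) ^ 4 * (β * ‖dif v‖ ^ 2) := by positivity
  have p3 : 0 ≤ (n : ℝ) ^ 4 * (β * (‖v‖ / R) ^ 2) := by positivity
  have h1' : 1 / 4 * Vale.Agent.P088.R2.H464.Cu.dt (dif v) (dif v) ≤
      bf (g (mid z)) (dif v) (dif v) := by
    have : ((1 : ℝ) / 2) ^ 2 = 1 / 4 := by norm_num
    rwa [this] at h1
  linarith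

theorem u2_ge (h : Hz Λ₀ a c₁ β Λ δ ε s R l g s₁ s₂ Φ S O Ω) (hz : z ∈ Ω) (v : VV n) :
    s * (Vale.Agent.P088.R2.H464.Cu.dt v.1 v.1 + Vale.Agent.P088.R2.H464.Cu.dt v.2 v.2) ≤
      dv v (dv v (uf l)) z := by
  obtain ⟨hx, hy, -⟩ := h.dt.pt z hz
  have e := Vale.Agent.P088.R2.H464.Cu.dd_uf h.dt.oO h.dt.sl hx hy v.1 v.2
  have e' : dv v (dv v (uf l)) z = fderiv ℝ (fun x => fderiv ℝ l x v.1) z.1 v.1 +
      fderiv ℝ (fun x => fderiv ℝ l x v.2) z.2 v.2 := e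
  rw [e', mul_add]
  exact add_le_add (h.lc _ hx _) (h.lc _ hy _)

/-- The part with `e^u`. -/
theorem e_part {E P D q t S S' S'' r₁ r₂ Λ k δ : ℝ} (hE : 0 ≤ E) (hΛ : 1 ≤ Λ) (hk : 0 ≤ k)
    (hδ : 0 ≤ δ) (hδ1 : δ ≤ 1) (hqD : q ^ 2 ≤ D) (hS : 0 ≤ S)
    (hS1 : 1 / 2 ≤ S') (hS1' : S' ≤ Λ)
    (hS2 : |S''| ≤ Λ) (h1 : |r₁| ≤ k * (δ * (q + t))) (h2 : 1 / 4 * D - k * (δ * (q ^ 2 + t ^ 2)) ≤ r₂) :
    E * (1 / 8 * D) - 4 * Λ * (k + 1) ^ 2 * δ * (E * P ^ 2 + E * D + E * t ^ 2) ≤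
      E * (S * P ^ 2 + 2 * S' * r₁ * P + S'' * r₁ ^ 2 + S' * r₂) := by
  have hD : 0 ≤ D := (sq_nonneg q).trans hqD
  have hS' : 0 ≤ S' := by linarith
  have g1 : -(Λ * (k * δ * (P ^ 2 + 2 * D + 2 * t ^ 2))) ≤ 2 * S' * r₁ * P := by
    have a1 : |2 * S' * r₁ * P| ≤ Λ * (k * δ * (P ^ 2 + 2 * D + 2 * t ^ 2)) := by
      rw [abs_mul, abs_mul, abs_of_nonneg (by positivity : (0:ℝ) ≤ 2 * S')]
      have a2 : 2 * (|P| * (q + t)) ≤ P ^ 2 + 2 * D + 2 * t ^ 2 := by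
        nlinarith [sq_nonneg (|P| - (q + t)), sq_nonneg (q - t), sq_abs P]
      calc 2 * S' * |r₁| * |P| ≤ 2 * Λ * (k * (δ * (q + t))) * |P| := by gcongr
        _ = Λ * (k * δ * (2 * (|P| * (q + t)))) := by ring
        _ ≤ _ := by gcongr
    exact (abs_le.1 a1).1
  have g2 : -(Λ * (k ^ 2 * δ * (2 * D + 2 * t ^ 2))) ≤ S'' * r₁ ^ 2 := by
    have a1 : |S'' * r₁ ^ 2| ≤ Λ * (k ^ 2 * δ * (2 * D + 2 * t ^ 2)) := by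
      rw [abs_mul, abs_of_nonneg (sq_nonneg r₁)]
      have a2 : r₁ ^ 2 ≤ (k * (δ * (q + t))) ^ 2 := by
        rw [← sq_abs r₁]; gcongr
      have a3 : (q + t) ^ 2 ≤ 2 * D + 2 * t ^ 2 := by nlinarith [sq_nonneg (q - t)]
      have a4 : δ ^ 2 ≤ δ := by nlinarith
      calc |S''| * r₁ ^ 2 ≤ Λ * (k * (δ * (q + t))) ^ 2 := by gcongr
        _ = Λ * (k ^ 2 * δ ^ 2 * (q + t) ^ 2) := by ring
        _ ≤ _ := by gcongr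
    exact (abs_le.1 a1).1
  have g3 : 1 / 8 * D - Λ * (k * (δ * (D + t ^ 2))) ≤ S' * r₂ := by
    have a1 : S' * (1 / 4 * D - k * (δ * (q ^ 2 + t ^ 2))) ≤ S' * r₂ :=
      mul_le_mul_of_nonneg_left h2 hS'
    have a2 : S' * (k * (δ * (q ^ 2 + t ^ 2))) ≤ Λ * (k * (δ * (D + t ^ 2))) := by gcongr
    have a3 : 1 / 2 * (1 / 4 * D) ≤ S' * (1 / 4 * D) :=
      mul_le_mul_of_nonneg_right hS1 (by positivity)
    linarith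
  have g4 : 0 ≤ S * P ^ 2 := by positivity
  have g5 : 1 / 8 * D - 4 * Λ * (k + 1) ^ 2 * δ * (P ^ 2 + D + t ^ 2) ≤
      S * P ^ 2 + 2 * S' * r₁ * P + S'' * r₁ ^ 2 + S' * r₂ := by
    have x0 : 0 ≤ Λ * δ := by positivity
    have x1 : 0 ≤ Λ * δ * P ^ 2 := by positivity
    have x2 : 0 ≤ Λ * δ * D := by positivity
    have x3 : 0 ≤ Λ * δ * t ^ 2 := by positivity
    have c1 : k ≤ (k + 1) ^ 2 := by nlinarith
    have c2 : 3 * k + 2 * k ^ 2 ≤ 4 * (k + 1) ^ 2 := by nlinarith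
    have c1' : k ≤ 4 * (k + 1) ^ 2 := by nlinarith
    have y1 := mul_le_mul_of_nonneg_right c1' x1
    have y2 := mul_le_mul_of_nonneg_right c2 x2
    have y3 := mul_le_mul_of_nonneg_right c2 x3
    nlinarith
  have := mul_le_mul_of_nonneg_left g5 hE
  nlinarith

/-- The final arithmetic. -/
theorem th_fin {K N E P2 D M t2 s δ β a c₁ k T : ℝ} (hδ : 0 ≤ δ) (hβ : 0 ≤ β) (hs : 0 ≤ s)
    (hN : 0 ≤ N) (hE : 0 ≤ E) (hP : 0 ≤ P2) (hD : 0 ≤ D) (hM : 0 ≤ M)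
    (hk : 0 ≤ k) (EN : a * E ≤ N) (EK : c₁ * E ≤ K) (t2s : t2 ≤ δ * s * M) (hδ1 : δ ≤ 1)
    (k1 : k * β ≤ 1 / 16) (k2 : k * β ≤ 1 / 2 * c₁) (k3 : k * β ≤ 1 / 4 * a) (k4 : T * δ ≤ 1 / 4) :
    1 / 2 * K * P2 + 1 / 2 * (s * N) * M + 1 / 16 * E * D ≤
      K * P2 + N * (s * M) + (E * (1 / 8 * D) - k * β * (E * P2 + E * D + E * t2)) -
        T * δ * (s * N) * M := by
  have e1 : k * β * (E * P2) ≤ 1 / 2 * K * P2 := by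
    have h1 : k * β * E ≤ 1 / 2 * K := by
      calc k * β * E ≤ 1 / 2 * c₁ * E := by gcongr
        _ ≤ 1 / 2 * K := by linarith
    calc k * β * (E * P2) = (k * β * E) * P2 := by ring
      _ ≤ _ := by gcongr
  have e2 : k * β * (E * D) ≤ 1 / 16 * E * D := by
    calc k * β * (E * D) ≤ 1 / 16 * (E * D) := by gcongr
      _ = _ := by ring
  have e3 : k * β * (E * t2) ≤ 1 / 4 * (s * N) * M := by
    have h1 : k * β * E ≤ 1 / 4 * N := by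
      calc k * β * E ≤ 1 / 4 * a * E := by gcongr
        _ ≤ 1 / 4 * N := by linarith
    calc k * β * (E * t2) ≤ k * β * (E * (δ * s * M)) := by gcongr
      _ = (k * β * E) * (δ * s * M) := by ring
      _ ≤ 1 / 4 * N * (1 * s * M) := by gcongr
      _ = _ := by ring
  have e4 : T * δ * (s * N) * M ≤ 1 / 4 * (s * N) * M := by gcongr
  linarith

end loc

section loc2

variable {Λ₀ a c₁ β Λ δ ε s R : ℝ} {l : V n → ℝ} {g s₁ s₂ : MF n} {Φ S : ℝ → ℝ} {O : Set (V n)}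
  {Ω : Set (VV n)} {z v : VV n}

/-- The derivatives of the weight in the coordinate directions. -/
theorem W_x {C : ℝ} (hC : 0 ≤ C) (h : Hz Λ₀ a c₁ β Λ δ ε s R l g s₁ s₂ Φ S O Ω) (ha : 0 < a)
    (hz : z ∈ Ω) (wb : WB C R l Φ (W0 l g Φ S) z) (k : Fin n) :
    |dx k (W0 l g Φ S) z| ≤ C * ((1 + 1 / a) * deriv Φ (uf l z)) ∧
      |dy k (W0 l g Φ S) z| ≤ C * ((1 + 1 / a) * deriv Φ (uf l z)) := by
  have hN := h.dt.N0 z hz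
  have hE := Real.exp_pos (uf l z)
  have NE : deriv Φ (uf l z) + Real.exp (uf l z) ≤ (1 + 1 / a) * deriv Φ (uf l z) := by
    have := h.EN z hz
    have h2 : Real.exp (uf l z) ≤ 1 / a * deriv Φ (uf l z) := by
      rw [one_div, ← div_eq_inv_mul, le_div_iff₀ ha]; linarith
    linarith
  have key : ∀ v : VV n, ‖v‖ ≤ 1 → |dv v (W0 l g Φ S) z| ≤
      C * ((1 + 1 / a) * deriv Φ (uf l z)) := by
    intro v hv
    refine (wb.d1 v).trans ?_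
    refine (mul_le_of_le_one_right (by positivity) hv).trans ?_
    gcongr
  constructor
  · refine key (Pi.single k 1, 0) ?_
    rw [Prod.norm_def]
    simp [Vale.Agent.P088.R2.H464.Cu.norm_single_le k]
  · refine key (0, Pi.single k 1) ?_
    rw [Prod.norm_def]
    simp [Vale.Agent.P088.R2.H464.Cu.norm_single_le k]

theorem ch_le {f F : Fin n → ℝ} {X C N : ℝ} (hX : 0 ≤ X) (hN : 0 ≤ N) (hC : 0 ≤ C) (ha : 0 < a)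
    (_hε : 0 ≤ ε / R) (hs : ε / R ≤ δ * s) (hf : ∀ k, |f k| ≤ C * ((1 + 1 / a) * N))
    (hF : ∀ k, |F k| ≤ n ^ 3 * (3 * (ε / R) * (4 * X))) :
    |∑ k, f k * F k| ≤ (12 * n ^ 4 * C * (1 + 1 / a)) * δ * (s * N) * X := by
  refine (Vale.Agent.P088.R2.H464.Cu.sum_le1 (c := C * ((1 + 1 / a) * N) *
    (n ^ 3 * (3 * (δ * s) * (4 * X)))) fun k => ?_).trans (le_of_eq (by ring))
  rw [abs_mul]
  calc |f k| * |F k| ≤ (C * ((1 + 1 / a) * N)) * (n ^ 3 * (3 * (ε / R) * (4 * X))) :=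
        mul_le_mul (hf k) (hF k) (abs_nonneg _) (by positivity)
    _ ≤ _ := by gcongr

theorem up_sq {s' : MF n} {x : V n} (n' : Nr O ε (ε / R) (ε / R ^ 2) s') (hε : n * ε ≤ 1 / 2)
    (hx : x ∈ O) (A : V n) : ‖A‖ ^ 2 ≤ 4 * Vale.Agent.P088.R2.H464.Cu.dt (up (s' x) A) (up (s' x) A) := by
  have h1 := Vale.Agent.P088.R2.H464.Cu.up_ge n' hε hx A
  have h3 := nsq (up (s' x) A)
  calc ‖A‖ ^ 2 ≤ (2 * ‖up (s' x) A‖) ^ 2 := by gcongr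
    _ = 4 * ‖up (s' x) A‖ ^ 2 := by ring
    _ ≤ _ := by linarith

theorem Hz.sW (h : Hz Λ₀ a c₁ β Λ δ ε s R l g s₁ s₂ Φ S O Ω) : Sm Ω (W0 l g Φ S) :=
  (h.dt.sΦ.comp_contDiffOn h.su).add
    ((Real.contDiff_exp.comp_contDiffOn h.su).mul (h.dt.sS.comp_contDiffOn h.sr))

/-- `TH` is the second derivative up to the Christoffel terms. -/
theorem TH_dd {C : ℝ} (hC : 0 ≤ C) (h : Hz Λ₀ a c₁ β Λ δ ε s R l g s₁ s₂ Φ S O Ω) (ha : 0 < a)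
    (hz : z ∈ Ω) (wb : WB C R l Φ (W0 l g Φ S) z) (A B : V n) {v : VV n}
    (hv : v = (up (s₁ z.1) A, up (s₂ z.2) B)) :
    dv v (dv v (W0 l g Φ S)) z - (12 * n ^ 4 * C * (1 + 1 / a)) * δ * (s * deriv Φ (uf l z)) *
      (Vale.Agent.P088.R2.H464.Cu.dt v.1 v.1 + Vale.Agent.P088.R2.H464.Cu.dt v.2 v.2) ≤
      TH (sx s₁) (sy s₂) (W0 l g Φ S) z A B := by
  obtain ⟨hx, hy, hm⟩ := h.dt.pt z hz
  have hN := h.dt.N0 z hz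
  have hR := h.R0
  have dd1 : ∀ i j, DifferentiableAt ℝ (fun x => s₁ x i j) z.1 := fun i j =>
    df_of h.dt.oO (h.n₁.sm i j) hx
  have dd2 : ∀ i j, DifferentiableAt ℝ (fun x => s₂ x i j) z.2 := fun i j =>
    df_of h.dt.oO (h.n₂.sm i j) hy
  have eq := Vale.Agent.P088.R2.H464.Cu.TH_eq h.dt.oΩ h.sW hz h.n₁.sy h.n₂.sy dd1 dd2 A B
  rw [← hv] at eq
  have eq' : TH (sx s₁) (sy s₂) (W0 l g Φ S) z A B = dv v (dv v (W0 l g Φ S)) z +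
    (∑ k, dx k (W0 l g Φ S) z * nv s₁ z.1 A k) + ∑ k, dy k (W0 l g Φ S) z * nv s₂ z.2 B k := eq
  rw [eq']
  have A2 := up_sq h.n₁ h.εn hx A
  have B2 := up_sq h.n₂ h.εn hy B
  have ev1 : up (s₁ z.1) A = v.1 := by rw [hv]
  have ev2 : up (s₂ z.2) B = v.2 := by rw [hv]
  rw [ev1] at A2
  rw [ev2] at B2
  have h0 : 0 ≤ ε / R := div_nonneg h.ε0 hR.le
  have c1 := ch_le (Vale.Agent.P088.R2.H464.Cu.dt_nonneg v.1) hN.le hC ha h0 h.εs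
    (fun k => (W_x hC h ha hz wb k).1)
    (fun k => (Vale.Agent.P088.R2.H464.Cu.nv_le h.n₁ h.ε1 hx A k).trans (by gcongr))
  have c2 := ch_le (Vale.Agent.P088.R2.H464.Cu.dt_nonneg v.2) hN.le hC ha h0 h.εs
    (fun k => (W_x hC h ha hz wb k).2)
    (fun k => (Vale.Agent.P088.R2.H464.Cu.nv_le h.n₂ h.ε1 hy B k).trans (by gcongr))
  have c1' := (abs_le.1 c1).1
  have c2' := (abs_le.1 c2).1
  rw [mul_add]
  linarith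

theorem Hz.u2 (h : Hz Λ₀ a c₁ β Λ δ ε s R l g s₁ s₂ Φ S O Ω) (hz : z ∈ Ω) (v : VV n) :
    deriv Φ (uf l z) * (s * (Vale.Agent.P088.R2.H464.Cu.dt v.1 v.1 +
      Vale.Agent.P088.R2.H464.Cu.dt v.2 v.2)) ≤
      (deriv Φ (uf l z) + Real.exp (uf l z) * S (rq g z)) * dv v (dv v (uf l)) z := by
  have hN := h.dt.N0 z hz
  have hE := Real.exp_pos (uf l z)
  have u2 := u2_ge h hz v
  have M0 : 0 ≤ Vale.Agent.P088.R2.H464.Cu.dt v.1 v.1 + Vale.Agent.P088.R2.H464.Cu.dt v.2 v.2 :=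
    add_nonneg (Vale.Agent.P088.R2.H464.Cu.dt_nonneg _) (Vale.Agent.P088.R2.H464.Cu.dt_nonneg _)
  have h1 : 0 ≤ Real.exp (uf l z) * S (rq g z) := mul_nonneg hE.le (h.S0 z hz)
  have h2 := mul_le_mul_of_nonneg_left u2 hN.le
  have h3 : 0 ≤ dv v (dv v (uf l)) z := (mul_nonneg h.s0.le M0).trans u2
  have h4 := mul_nonneg h1 h3
  rw [add_mul]
  linarith

theorem Hz.t2 (h : Hz Λ₀ a c₁ β Λ δ ε s R l g s₁ s₂ Φ S O Ω) (hz : z ∈ Ω) (v : VV n) :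
    (‖v‖ / R) ^ 2 ≤ δ * s * (Vale.Agent.P088.R2.H464.Cu.dt v.1 v.1 +
      Vale.Agent.P088.R2.H464.Cu.dt v.2 v.2) := by
  have h1 := nsq2 v
  have h2 := h.Rs
  calc (‖v‖ / R) ^ 2 = 1 / R ^ 2 * ‖v‖ ^ 2 := by ring
    _ ≤ (δ * s) * (Vale.Agent.P088.R2.H464.Cu.dt v.1 v.1 +
      Vale.Agent.P088.R2.H464.Cu.dt v.2 v.2) := mul_le_mul h2 h1 (by positivity)
        (mul_nonneg (h.d0 hz).le h.s0.le)

/-- The part of the second derivative with `e^u`. -/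
theorem Hz.ep (h : Hz Λ₀ a c₁ β Λ δ ε s R l g s₁ s₂ Φ S O Ω) (hΛ : 1 ≤ Λ₀) (hβ1 : β ≤ 1)
    (hz : z ∈ Ω) {k₀ : ℝ} (hk₀ : k₀ = 2 * n ^ 2 + n ^ 3 + n ^ 4) (v : VV n) :
    Real.exp (uf l z) * (1 / 8 * Vale.Agent.P088.R2.H464.Cu.dt (v.1 - v.2) (v.1 - v.2)) -
      4 * Λ₀ * (k₀ + 1) ^ 2 * β * (Real.exp (uf l z) * dv v (uf l) z ^ 2 +
        Real.exp (uf l z) * Vale.Agent.P088.R2.H464.Cu.dt (v.1 - v.2) (v.1 - v.2) +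
        Real.exp (uf l z) * (‖v‖ / R) ^ 2) ≤
      Real.exp (uf l z) * (S (rq g z) * dv v (uf l) z ^ 2 +
        2 * deriv S (rq g z) * dv v (rq g) z * dv v (uf l) z +
        deriv (deriv S) (rq g z) * dv v (rq g) z ^ 2 +
        deriv S (rq g z) * dv v (dv v (rq g)) z) := by
  have hd := h.β0
  have hR := h.R0
  have hk₀0 : 0 ≤ k₀ := by rw [hk₀]; positivity
  have r1 := r1_le h hβ1 hz v
  have r2 := r2_ge h hβ1 hz v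
  have q0 := norm_nonneg (v.1 - v.2)
  have t0 : 0 ≤ ‖v‖ / R := by positivity
  have r1' : |dv v (rq g) z| ≤ k₀ * (β * (‖v.1 - v.2‖ + ‖v‖ / R)) := by
    refine r1.trans (mul_le_mul_of_nonneg_right ?_ (by positivity))
    rw [hk₀]
    have : (0:ℝ) ≤ n ^ 4 := by positivity
    linarith
  have r2' : 1 / 4 * Vale.Agent.P088.R2.H464.Cu.dt (v.1 - v.2) (v.1 - v.2) -
      k₀ * (β * (‖v.1 - v.2‖ ^ 2 + (‖v‖ / R) ^ 2)) ≤ dv v (dv v (rq g)) z := by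
    refine le_trans ?_ r2
    have : (n ^ 3 + n ^ 4 : ℝ) * (β * (‖v.1 - v.2‖ ^ 2 + (‖v‖ / R) ^ 2)) ≤
        k₀ * (β * (‖v.1 - v.2‖ ^ 2 + (‖v‖ / R) ^ 2)) := by
      refine mul_le_mul_of_nonneg_right ?_ (by positivity)
      rw [hk₀]
      have : (0:ℝ) ≤ n ^ 2 := by positivity
      linarith
    linarith
  exact e_part (Real.exp_pos _).le hΛ hk₀0 hd.le hβ1 (nsq (v.1 - v.2)) (h.S0 z hz) (h.S1 z hz)
    (h.S2 z hz) (h.S3 z hz) r1' r2'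

end loc2

/-- The smallness of `β`. -/
def bT (n : ℕ) (Λ₀ a c₁ : ℝ) : ℝ :=
  min 1 (min (1 / 16) (min (1 / 2 * c₁) (1 / 4 * a)) /
    (4 * Λ₀ * ((2 * n ^ 2 + n ^ 3 + n ^ 4 : ℝ) + 1) ^ 2))

theorem bT_pos (n : ℕ) {Λ₀ a c₁ : ℝ} (hΛ : 1 ≤ Λ₀) (ha : 0 < a) (hc : 0 < c₁) :
    0 < bT n Λ₀ a c₁ := by unfold bT; positivity

/-- The smallness of `δ`. -/
def dT (n : ℕ) (a C : ℝ) : ℝ := min 1 (1 / 4 / (12 * n ^ 4 * C * (1 + 1 / a) + 1))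

theorem dT_pos (n : ℕ) {a C : ℝ} (ha : 0 < a) (hC : 0 ≤ C) : 0 < dT n a C := by
  unfold dT; positivity

section main

variable {Λ₀ a c₁ β Λ δ ε s R C : ℝ} {l : V n → ℝ} {g s₁ s₂ : MF n} {Φ S : ℝ → ℝ} {O : Set (V n)}
  {Ω : Set (VV n)} {z v : VV n}

/-- **The lower bound of the Hessian form.** -/
theorem TH_lower (h : Hz Λ₀ a c₁ β Λ δ ε s R l g s₁ s₂ Φ S O Ω) (hΛ : 1 ≤ Λ₀) (ha : 0 < a)
    (hC : 0 ≤ C) (hβ : β ≤ bT n Λ₀ a c₁) (hδ : δ ≤ dT n a C) (hz : z ∈ Ω)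
    (wb : WB C R l Φ (W0 l g Φ S) z) (A B : V n)
    (hv : v = (up (s₁ z.1) A, up (s₂ z.2) B)) :
      1 / 2 * deriv (deriv Φ) (uf l z) * dv v (uf l) z ^ 2 +
        1 / 2 * (s * deriv Φ (uf l z)) * (Vale.Agent.P088.R2.H464.Cu.dt v.1 v.1 +
          Vale.Agent.P088.R2.H464.Cu.dt v.2 v.2) +
        1 / 16 * Real.exp (uf l z) * Vale.Agent.P088.R2.H464.Cu.dt (v.1 - v.2) (v.1 - v.2) ≤
      TH (sx s₁) (sy s₂) (W0 l g Φ S) z A B := by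
  unfold bT at hβ
  unfold dT at hδ
  obtain ⟨k₀, hk₀⟩ : ∃ k₀ : ℝ, k₀ = 2 * n ^ 2 + n ^ 3 + n ^ 4 := ⟨_, rfl⟩
  have hk₀0 : 0 ≤ k₀ := by rw [hk₀]; positivity
  rw [← hk₀] at hβ
  obtain ⟨k, hk⟩ : ∃ k : ℝ, k = 4 * Λ₀ * (k₀ + 1) ^ 2 := ⟨_, rfl⟩
  have hk0 : 0 < k := by rw [hk]; positivity
  rw [← hk] at hβ
  obtain ⟨T, hT⟩ : ∃ T : ℝ, T = 12 * n ^ 4 * C * (1 + 1 / a) := ⟨_, rfl⟩
  have hT0 : 0 ≤ T := by rw [hT]; positivity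
  rw [← hT] at hδ
  obtain ⟨b1, b2⟩ := le_min_iff.1 hβ
  rw [le_div_iff₀ hk0] at b2
  obtain ⟨b2, b3⟩ := le_min_iff.1 b2
  obtain ⟨b3, b4⟩ := le_min_iff.1 b3
  obtain ⟨d1, d5⟩ := le_min_iff.1 hδ
  rw [le_div_iff₀ (by positivity)] at d5
  have hd := h.d0 hz
  have hN := h.dt.N0 z hz
  have hE := Real.exp_pos (uf l z)
  have M0 : 0 ≤ Vale.Agent.P088.R2.H464.Cu.dt v.1 v.1 + Vale.Agent.P088.R2.H464.Cu.dt v.2 v.2 :=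
    add_nonneg (Vale.Agent.P088.R2.H464.Cu.dt_nonneg _) (Vale.Agent.P088.R2.H464.Cu.dt_nonneg _)
  have q1 := TH_dd hC h ha hz wb A B hv
  rw [← hT, W0_dd h.dt.sΦ h.dt.sS h.dt.oΩ h.su h.sr hz v] at q1
  have q2 := h.u2 hz v
  have q3 := h.t2 hz v
  have q4 := h.ep hΛ b1 hz hk₀ v
  rw [← hk] at q4
  have d5' : T * δ ≤ 1 / 4 := by linarith
  have fin := th_fin hd.le h.β0.le h.s0.le hN.le hE.le (sq_nonneg (dv v (uf l) z))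
    (Vale.Agent.P088.R2.H464.Cu.dt_nonneg (v.1 - v.2)) M0 hk0.le
    (h.EN z hz) (h.EK z hz) q3 d1 (by linarith) (by linarith) (by linarith) d5'
  linarith

end main

end Vale.Agent.P088.R2.H437.Z0
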